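import Vale.Agent.P132.CFlow2

/-! Registers bring all scales to scale zero. -/

set_option linter.unusedSectionVars false

namespace Vale.Agent.P132

open Filter Topology MeasureTheory Vale.Agent.P096 Vale.Agent.P096b
open scoped InnerProductSpace ComplexConjugate

universe u

variable {H : Type u} [NormedAddCommGroup H] [InnerProductSpace ℂ H] [CompleteSpace H]
  {A B C C' : Alg H} {ξ : H} {μ : Mod A B ξ}

theorem cfin_row0 {s : ℝ} (r : RegSeq μ s) {ζ : ∀ m, r.ι m → H}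
    (h : Tendsto (fun m => ∑ i, ‖ζ m i‖ ^ 2) atTop (𝓝 0)) :
    Tendsto (fun m => ∑ i, r.v m i (ζ m i)) atTop (𝓝 0) := by
  have h1 := (h.const_mul (Real.exp s)).sqrt
  rw [mul_zero, Real.sqrt_zero] at h1
  exact squeeze_zero_norm (fun m => Real.le_sqrt_of_sq_le
    (row_le (Real.exp_pos s).le (r.fam m).row'' _)) h1

theorem cfin_adj (s : ℝ) (w : Op H) :
    star w ξ = ((Real.exp (s / 2) : ℝ) : ℂ) • (μ.J (w ξ) - μ.J (dfc μ s w)) := by
  have e : ((Real.exp (s / 2) : ℝ) : ℂ) * ((Real.exp (-s / 2) : ℝ) : ℂ) = 1 := by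
    rw [← Complex.ofReal_mul, ← Real.exp_add, show s / 2 + -s / 2 = 0 by ring]; simp
  rw [dfc, map_sub, J_rsmul, μ.JJ, sub_sub_cancel, smul_smul, e, one_smul]

theorem cfin_row {s : ℝ} (r : RegSeq μ s) {ρ : Op H} (hρ : ρ ∈ A) (h : Rel μ s ρ ρ) :
    Tendsto (fun m => ∑ i, r.v m i (ρ (star (r.v m i) ξ))) atTop
      (𝓝 (((Real.exp s : ℝ) : ℂ) • ρ ξ)) := by
  have e : ((Real.exp s : ℝ) : ℂ) * ((Real.exp (-s) : ℝ) : ℂ) = 1 := by
    rw [← Complex.ofReal_mul, ← Real.exp_add, add_neg_cancel]; simp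
  have h1 := ((ρ.continuous.tendsto _).comp (r.rowOp ξ)).const_smul ((Real.exp s : ℝ) : ℂ)
  have h2 := (μ.J.continuous.tendsto _).comp
    (cfin_row0 r (ζ := fun m i => μ.J ((r.v m i * ρ - ρ * r.v m i) ξ))
      (by simpa only [LinearIsometryEquiv.norm_map] using h.reg hρ hρ r ξ))
  have h3 : Tendsto (fun m => ∑ i, ‖μ.J (dfc μ s (r.v m i))‖ ^ 2) atTop (𝓝 0) := by
    simpa only [LinearIsometryEquiv.norm_map] using r.small
  have h4 := cfin_row0 r (ζ := fun m i => ρ (μ.J (dfc μ s (r.v m i)))) (by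
    have h5 := h3.const_mul (‖ρ‖ ^ 2)
    rw [mul_zero] at h5
    refine squeeze_zero (fun m => Finset.sum_nonneg fun i _ => sq_nonneg _) (fun m => ?_) h5
    rw [Finset.mul_sum]
    exact Finset.sum_le_sum fun i _ => sq_apply_le _ _)
  have h5 := (ρ.continuous.tendsto _).comp (cfin_row0 r h3)
  have h6 := ((h2.sub (h4.sub h5)).const_smul ((Real.exp (s / 2) : ℝ) : ℂ)).add h1
  simp only [map_zero, sub_zero, smul_zero, zero_add] at h6
  refine h6.congr fun m => ?_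
  simp only [Function.comp_apply, map_smul, smul_smul, e, one_smul, map_sum]
  rw [← Finset.sum_sub_distrib, ← Finset.sum_sub_distrib, Finset.smul_sum,
    ← Finset.sum_add_distrib]
  refine Finset.sum_congr rfl fun i _ => ?_
  have hw := (r.fam m).mem i
  rw [← J_comm_ξ μ (sub_mem (mul_mem hw hρ) (mul_mem hρ hw)) hw, cfin_adj (μ := μ) s (r.v m i)]
  simp only [sub_apply, mul_apply_eq_comp, map_smul, map_sub, smul_sub]
  abel

theorem cfin_gain {s : ℝ} (r : RegSeq μ s) {a n : Op H} (ha : a ∈ A) (h : Rel μ s a a) :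
    Tendsto (fun m => ∑ i, ‖(r.v m i * n * a - a * (r.v m i * n)) ξ‖ ^ 2) atTop
      (𝓝 (‖(n * a - a * n) ξ‖ ^ 2)) := by
  refine sq_tendsto ((h.reg ha ha r (n ξ)).congr fun m => Finset.sum_congr rfl fun i _ => ?_)
    (r.col _)
  congr 2
  simp only [sub_apply, mul_apply_eq_comp, map_sub]
  abel

theorem cfin_dfc {κ : ℝ} {ι : Type} [Fintype ι] {w : ι → Op H} (hw : Fm A (-κ) w) {n : Op H}
    (hn : n ∈ A) : ∑ i, ‖dfc μ 0 (w i * n)‖ ^ 2 ≤ 2 * ‖dfc μ κ n‖ ^ 2 +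
      2 * (Real.exp (-κ) * ‖n‖ ^ 2) * ∑ i, ‖dfc μ (-κ) (w i)‖ ^ 2 := by
  have h1 : ∀ i, ‖dfc μ 0 (w i * n)‖ ^ 2 ≤ 2 * ‖w i (dfc μ κ n)‖ ^ 2 +
      2 * (Real.exp (-κ) * ‖n‖ ^ 2) * ‖dfc μ (-κ) (w i)‖ ^ 2 := fun i => by
    have h2 := dfc_mul μ (-κ) κ (hw.mem i) hn
    rw [neg_add_cancel] at h2
    have h3 := sq_apply_le (star n) (μ.J (dfc μ (-κ) (w i)))
    rw [norm_star, LinearIsometryEquiv.norm_map] at h3
    have h4 := mul_le_mul_of_nonneg_left h3 (Real.exp_pos (-κ)).le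
    rw [h2]
    refine (sq_add_le _ _).trans ?_
    rw [sq_rsmul, exp_half_sq, LinearIsometryEquiv.norm_map]
    linarith
  refine (Finset.sum_le_sum fun i _ => h1 i).trans ?_
  rw [Finset.sum_add_distrib, ← Finset.mul_sum, ← Finset.mul_sum]
  linarith [hw.col (dfc μ κ n)]

/-- Take registers `r l : RegSeq μ (-κ l)` (`exists_reg`), a common large index, and
`k ⟨l, i⟩ = w l i * n l` on a sigma type. Column at most `1` (`h₁ = h₀ = 1`); `r₁ = ∑ k k*`,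
`r₀ = ∑ l, e ^ (-κ l) n l n l*`, `Λ = 1 + ∑ l, e ^ (-κ l) ‖n l‖ ^ 2`. With `ρ = n l n l* ∈ C`,
`∑ w ρ w* ξ - e ^ (-κ) ρ ξ = ∑ [w, ρ] w* ξ + ρ (∑ w w* ξ - e ^ (-κ) ξ)` tends to zero: `rowOp`,
`w* ξ = e ^ (-κ/2) J (w ξ - dfc w)`, `[w, ρ] J w ξ = J w J [w, ρ] ξ`, `row_le`, `Rel.reg`.
Defect: `dfc_mul`. Gain: `[w n, a] ξ = w [n, a] ξ + [w, a] (n ξ)`, `RegSeq.col`, `Rel.reg`,
`sq_tendsto`. -/
theorem reg_fam (h : Setup μ C C') (hrel : ∀ s, ∀ a ∈ C, Rel μ s a a) {a : Op H} (ha : a ∈ C)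
    {ι : Type} [Fintype ι] {n : ι → Op H} {κ : ι → ℝ} {β γ : ℝ} (β0 : 0 < β) (γ0 : 0 < γ)
    (hn : ∀ l, n l ∈ C) (h1 : ∀ η, ∑ l, ‖n l η‖ ^ 2 ≤ ‖η‖ ^ 2)
    (h2 : ∀ η, ∑ l, Real.exp (-κ l) * ‖star (n l) η‖ ^ 2 ≤ 2 * ‖η‖ ^ 2)
    (h3 : ∑ l, ‖dfc μ (κ l) (n l)‖ ^ 2 ≤ β) (h4 : γ ≤ ∑ l, ‖(n l * a - a * n l) ξ‖ ^ 2) :
    ∃ (ι' : Type) (_ : Fintype ι') (k : ι' → Op H), NFm μ 0 (3 * β) k ∧
      γ / 2 ≤ ∑ i, ‖(k i * a - a * k i) ξ‖ ^ 2 := by
  have r : ∀ l, RegSeq μ (-κ l) := fun l => (exists_reg h.erel _).some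
  have hA : ∀ l, n l ∈ A := fun l => h.le (hn l)
  set Λ := 1 + ∑ l, Real.exp (-κ l) * ‖n l‖ ^ 2 with hΛ
  have Λ0 : 0 ≤ ∑ l, Real.exp (-κ l) * ‖n l‖ ^ 2 := Finset.sum_nonneg fun l _ => by positivity
  have t1 := tendsto_finsetSum Finset.univ fun l _ =>
    cfin_row (r l) (h.le (mul_mem (hn l) (star_mem (hn l))))
      (hrel _ _ (mul_mem (hn l) (star_mem (hn l))))
  have t2 := (((tendsto_sub_nhds_zero_iff.2 t1).norm).pow 2).const_mul Λ
  have t3 := tendsto_finsetSum Finset.univ fun l _ =>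
    ((r l).small.const_mul (2 * (Real.exp (-κ l) * ‖n l‖ ^ 2)))
  have t4 := tendsto_finsetSum Finset.univ fun l _ =>
    cfin_gain (r l) (n := n l) (h.le ha) (hrel _ _ ha)
  simp only [norm_zero, mul_zero, Finset.sum_const_zero, ne_eq, OfNat.ofNat_ne_zero,
    not_false_eq_true, zero_pow] at t2 t3
  obtain ⟨m, m2, m3, m4⟩ := ((t2.eventually (gt_mem_nhds (show 0 < 3 * β by positivity))).and
    ((t3.eventually (gt_mem_nhds β0)).and
      (t4.eventually (lt_mem_nhds ((half_lt_self γ0).trans_le h4))))).exists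
  have hk : ∀ p : Σ l, (r l).ι m, (r p.1).v m p.2 * n p.1 ∈ A := fun p =>
    mul_mem (((r p.1).fam m).mem _) (hA _)
  refine ⟨Σ l, (r l).ι m, inferInstance, fun p => (r p.1).v m p.2 * n p.1,
    ⟨Λ, 1, 1, ∑ p : Σ l, (r l).ι m, (r p.1).v m p.2 * n p.1 * star ((r p.1).v m p.2 * n p.1),
      ∑ l, ((Real.exp (-κ l) : ℝ) : ℂ) • (n l * star (n l)), by linarith,
      ⟨hk, fun η => ?_, fun η => ?_⟩,
      ⟨one_mem _, one_mem _, star_one _, star_one _, fun η => ?_, fun η => ?_, ?_⟩,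
      ⟨sum_mem fun p _ => mul_mem (hk p) (star_mem (hk p)),
        sum_mem fun l _ => A.smul_mem (mul_mem (hA l) (star_mem (hA l))) _, ?_, ?_,
        fun η => ?_, fun η => ?_, ?_⟩, ?_⟩, ?_⟩
  · rw [re_one, Fintype.sum_sigma]
    exact (Finset.sum_le_sum fun l _ => ((r l).fam m).col (n l η)).trans (h1 η)
  · rw [row_re, neg_zero, Real.exp_zero, one_mul]
  · rw [re_one]; nlinarith [sq_nonneg ‖η‖]
  · rw [re_one]; nlinarith [sq_nonneg ‖η‖]
  · simp only [sub_self, zero_apply, norm_zero]; nlinarith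
  · simp only [star_sum, star_mul, star_star]
  · simp only [star_sum, star_smul, star_mul, star_star, Complex.star_def, Complex.conj_ofReal]
  · rw [row_re, Fintype.sum_sigma, hΛ, add_mul, Finset.sum_mul]
    refine (Finset.sum_le_sum fun l _ => ?_).trans (le_add_of_nonneg_left (by positivity))
    have h5 := mul_le_mul_of_nonneg_left (((r l).fam m).row'' η) (sq_nonneg ‖n l‖)
    rw [Finset.mul_sum] at h5
    refine (Finset.sum_le_sum fun i _ => ?_).trans (h5.trans_eq (by ring))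
    rw [star_mul, mul_apply_eq_comp, ← norm_star (n l)]
    exact sq_apply_le _ _
  · refine le_trans (le_of_eq ?_) (h2 η)
    simp only [sum_apply, inner_sum, Complex.re_sum, smul_apply, inner_smul_right,
      Complex.re_ofReal_mul, tl_norm_sq, star_star]
  · refine le_trans (le_of_eq ?_) m2.le
    simp only [sub_apply, sum_apply, Fintype.sum_sigma, smul_apply, star_mul, mul_apply_eq_comp]
  · rw [Fintype.sum_sigma]
    refine (Finset.sum_le_sum fun l _ => cfin_dfc ((r l).fam m) (hA l)).trans ?_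
    rw [Finset.sum_add_distrib, ← Finset.mul_sum]
    linarith
  · rw [Fintype.sum_sigma]
    exact m4.le

end Vale.Agent.P132
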