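import Vale.Agent.P132.CBic
import Vale.Agent.P132.CFlow1
import Vale.Agent.P132.CFlow2

/-! The bicentralizer flow. -/

set_option linter.unusedSectionVars false

namespace Vale.Agent.P132

open Filter Topology MeasureTheory Vale.Agent.P096 Vale.Agent.P096b
open scoped InnerProductSpace ComplexConjugate

universe u

variable {H : Type u} [NormedAddCommGroup H] [InnerProductSpace ℂ H] [CompleteSpace H]
  {A B C C' : Alg H} {ξ : H} {μ : Mod A B ξ}

/-- The projection onto the closure of `C ξ`. -/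
theorem cflow3_proj (C : Alg H) (ξ : H) : ∃ E : Op H, IsStarProjection E ∧
    (∀ c ∈ C, E (c ξ) = c ξ) ∧
    (∀ η, ∀ ε : ℝ, 0 < ε → ∃ c ∈ C, ∃ z, E z = 0 ∧ ‖η - (c ξ + z)‖ < ε) ∧
    ∀ u : Op H, (∀ c ∈ C, ∃ c' ∈ C, u (c ξ) = c' ξ) →
      (∀ c ∈ C, ∃ c' ∈ C, star u (c ξ) = c' ξ) → u * E = E * u := by
  obtain ⟨E, he, h1, h2, h3⟩ := tl_supp {ζ | ∃ c ∈ C, ζ = c ξ}
  refine ⟨E, he, fun c hc => h1 _ ⟨c, hc, rfl⟩, fun η ε hε => ?_, fun u k1 k2 => h3 u ?_ ?_⟩
  · obtain ⟨ζ, h5, h6⟩ := Metric.mem_closure_iff.1 (h2 η) ε hε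
    have h7 : ∃ b ∈ C, ζ = b ξ := by
      clear h6
      induction h5 using Submodule.span_induction with
      | mem v hv => exact hv
      | zero => exact ⟨0, zero_mem _, rfl⟩
      | add _ _ _ _ k1 k2 =>
        obtain ⟨b, hb, rfl⟩ := k1
        obtain ⟨c, hc, rfl⟩ := k2
        exact ⟨b + c, add_mem hb hc, rfl⟩
      | smul c _ _ k1 =>
        obtain ⟨b, hb, rfl⟩ := k1
        exact ⟨c • b, C.smul_mem hb c, rfl⟩
    obtain ⟨b, hb, rfl⟩ := h7
    have e : E (E η) = E η := congrArg (fun T : Op H => T η) he.isIdempotentElem.eq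
    refine ⟨b, hb, η - E η, by rw [map_sub, e, sub_self], ?_⟩
    rw [dist_eq_norm] at h6
    rwa [show η - (b ξ + (η - E η)) = E η - b ξ by abel]
  · rintro _ ⟨c, hc, rfl⟩
    exact k1 c hc
  · rintro _ ⟨c, hc, rfl⟩
    exact k2 c hc

theorem cflow3_ext {E x y : Op H}
    (hd : ∀ η, ∀ ε : ℝ, 0 < ε → ∃ c ∈ C, ∃ z, E z = 0 ∧ ‖η - (c ξ + z)‖ < ε)
    (h1 : ∀ c ∈ C, x (c ξ) = y (c ξ)) (h2 : ∀ z, E z = 0 → x z = y z) : x = y := by
  refine ContinuousLinearMap.ext fun η => ?_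
  refine (isClosed_eq x.continuous y.continuous).closure_subset
    (Metric.mem_closure_iff.2 fun ε hε => ?_)
  obtain ⟨c, hc, z, hz, h⟩ := hd η ε hε
  refine ⟨c ξ + z, ?_, by rwa [dist_eq_norm]⟩
  change x (c ξ + z) = y (c ξ + z)
  rw [map_add, map_add, h1 c hc, h2 z hz]

theorem cflow3_one (s : ℝ) : Rel μ s 1 1 := fun γ hγ =>
  ⟨1, one_pos, fun ι _ y _ _ => by simpa using hγ.le⟩

/-- Choose registers and `β s`, `X s` (`exists_reg`, `flow_ex`). `URel` from `bic_fam`. `β s a ∈ C`: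
`Rel.comp` with `t = 0`, `bic_of_rel`. `β t (β s a) = β (t + s) a`, `β 0 a = a` and
`β s (σ t a) = σ t (β s a)` by `Rel.comp`, `Rel.uniq`, `Rel.σ`. Let `E` be the projection onto the
closure of `C ξ` (`tl_supp`; it commutes with `U t`), `W s = X s * E + (1 - E)`. Two operators that
agree on `C ξ` and on the range of `1 - E` are equal. `E X E = X E`, so `W s` is a contraction with
inverse the contraction `W (-s)`, hence an isometry and `star (W s) = W (-s)`. `W s ξ = ξ` because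
`Rel μ s 1 1`. Continuity at `0` on `C ξ` by `rel_cont`, then by density and the group law. -/
theorem exists_flow (h : Setup μ C C') : Nonempty (Flow μ C) := by
  have r : ∀ s, RegSeq μ s := fun s => (exists_reg h.erel s).some
  choose β X hX hβ hk using fun s => flow_ex (r s)
  have h0 : ∀ a ∈ C, Rel μ 0 a a := fun a ha => bic_fam h.norm ((h.iff a).1 ha)
  have hU : ∀ a ∈ C, URel μ a fun s => β s a := fun a ha γ hγ => by
    obtain ⟨θ, hθ, k⟩ := h0 a ha γ hγ
    exact ⟨θ / 4, by positivity, fun s => hk s a (h.le ha) γ θ hθ k⟩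
  have hR : ∀ s, ∀ a ∈ C, Rel μ s a (β s a) := fun s a ha => (hU a ha).rel s
  have hA : ∀ s, ∀ a ∈ C, β s a ∈ A := fun s a ha => (hβ s a (h.le ha)).1
  have hm : ∀ s, ∀ a ∈ C, β s a ∈ C := fun s a ha =>
    (h.iff _).2 (bic_of_rel (hA s a ha) (Rel.comp (r s) (h.le ha) (hA s a ha) (hA s a ha)
      (hR s a ha) (by rw [zero_add]; exact hR s a ha)))
  have hadd : ∀ t s, ∀ a ∈ C, β t (β s a) = β (t + s) a := fun t s a ha =>
    Rel.uniq (r t) (hA s a ha) (hA t _ (hm s a ha)) (hA _ a ha) (hR t _ (hm s a ha))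
      (Rel.comp (r s) (h.le ha) (hA s a ha) (hA _ a ha) (hR s a ha) (hR _ a ha))
  have hz : ∀ a ∈ C, β 0 a = a := fun a ha =>
    Rel.uniq (r 0) (h.le ha) (hA 0 a ha) (h.le ha) (hR 0 a ha) (h0 a ha)
  have hσ : ∀ s t, ∀ a ∈ C, β s (μ.σ t a) = μ.σ t (β s a) := fun s t a ha =>
    Rel.uniq (r s) (h.le (h.σ_mem t a ha)) (hA s _ (h.σ_mem t a ha)) (μ.uA t _ (hA s a ha))
      (hR s _ (h.σ_mem t a ha)) ((hR s a ha).σ t)
  have h1 : ∀ s, β s 1 = 1 := fun s =>
    Rel.uniq (r s) (one_mem _) (hA s 1 (one_mem _)) (one_mem _) (hR s 1 (one_mem _))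
      (cflow3_one s)
  obtain ⟨E, he, e1, e2, e3⟩ := cflow3_proj C ξ
  have eE : ∀ η, E (E η) = E η := fun η => congrArg (fun T : Op H => T η) he.isIdempotentElem.eq
  obtain ⟨W, hW⟩ : ∃ W : ℝ → Op H, ∀ s η, W s η = X s (E η) + (η - E η) :=
    ⟨fun s => X s * E + (1 - E), fun s η => rfl⟩
  have w1 : ∀ s, ∀ a ∈ C, W s (a ξ) = β s a ξ := fun s a ha => by
    rw [hW, e1 a ha, sub_self, add_zero, (hβ s a (h.le ha)).2.2]
  have w2 : ∀ s z, E z = 0 → W s z = z := fun s z hz => by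
    rw [hW, hz, map_zero, zero_add, sub_zero]
  have wz : W 0 = 1 := cflow3_ext e2 (fun c hc => by rw [w1 0 c hc, hz c hc]; rfl)
    fun z hz => w2 0 z hz
  have wa : ∀ s t, W (s + t) = W s * W t := fun s t => cflow3_ext e2
    (fun c hc => by rw [mul_apply_eq_comp, w1 _ c hc, w1 _ c hc, w1 _ _ (hm t c hc), hadd s t c hc])
    fun z hz => by rw [mul_apply_eq_comp, w2 _ z hz, w2 _ z hz, w2 _ z hz]
  have hEX : ∀ s, E * (X s * E) = X s * E := fun s => cflow3_ext e2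
    (fun c hc => by
      rw [mul_apply_eq_comp, mul_apply_eq_comp, e1 c hc, (hβ s c (h.le hc)).2.2,
        e1 _ (hm s c hc)])
    fun z hz => by rw [mul_apply_eq_comp, mul_apply_eq_comp, hz, map_zero, map_zero]
  have wle : ∀ s η, ‖W s η‖ ≤ ‖η‖ := fun s η => by
    have k0 : E (η - E η) = 0 := by rw [map_sub, eE, sub_self]
    have k1 := tl_pyth he (X s (E η)) (η - E η) (congrArg (fun T : Op H => T η) (hEX s)) k0
    have k2 := tl_pyth he (E η) (η - E η) (eE η) k0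
    have k3 : ‖X s (E η)‖ ≤ ‖E η‖ := by simpa using (X s).le_of_opNorm_le (hX s) (E η)
    rw [add_sub_cancel] at k2
    rw [← hW] at k1
    refine (pow_le_pow_iff_left₀ (norm_nonneg _) (norm_nonneg _) two_ne_zero).1 ?_
    have k4 := pow_le_pow_left₀ (norm_nonneg _) k3 2
    linarith
  have winv : ∀ s, W s * W (-s) = 1 := fun s => by rw [← wa, add_neg_cancel, wz]
  have wn : ∀ s η, ‖W s η‖ = ‖η‖ := fun s η => le_antisymm (wle s η) (by
    have k := wle (-s) (W s η)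
    have k2 := winv (-s)
    rw [neg_neg] at k2
    rwa [← mul_apply_eq_comp, k2] at k)
  have ws : ∀ s, star (W s) = W (-s) := fun s => by
    have k : star (W s) * W s = 1 := ext_inner_self fun η => by
      rw [mul_apply_eq_comp, ← tl_inner, inner_self_eq_norm_sq_to_K, wn, one_apply_eq_self,
        inner_self_eq_norm_sq_to_K]
    rw [← mul_one (star (W s)), ← winv s, ← mul_assoc, k, one_mul]
  have wc0 : ∀ η, Tendsto (fun s => W s η) (𝓝 0) (𝓝 η) := fun η =>
    Metric.tendsto_nhds_nhds.2 fun ε hε => by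
      obtain ⟨c, hc, z, hz, k⟩ := e2 η (ε / 3) (by positivity)
      obtain ⟨δ, hδ, k2⟩ := rel_cont (h.le hc) (h0 c hc) (ε / 3) (by positivity)
      refine ⟨δ, hδ, fun s hs => ?_⟩
      rw [Real.dist_eq, sub_zero] at hs
      have k3 := k2 s hs.le (r s) _ (hA s c hc) (hR s c hc)
      have e : W s η - η = W s (η - (c ξ + z)) + (β s c ξ - c ξ) + -(η - (c ξ + z)) := by
        rw [map_sub, map_add, w1 s c hc, w2 s z hz]; abel
      have k4 := norm_add₃_le (a := W s (η - (c ξ + z))) (b := β s c ξ - c ξ)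
        (c := -(η - (c ξ + z)))
      rw [wn, norm_neg] at k4
      rw [dist_eq_norm, e]
      linarith
  have hUE : ∀ t, μ.U t * E = E * μ.U t := fun t => e3 _
    (fun c hc => ⟨_, h.σ_mem t c hc, (σ_ξ μ t c).symm⟩)
    fun c hc => ⟨_, h.σ_mem (-t) c hc, by rw [Calc.star_U]; exact (σ_ξ μ (-t) c).symm⟩
  refine ⟨⟨β, W, hm, fun s a ha => (hβ s a (h.le ha)).2.1, w1, hU, wz, wa, ws, fun η => ?_,
    fun s t => cflow3_ext e2 (fun c hc => ?_) fun z hz => ?_, fun s => ?_⟩⟩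
  · refine continuous_iff_continuousAt.2 fun t => ?_
    have k1 : Tendsto (fun s : ℝ => s - t) (𝓝 t) (𝓝 0) := by
      have k := (by fun_prop : Continuous fun s : ℝ => s - t).tendsto t
      rwa [sub_self] at k
    refine (((W t).continuous.tendsto η).comp ((wc0 η).comp k1)).congr fun s => ?_
    change (W t * W (s - t)) η = W s η
    rw [← wa, add_sub_cancel]
  · rw [mul_apply_eq_comp, mul_apply_eq_comp, w1 s c hc, ← σ_ξ, ← σ_ξ, w1 s _ (h.σ_mem t c hc),
      hσ s t c hc]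
  · have k : E (μ.U t z) = 0 := by
      rw [← mul_apply_eq_comp, ← hUE, mul_apply_eq_comp, hz, map_zero]
    rw [mul_apply_eq_comp, mul_apply_eq_comp, w2 s z hz, w2 s _ k]
  · have k := w1 s 1 (one_mem _)
    rwa [h1] at k

end Vale.Agent.P132
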