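import Vale.Agent.P132.IE0
import Vale.Agent.P132b.Var
import Vale.Agent.P132b.Inf
import Vale.Agent.P132b.Zero
import Vale.Agent.P132b.Freq

/-! The second half of the bicentralizer theorem. -/

set_option linter.unusedSectionVars false

namespace Vale.Agent.P132

open Filter Topology MeasureTheory Vale.Agent.P096 Vale.Agent.P096b
open scoped InnerProductSpace ComplexConjugate

universe u

variable {K : Type u} [NormedAddCommGroup K] [InnerProductSpace ℂ K] [CompleteSpace K]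
  {A B : Alg K} {ξ : K}

theorem core_one (η : K) : (⟪η, (1 : Op K) η⟫_ℂ).re = ‖η‖ ^ 2 := by
  rw [ContinuousLinearMap.one_apply, inner_self_eq_norm_sq_to_K]; norm_cast

theorem core_proj {e : Op K} (he : IsStarProjection e) : Pc e := by
  refine ⟨he.isSelfAdjoint, fun η => ?_⟩
  have : (⟪η, e η⟫_ℂ).re = ‖e η‖ ^ 2 := by
    conv_lhs => rw [← he.isIdempotentElem.eq, ContinuousLinearMap.mul_apply]
    conv_lhs => enter [1, 3, 1]; rw [← he.isSelfAdjoint.star_eq]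
    rw [ContinuousLinearMap.star_eq_adjoint, ContinuousLinearMap.adjoint_inner_right,
      inner_self_eq_norm_sq_to_K]; norm_cast
  rw [this]
  refine ⟨by positivity, pow_le_pow_left₀ (norm_nonneg _) ?_ 2⟩
  exact (e.le_opNorm η).trans (mul_le_of_le_one_left (norm_nonneg _) he.norm_le)

theorem core_dfc (μ : Mod A B ξ) {m : ℝ} (hm : 0 < m) (c : Op K) :
    (m : ℂ) • c ξ - P132b.rt μ c ξ = (m : ℂ) • dfc μ (2 * Real.log m) c := by
  have : Real.exp (-(2 * Real.log m) / 2) = m⁻¹ := by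
    rw [show -(2 * Real.log m) / 2 = -Real.log m by ring, Real.exp_neg, Real.exp_log hm]
  rw [dfc, this, smul_sub, smul_smul, P132b.rt_η, ← Complex.ofReal_mul, mul_inv_cancel₀ hm.ne',
    Complex.ofReal_one, one_smul]

theorem core_le (μ : Mod A B ξ) (hΓ : Gam μ) : P132b.LE μ := by
  intro e f he hf pe pf e0 f0 m ε hm hε
  obtain ⟨x, hx, x0, h⟩ := hΓ e f he hf (core_proj pe) (core_proj pf) e0 f0 (2 * Real.log m)
    ((ε / m) ^ 2) (by positivity)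
  refine ⟨e * x * f, mul_mem (mul_mem he.1 hx) hf.1, x0, ?_, ?_, ?_⟩
  · rw [← mul_assoc, ← mul_assoc, pe.isIdempotentElem.eq]
  · rw [mul_assoc, pf.isIdempotentElem.eq]
  · rw [core_dfc μ hm, norm_smul, Complex.norm_real, Real.norm_of_nonneg hm.le]
    rw [← mul_pow] at h
    have := le_of_pow_le_pow_left₀ two_ne_zero (by positivity) h
    calc _ ≤ m * (ε / m * ‖(e * x * f) ξ‖) := mul_le_mul_of_nonneg_left this hm.le
      _ = _ := by field_simp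

theorem core_fam (μ : Mod A B ξ) (hξ : ‖ξ‖ = 1) (hE : ERel μ) (m : ℝ) (h0 : 0 < m)
    (h1 : m ≤ 1) : P132b.Fam μ m := by
  intro ε hε
  have p1 : Pc (1 : Op K) := core_proj (IsStarProjection.one _)
  have c1 : Cen μ 1 := P132b.Cen.one
  set t := 2 * Real.log m with ht
  obtain ⟨ι, _, n, hn, d1, d2⟩ := hE 1 1 c1 c1 p1 p1 t ε hε
  rw [min_self, core_one, hξ, one_pow] at d2
  have et : Real.exp (-t) = (m ^ 2)⁻¹ := by
    rw [Real.exp_neg, ht, two_mul, Real.exp_add, Real.exp_log h0, sq]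
  have m2 : m ^ 2 ≤ 1 := by nlinarith
  refine ⟨ι, inferInstance, n, hn.mem, ?_, fun θ => ?_, fun θ => ?_, d2⟩
  · simp only [core_dfc μ h0, norm_smul, mul_pow, Complex.norm_real, Real.norm_eq_abs, sq_abs]
    rw [← Finset.mul_sum]
    have : 0 ≤ ∑ i, ‖dfc μ t (n i)‖ ^ 2 := by positivity
    nlinarith
  · rw [← core_one]; exact hn.col θ
  · have := hn.row θ
    rw [core_one, et, inv_mul_le_iff₀ (by positivity)] at this
    exact this.trans (mul_le_of_le_one_left (by positivity) m2)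

theorem core_var (μ : Mod A B ξ) (ζ : K) {R : ℝ} (hR : 0 < R) : ∃ ξ₀ θ₀ : K,
    (∀ ε : ℝ, 0 < ε → ∃ (n : ℕ) (l : Fin n → ℝ) (u : Fin n → Op K), (∀ i, 0 ≤ l i) ∧
      ∑ i, l i = 1 ∧ (∀ i, u i ∈ A ∧ u i ∈ unitary (Op K)) ∧
        ‖∑ i, (l i : ℂ) • P132b.Ad μ (u i) ζ - ξ₀‖ ≤ ε ∧
          ‖∑ i, (l i : ℂ) • P132b.Ad μ (u i) ξ - θ₀‖ ≤ ε) ∧
    R * ‖θ₀ - ξ‖ ≤ ‖ζ‖ ∧ P132b.Gap μ (2 * R) ξ₀ ξ := by
  obtain ⟨ξ₀, θ₀, h1, h2, h3, -⟩ := P132b.var_cvx (G := {u : Op K // u ∈ A ∧ u ∈ unitary (Op K)})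
    (fun u => P132b.Ad μ u.1) (fun u => P132b.Ad_unitary μ u.2.2)
    ⟨⟨1, one_mem _, one_mem _⟩, P132b.Ad_one μ⟩
    (fun u v => ⟨⟨u.1 * v.1, mul_mem u.2.1 v.2.1, mul_mem u.2.2 v.2.2⟩,
      P132b.Ad_mul μ u.2.1 v.2.1⟩)
    (fun u => ⟨⟨star u.1, star_mem u.2.1, Unitary.star_mem u.2.2⟩, P132b.Ad_star μ u.2.1⟩) ζ ξ hR
  refine ⟨ξ₀, θ₀, fun ε hε => ?_, h2, P132b.gap_of_unitary μ hR.le (μ.J_fix μ.cp) fun u hA hu => ?_⟩
  · obtain ⟨n, l, g, k1, k2, k3, k4⟩ := h1 ε hε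
    exact ⟨n, l, fun i => (g i).1, k1, k2, fun i => (g i).2, k3, k4⟩
  · rw [← P132b.norm_Ad_sub μ hA hu, ← P132b.norm_Ad_sub μ hA hu]
    exact h3 ⟨u, hA, hu⟩

theorem core_fix (μ : Mod A B ξ) (hξ : ‖ξ‖ = 1) (hΓ : Gam μ) (hE : ERel μ) {R : ℝ} (hR : 0 ≤ R)
    {ζ : K} (h : P132b.Gap μ R ζ ξ) (hJ : μ.J ζ = ζ) : ∃ c : ℂ, ζ = c • ξ := by
  have x0 : ξ ≠ 0 := by rintro rfl; simp at hξ
  exact P132b.zero_freq μ (core_le μ hΓ) x0
    (fun t => P132b.gap_fix μ hξ (core_fam μ hξ hE) hR h t) hJ h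

theorem core_gap (μ : Mod A B ξ) (hξ : ‖ξ‖ = 1) (hΓ : Gam μ) (hE : ERel μ) {R : ℝ} (hR : 0 ≤ R)
    {ζ : K} (h : P132b.Gap μ R ζ ξ) : ∃ c : ℂ, ζ = c • ξ := by
  have hJ := P132b.Gap.J μ h
  obtain ⟨c₁, h1⟩ := core_fix μ hξ hΓ hE (R := 2 * R) (by positivity) (ζ := ζ + μ.J ζ)
    (fun c hc => by
      rw [map_add]
      exact (norm_add_le _ _).trans (by linarith [h c hc, hJ c hc]))
    (by rw [map_add, μ.JJ, add_comm])
  obtain ⟨c₂, h2⟩ := core_fix μ hξ hΓ hE (R := 2 * R) (by positivity)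
    (ζ := Complex.I • (ζ - μ.J ζ))
    (fun c hc => by
      rw [map_smul, norm_smul, Complex.norm_I, one_mul, map_sub]
      exact (norm_sub_le _ _).trans (by linarith [h c hc, hJ c hc]))
    (by rw [map_smulₛₗ, map_sub, μ.JJ, Complex.conj_I, neg_smul, ← smul_neg, neg_sub])
  refine ⟨(c₁ - Complex.I * c₂) / 2, ?_⟩
  have e : (2 : ℂ) • ζ = (ζ + μ.J ζ) - Complex.I • (Complex.I • (ζ - μ.J ζ)) := by
    rw [smul_smul, Complex.I_mul_I, neg_smul, one_smul, two_smul]; abel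
  rw [h1, h2, smul_smul, ← sub_smul] at e
  rw [div_eq_inv_mul, mul_smul, ← e, smul_smul, inv_mul_cancel₀ two_ne_zero, one_smul]

theorem core_ad (μ : Mod A B ξ) {a u : Op K} (ha : a ∈ A) (hA : u ∈ A)
    (hu : u ∈ unitary (Op K)) : ‖P132b.Ad μ u (a ξ) - a ξ‖ ≤
      ‖(u * a - a * u) ξ‖ + ‖a‖ * ‖P132b.Ad μ u ξ - ξ‖ := by
  have hb : jc μ.J u ∈ B := μ.jA u hA
  have c1 : ∀ {x : Op K}, x ∈ A → ∀ η, x (jc μ.J u η) = jc μ.J u (x η) := fun hx η =>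
    congrArg (fun z : Op K => z η) ((μ.cp.left _).1 hx _ hb)
  have e : P132b.Ad μ u (a ξ) - a ξ =
      jc μ.J u ((u * a - a * u) ξ) + a (P132b.Ad μ u ξ - ξ) := by
    simp only [P132b.Ad, ContinuousLinearMap.mul_apply, ContinuousLinearMap.sub_apply, map_sub,
      c1 hA, c1 ha]
    abel
  rw [e]
  refine (norm_add_le _ _).trans (add_le_add (unitary_norm (jc_unitary μ.JJ hu) _).le ?_)
  exact a.le_opNorm _

theorem core_near (μ : Mod A B ξ) (hξ : ‖ξ‖ = 1) (hΓ : Gam μ) (hE : ERel μ) {a : Op K}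
    (ha : Bic μ a) (ε : ℝ) (hε : 0 < ε) : ∃ c : ℂ, ‖a ξ - c • ξ‖ ≤ ε * (‖a‖ + 3) := by
  obtain ⟨δ, δ0, hδ⟩ := ha.2 ε hε
  set C : ℝ := 2 * ‖a‖ / δ ^ 2 + ‖a‖ / ε with hC
  have C0 : 0 ≤ C := by positivity
  set κ : ℝ := min ε (ε / (4 * C + 1)) with hκ
  have κ0 : 0 < κ := by positivity
  have κ1 : κ ≤ ε := min_le_left _ _
  have κ2 : κ * (4 * C + 1) ≤ ε := (le_div_iff₀ (by positivity)).1 (min_le_right _ _)
  obtain ⟨ξ₀, θ₀, h1, h2, h3⟩ := core_var μ (a ξ) (R := (‖a ξ‖ + 1) / κ) (by positivity)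
  obtain ⟨c, rfl⟩ := core_gap μ hξ hΓ hE (by positivity) h3
  obtain ⟨n, l, u, l0, l1, hu, k1, k2⟩ := h1 κ κ0
  have k3 : ‖θ₀ - ξ‖ ≤ κ := by
    rw [div_mul_eq_mul_div, div_le_iff₀ κ0] at h2
    by_contra hn
    have := not_le.1 hn
    nlinarith [norm_nonneg (a ξ)]
  have k4 : ‖∑ i, (l i : ℂ) • P132b.Ad μ (u i) ξ - ξ‖ ≤ 2 * κ :=
    (norm_sub_le_norm_sub_add_norm_sub _ θ₀ _).trans (by linarith)
  have sq : ∀ i, ‖P132b.Ad μ (u i) ξ - ξ‖ ^ 2 =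
      -2 * (⟪ξ, P132b.Ad μ (u i) ξ - ξ⟫_ℂ).re := fun i => by
    rw [norm_sub_rev, @norm_sub_sq ℂ, unitary_norm (P132b.Ad_unitary μ (hu i).2), hξ,
      inner_sub_right, Complex.sub_re, inner_self_eq_norm_sq_to_K, hξ]
    simp
    ring
  have dec : ∀ η : K, ∑ i, (l i : ℂ) • P132b.Ad μ (u i) η - η =
      ∑ i, (l i : ℂ) • (P132b.Ad μ (u i) η - η) := fun η => by
    simp only [smul_sub, Finset.sum_sub_distrib, ← Finset.sum_smul]
    rw [← Complex.ofReal_sum, l1, Complex.ofReal_one, one_smul]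
  have k5 : ∑ i, l i * ‖P132b.Ad μ (u i) ξ - ξ‖ ^ 2 ≤ 4 * κ := by
    have e : ∑ i, l i * ‖P132b.Ad μ (u i) ξ - ξ‖ ^ 2 =
        -2 * (⟪ξ, ∑ i, (l i : ℂ) • P132b.Ad μ (u i) ξ - ξ⟫_ℂ).re := by
      rw [dec, inner_sum, Complex.re_sum, Finset.mul_sum]
      refine Finset.sum_congr rfl fun i _ => ?_
      rw [sq, inner_smul_right, Complex.re_ofReal_mul]; ring
    have := (Complex.abs_re_le_norm _).trans (norm_inner_le_norm (𝕜 := ℂ) ξ
      (∑ i, (l i : ℂ) • P132b.Ad μ (u i) ξ - ξ))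
    rw [hξ, one_mul] at this
    rw [e]
    linarith [neg_abs_le (⟪ξ, ∑ i, (l i : ℂ) • P132b.Ad μ (u i) ξ - ξ⟫_ℂ).re]
  have each : ∀ i, ‖P132b.Ad μ (u i) (a ξ) - a ξ‖ ≤
      ε * (‖a‖ + 1) + C * ‖P132b.Ad μ (u i) ξ - ξ‖ ^ 2 := fun i => by
    set d := ‖P132b.Ad μ (u i) ξ - ξ‖ with hd
    have d0 : 0 ≤ d := norm_nonneg _
    have j1 : ‖(u i * a - a * u i) ξ‖ ≤ ε + 2 * ‖a‖ / δ ^ 2 * d ^ 2 := by
      by_cases hi : d ≤ δ
      · rw [hd, P132b.norm_Ad_sub μ (hu i).1 (hu i).2, P132b.ad_apply, P132b.rt_η] at hi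
        exact (hδ _ (hu i).2 (hu i).1 hi).trans (le_add_of_nonneg_right (by positivity))
      · have n1 : ‖u i (a ξ)‖ ≤ ‖a‖ := by
          rw [unitary_norm (hu i).2]
          simpa [hξ] using a.le_opNorm ξ
        have n2 : ‖a (u i ξ)‖ ≤ ‖a‖ := by
          simpa [unitary_norm (hu i).2, hξ] using a.le_opNorm (u i ξ)
        have n3 : ‖(u i * a - a * u i) ξ‖ ≤ 2 * ‖a‖ :=
          (norm_sub_le (u i (a ξ)) (a (u i ξ))).trans (by linarith)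
        have n4 : δ ^ 2 ≤ d ^ 2 := pow_le_pow_left₀ δ0.le (not_le.1 hi).le 2
        have n5 : 2 * ‖a‖ ≤ 2 * ‖a‖ / δ ^ 2 * d ^ 2 := by
          rw [div_mul_eq_mul_div, le_div_iff₀ (by positivity)]
          exact mul_le_mul_of_nonneg_left n4 (by positivity)
        linarith
    have j2 : d ≤ ε + d ^ 2 / ε := by
      have : 0 ≤ (ε - d) ^ 2 / ε := by positivity
      have e : (ε - d) ^ 2 / ε = ε + d ^ 2 / ε - 2 * d := by field_simp; ring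
      linarith
    have j3 := mul_le_mul_of_nonneg_left j2 (norm_nonneg a)
    refine (core_ad μ ha.1 (hu i).1 (hu i).2).trans ?_
    have e : C * d ^ 2 = 2 * ‖a‖ / δ ^ 2 * d ^ 2 + ‖a‖ * (d ^ 2 / ε) := by rw [hC]; ring
    rw [e]
    linarith
  have k6 : ‖∑ i, (l i : ℂ) • P132b.Ad μ (u i) (a ξ) - a ξ‖ ≤ ε * (‖a‖ + 1) + C * (4 * κ) := by
    rw [dec]
    refine (norm_sum_le _ _).trans ?_
    have : ∀ i ∈ Finset.univ, ‖(l i : ℂ) • (P132b.Ad μ (u i) (a ξ) - a ξ)‖ ≤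
        l i * (ε * (‖a‖ + 1)) + C * (l i * ‖P132b.Ad μ (u i) ξ - ξ‖ ^ 2) := fun i _ => by
      rw [norm_smul, Complex.norm_real, Real.norm_of_nonneg (l0 i)]
      have := mul_le_mul_of_nonneg_left (each i) (l0 i)
      linarith
    refine (Finset.sum_le_sum this).trans ?_
    rw [Finset.sum_add_distrib, ← Finset.sum_mul, l1, one_mul, ← Finset.mul_sum]
    exact add_le_add le_rfl (mul_le_mul_of_nonneg_left k5 C0)
  refine ⟨c, ?_⟩
  have := norm_sub_le_norm_sub_add_norm_sub (a ξ) (∑ i, (l i : ℂ) • P132b.Ad μ (u i) (a ξ)) (c • ξ)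
  rw [norm_sub_rev (a ξ) (∑ i, _)] at this
  nlinarith

theorem core : CoreStmt.{u} := by
  intro K _ _ _ A B ξ μ hξ hΓ hE a ha
  have hc : IsClosed ((ℂ ∙ ξ : Submodule ℂ K) : Set K) := Submodule.closed_of_finiteDimensional _
  have : a ξ ∈ ((ℂ ∙ ξ : Submodule ℂ K) : Set K) := by
    rw [← hc.closure_eq, Metric.mem_closure_iff]
    intro ε hε
    obtain ⟨c, h⟩ := core_near μ hξ hΓ hE ha (ε / (2 * (‖a‖ + 3))) (by positivity)
    refine ⟨c • ξ, Submodule.mem_span_singleton.2 ⟨c, rfl⟩, ?_⟩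
    rw [dist_eq_norm]
    have e : ε / (2 * (‖a‖ + 3)) * (‖a‖ + 3) = ε / 2 := by field_simp
    linarith
  obtain ⟨c, hc⟩ := Submodule.mem_span_singleton.1 this
  exact ⟨c, μ.cycB.ext μ.cp ha.1 (A.smul_mem (one_mem _) c) (by simpa using hc.symm)⟩

end Vale.Agent.P132
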