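import Vale.Agent.P132.IPos

/-! Amplification of a von Neumann algebra. -/

set_option linter.unusedSectionVars false

namespace Vale.Agent.P132

open Filter Topology MeasureTheory Vale.Agent.P096 Vale.Agent.P096b
open scoped InnerProductSpace ComplexConjugate

universe u

variable {H : Type u} [NormedAddCommGroup H] [InnerProductSpace ℂ H] [CompleteSpace H]
  {K : Type u} [NormedAddCommGroup K] [InnerProductSpace ℂ K] [CompleteSpace K]

/-- The amplification of `M` on `lp 2` and its commutant are commutants of each other.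
Proof: take `ρ` from `amp_diag`, `N := M.map ρ` (or the image), `N' := cm (ρ '' M)`.
If `X` commutes with `N'` then it commutes with the matrix units (`amp_unit`), so `X = ρ x` with
`x η := X (single 0 η) 0`, and it commutes with `ρ y`, `y ∈ M'`, so `x ∈ M` by `h.left`. -/
theorem amp_cp {M M' : Alg H} (h : CP M M') :
    ∃ (ρ : Op H →⋆ₐ[ℂ] Op (lp (fun _ : ℕ => H) 2)) (N N' : Alg (lp (fun _ : ℕ => H) 2)),
      (∀ x f i, ρ x f i = x (f i)) ∧ CP N N' ∧ ∀ X, X ∈ N ↔ ∃ x ∈ M, ρ x = X := by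
  obtain ⟨ρ, hρ⟩ := amp_diag (H := H)
  refine ⟨ρ, cm (cm (ρ '' M) : Set _), cm (ρ '' M), hρ, (cp_cm _).symm, fun X => ⟨fun hX => ?_,
    fun hX => sub_cm_cm (S := ρ '' M) hX⟩⟩
  have hst : ∀ y ∈ ρ '' M, star y ∈ ρ '' M := by
    rintro _ ⟨y, hy, rfl⟩
    exact ⟨star y, star_mem (s := M) hy, map_star ρ y⟩
  have hX' := mem_cm_alg.1 hX
  have hu : ∀ (i k : ℕ) (f : lp (fun _ : ℕ => H) 2),
      X (lp.single 2 i (f k)) = lp.single 2 i (X f k) := by
    intro i k f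
    obtain ⟨e, he, hc⟩ := amp_unit ρ hρ i k
    have h1 := hX' e ((mem_cm' hst).2 (by rintro _ ⟨y, -, rfl⟩; exact hc y))
    have h2 : X (e f) = e (X f) := congrArg (fun T => T f) h1
    rwa [he, he] at h2
  let x : Op H := lp.evalCLM ℂ (fun _ : ℕ => H) 2 0 ∘L X ∘L
    lp.singleContinuousLinearMap ℂ (fun _ : ℕ => H) 2 0
  have hx : ∀ η, x η = X (lp.single 2 0 η) 0 := fun η => rfl
  have hρx : ρ x = X := by
    ext f i
    rw [hρ, hx, hu 0 i f, lp.single_apply_self]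
  refine ⟨x, (h.left x).2 fun y hy => ContinuousLinearMap.ext fun η => ?_, hρx⟩
  have h1 := hX' (ρ y) ((mem_cm' hst).2 (by
    rintro _ ⟨z, hz, rfl⟩
    rw [← map_mul, ← map_mul, (h.right y).1 hy z hz]))
  rw [← hρx, ← map_mul, ← map_mul] at h1
  have h2 := hρ (x * y) (lp.single 2 0 η) 0
  rw [h1, hρ, lp.single_apply_self] at h2
  exact h2.symm

/-- A faithful normal state is a sum of vector functionals. Apply `pos_vec` in the
amplification (`amp_cp (cp_vn M)`, `lp.hasSum_inner`, `memℓp_gen`). -/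
theorem fns_vec {M : VonNeumannAlgebra H} {φ : Op H → ℂ} (h : IsFaithfulNormalState M φ) :
    ∃ ζ : ℕ → H, SepSeq M.toStarSubalgebra ζ ∧
      ∀ x ∈ M, HasSum (fun n => ⟪ζ n, x (ζ n)⟫_ℂ) (φ x) := by
  obtain ⟨ξ, η, hξ, hη, hφ⟩ := h.normal
  obtain ⟨ρ, N, N', hρ, hN, hmem⟩ := amp_cp (cp_vn M)
  have hl : ∀ v : ℕ → H, Summable (fun n => ‖v n‖ ^ 2) → Memℓp v 2 := fun v hv =>
    memℓp_gen (by simpa only [ENNReal.toReal_ofNat, Real.rpow_ofNat] using hv)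
  let ξ' : lp (fun _ : ℕ => H) 2 := ⟨ξ, hl ξ hξ⟩
  let η' : lp (fun _ : ℕ => H) 2 := ⟨η, hl η hη⟩
  have hs : ∀ (u v : lp (fun _ : ℕ => H) 2) (x : Op H),
      HasSum (fun n => ⟪u n, x (v n)⟫_ℂ) ⟪u, ρ x v⟫_ℂ := fun u v x => by
    simpa only [hρ] using lp.hasSum_inner (𝕜 := ℂ) u (ρ x v)
  have h1 : ∀ x ∈ M, ⟪η', ρ x ξ'⟫_ℂ = φ x := fun x hx => (hs η' ξ' x).unique (hφ x hx)
  obtain ⟨ω, hω⟩ := pos_vec hN ξ' η' fun X hX => by
    obtain ⟨x, hx, rfl⟩ := (hmem X).1 hX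
    rw [← map_star, ← map_mul, h1 _ (mul_mem (star_mem hx) hx)]
    exact h.pos x hx
  have h2 : ∀ x ∈ M, HasSum (fun n => ⟪ω n, x (ω n)⟫_ℂ) (φ x) := fun x hx => by
    rw [← h1 x hx, ← hω _ ((hmem _).2 ⟨x, hx, rfl⟩)]
    exact hs ω ω x
  refine ⟨fun n => ω n, ⟨?_, fun x hx h0 => h.faithful x hx ?_⟩, h2⟩
  · have h3 := Complex.reCLM.hasSum (h2 1 (one_mem M))
    rw [h.one] at h3
    have h4 : ∀ n, Complex.reCLM ⟪ω n, (1 : Op H) (ω n)⟫_ℂ = ‖ω n‖ ^ 2 := fun n =>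
      inner_self_eq_norm_sq (𝕜 := ℂ) (ω n)
    simp only [h4] at h3
    exact h3
  · refine (h2 _ (mul_mem (star_mem hx) hx)).unique ?_
    have h3 : ∀ n, ⟪ω n, (star x * x) (ω n)⟫_ℂ = 0 := fun n => by
      rw [mul_apply_eq_comp, h0 n, map_zero, inner_zero_right]
    simp only [h3]
    exact hasSum_zero

end Vale.Agent.P132
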