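import Vale.Agent.P132.ICen

/-! Band limited vectors. -/

set_option linter.unusedSectionVars false

namespace Vale.Agent.P132

open Filter Topology MeasureTheory Vale.Agent.P096 Vale.Agent.P096b
open scoped InnerProductSpace ComplexConjugate

universe u

variable {H : Type u} [NormedAddCommGroup H] [InnerProductSpace ℂ H] [CompleteSpace H]
  {K : Type u} [NormedAddCommGroup K] [InnerProductSpace ℂ K] [CompleteSpace K]

theorem BL.of_near (Φ : Calc K) {f : ℝ → ℂ} {s δ : ℝ} (hf : Near' f s δ) (η : K) :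
    BL Φ s δ (Φ.F f η) := by
  intro g hg h0
  rw [Φ.mul_apply hg hf.1]
  have e : (fun κ => g κ * f κ) = fun _ => 0 := funext fun κ => by
    rcases le_total |κ - s| δ with h | h
    · rw [h0 κ h, zero_mul]
    · rw [hf.2 κ h, mul_zero]
  rw [e, Φ.const, zero_smul, zero_apply]

theorem BL.map {Φ : Calc K} {s δ : ℝ} {η : K} (h : BL Φ s δ η) {x : Op K}
    (hx : ∀ t, Φ.U t * x = x * Φ.U t) : BL Φ s δ (x η) := by
  intro g hg h0
  have e : Φ.F g (x η) = x (Φ.F g η) :=
    congrArg (fun T : Op K => T η) (Calc.comm_of_U Φ hx hg)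
  rw [e, h g hg h0, map_zero]

theorem ibl_congr {Φ : Calc K} {s δ : ℝ} {η : K} (h : BL Φ s δ η) {f g : ℝ → ℂ} (hf : BC f)
    (hg : BC g) (e : ∀ κ, |κ - s| ≤ δ → f κ = g κ) : Φ.F f η = Φ.F g η := by
  have h1 := h _ (hf.sub hg) fun κ hκ => by rw [e κ hκ, sub_self]
  rwa [Φ.sub hf hg, sub_apply, sub_eq_zero] at h1

/-- Only the values on the band matter: compare `f` with `f ∘ clamp`. -/
theorem BL.norm_le {Φ : Calc K} {s δ : ℝ} (hδ : 0 ≤ δ) {η : K} (h : BL Φ s δ η) {f : ℝ → ℂ}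
    (hf : BC f) {C : ℝ} (hC : ∀ κ, |κ - s| ≤ δ → ‖f κ‖ ≤ C) : ‖Φ.F f η‖ ≤ C * ‖η‖ := by
  have hc : Continuous fun κ : ℝ => max (s - δ) (min κ (s + δ)) := by fun_prop
  rw [ibl_congr h hf (hf.comp hc) fun κ hκ => by
    rw [abs_le] at hκ
    rw [min_eq_left (by linarith [hκ.2]), max_eq_right (by linarith [hκ.1])]]
  refine Φ.calc_bound (hf.comp hc) (fun κ => hC _ (abs_le.2 ⟨?_, ?_⟩)) η
  · linarith [le_max_left (s - δ) (min κ (s + δ))]
  · have : max (s - δ) (min κ (s + δ)) ≤ s + δ := max_le (by linarith) (min_le_right _ _)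
    linarith

/-- The defect of a band limited element: write `x ξ = F χ (x ξ)` with `χ` compactly supported,
equal to one on the band, and use `Pre.half` and `BL.norm_le`. -/
theorem BL.dfc_le {A B : Alg K} {ξ : K} (μ : Mod A B ξ) {t δ : ℝ} (hδ : 0 ≤ δ) {x : Op K}
    (hx : x ∈ A) (h : BL μ.toCalc t δ (x ξ)) :
    ‖dfc μ t x‖ ≤ (Real.exp (δ / 2) - 1) * ‖x ξ‖ := by
  have hf : BC fun κ => ((Real.exp ((min κ (t + δ) - κ) / 2) : ℝ) : ℂ) :=
    calc_ofReal (by fun_prop) (C := 1) fun κ => by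
      rw [abs_of_pos (Real.exp_pos _), Real.exp_le_one_iff]
      linarith [min_le_left κ (t + δ)]
  have hg : BC fun κ => ((Real.exp (min κ (t + δ) / 2) : ℝ) : ℂ) :=
    calc_ofReal (by fun_prop) (C := Real.exp ((t + δ) / 2)) fun κ => by
      rw [abs_of_pos (Real.exp_pos _), Real.exp_le_exp]
      linarith [min_le_right κ (t + δ)]
  have h1 := ibl_congr h (BC.const 1) hf fun κ hκ => by
    rw [min_eq_left (by linarith [(abs_le.1 hκ).2]), sub_self, zero_div, Real.exp_zero,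
      Complex.ofReal_one]
  rw [μ.toCalc.one, one_apply_eq_self] at h1
  have h2 := μ.toPre.half hx hf hg (fun κ => by
    rw [← Complex.ofReal_mul, ← Real.exp_add]
    congr 2
    ring) h1
  have h3 := (BC.const 1).sub (hg.cmul ((Real.exp (-t / 2) : ℝ) : ℂ))
  have h4 := h.norm_le hδ h3 (C := Real.exp (δ / 2) - 1) fun κ hκ => by
    rw [abs_le] at hκ
    rw [min_eq_left (by linarith [hκ.2]), ← Complex.ofReal_mul, ← Real.exp_add,
      ← Complex.ofReal_one, ← Complex.ofReal_sub, Complex.norm_real, Real.norm_eq_abs, abs_le]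
    have h5 := Real.add_one_le_exp (δ / 2)
    have h6 := Real.add_one_le_exp (-t / 2 + κ / 2)
    have h7 : Real.exp (-t / 2 + κ / 2) ≤ Real.exp (δ / 2) :=
      Real.exp_le_exp.2 (by linarith [hκ.2])
    constructor <;> linarith [hκ.1]
  rw [μ.toCalc.sub (BC.const 1) (hg.cmul _), μ.toCalc.smul _ hg, μ.toCalc.one] at h4
  rw [dfc, h2]
  exact h4

end Vale.Agent.P132
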