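import Vale.Agent.P132.IDefs

/-! The centralizer. -/

set_option linter.unusedSectionVars false

namespace Vale.Agent.P132

open Filter Topology MeasureTheory Vale.Agent.P096 Vale.Agent.P096b
open scoped InnerProductSpace ComplexConjugate

universe u

variable {H : Type u} [NormedAddCommGroup H] [InnerProductSpace ℂ H] [CompleteSpace H]
  {K : Type u} [NormedAddCommGroup K] [InnerProductSpace ℂ K] [CompleteSpace K]

variable {A B : Alg K} {ξ : K}

theorem icen_four (Φ : Calc K) {a b c d : K}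
    (h : ∀ t, ⟪a, Φ.U t a⟫_ℂ + ⟪b, Φ.U t b⟫_ℂ = ⟪c, Φ.U t c⟫_ℂ + ⟪d, Φ.U t d⟫_ℂ) {f : ℝ → ℂ}
    (hf : BC f) : ⟪a, Φ.F f a⟫_ℂ + ⟪b, Φ.F f b⟫_ℂ = ⟪c, Φ.F f c⟫_ℂ + ⟪d, Φ.F f d⟫_ℂ := by
  obtain ⟨ma, _, ha⟩ := Φ.meas a
  obtain ⟨mb, _, hb⟩ := Φ.meas b
  obtain ⟨mc, _, hc⟩ := Φ.meas c
  obtain ⟨md, _, hd⟩ := Φ.meas d
  have k : ∀ (m m' : Measure ℝ) [IsFiniteMeasure m] [IsFiniteMeasure m'] {g : ℝ → ℂ}, BC g →
      ∫ κ, g κ ∂m + ∫ κ, g κ ∂m' = ∫ κ, g κ ∂(m + m') := fun m m' _ _ _ hg =>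
    (integral_add_measure (calc_integrable m hg) (calc_integrable m' hg)).symm
  have e : ma + mb = mc + md := Measure.ext_of_charFun (funext fun t => by
    have h1 := h t
    have h2 : ex t = fun κ : ℝ => Complex.exp (t * κ * Complex.I) :=
      funext fun κ => congrArg Complex.exp (by ring)
    rw [Calc.U, ha _ (bc_ex t), hb _ (bc_ex t), hc _ (bc_ex t), hd _ (bc_ex t), k _ _ (bc_ex t),
      k _ _ (bc_ex t), h2] at h1
    rw [charFun_apply_real, charFun_apply_real, h1])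
  rw [ha _ hf, hb _ hf, hc _ hf, hd _ hf, k _ _ hf, k _ _ hf, e]

theorem icen_pol (T x : Op K) (η : K) :
    ⟪η + x η, T (η + x η)⟫_ℂ + ⟪η - star x η, T (η - star x η)⟫_ℂ =
      ⟪η - x η, T (η - x η)⟫_ℂ + ⟪η + star x η, T (η + star x η)⟫_ℂ ↔
    ⟪η, (T * x + star x * T) η⟫_ℂ = ⟪η, (x * T + T * star x) η⟫_ℂ := by
  have h1 : ⟪η, star x (T η)⟫_ℂ = ⟪x η, T η⟫_ℂ := ContinuousLinearMap.adjoint_inner_right x η _
  have h2 : ⟪η, x (T η)⟫_ℂ = ⟪star x η, T η⟫_ℂ :=
    (ContinuousLinearMap.adjoint_inner_left x _ η).symm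
  simp only [map_add, map_sub, inner_add_left, inner_add_right, inner_sub_left, inner_sub_right,
    add_apply, mul_apply_eq_comp, h1, h2]
  exact ⟨fun h => by linear_combination h / 2, fun h => by linear_combination 2 * h⟩

theorem icen_half (Φ : Calc K) {x : Op K} (hx : ∀ t, Φ.U t * x = x * Φ.U t) {f : ℝ → ℂ}
    (hf : BC f) : Φ.F f * x + star x * Φ.F f = x * Φ.F f + Φ.F f * star x := by
  refine ext_inner_self fun η => (icen_pol _ x η).1
    (icen_four Φ (fun t => (icen_pol _ x η).2 ?_) hf)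
  have h := congrArg star (hx (-t))
  rw [star_mul, star_mul, Φ.star_U, neg_neg] at h
  rw [hx, h]

/-- An operator commuting with all `U t` commutes with the calculus. First for `f = ft k`
(`Calc.integral`), in particular for all Gaussians `gs ε κ₀ 0`; for general `f` compare the
measures of `Calc.meas` (`Measure.ext_of_charFun`) after polarization, or approximate. -/
theorem Calc.comm_of_U (Φ : Calc K) {x : Op K} (hx : ∀ t, Φ.U t * x = x * Φ.U t) {f : ℝ → ℂ}
    (hf : BC f) : Φ.F f * x = x * Φ.F f := by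
  have h1 := icen_half Φ hx hf
  have h2 := icen_half Φ (x := Complex.I • x)
    (fun t => by rw [mul_smul_comm, smul_mul_assoc, hx]) hf
  simp only [star_smul, mul_smul_comm, smul_mul_assoc, RCLike.star_def, Complex.conj_I] at h2
  have h3 : (2 * Complex.I) • (Φ.F f * x - x * Φ.F f) = 0 := by
    linear_combination (norm := module) Complex.I • h1 + h2
  exact sub_eq_zero.1 ((smul_eq_zero.1 h3).resolve_left (by simp))

/-- Elements of the centralizer: `J x* ξ = x ξ` (`Pre.half`-like: `x ξ` is fixed by all `U t`,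
so by `Calc.integral`/`gs_apply` it is fixed by `F (gs 1 0 0)`, `at_zero` applies to
`gs 1 0 0 - 1`, and `μ.graph` gives the claim after cancelling `F cf`). -/
theorem Cen.F_vec (μ : Mod A B ξ) {x : Op K} (hx : Cen μ x) {f : ℝ → ℂ} (hf : BC f) :
    μ.F f (x ξ) = f 0 • x ξ := by
  have h := congrArg (· ξ) (Calc.comm_of_U μ.toCalc hx.2 hf)
  simp only [mul_apply_eq_comp] at h
  rw [h, μ.F_fix μ.cp hf, map_smul]

theorem Cen.J_vec (μ : Mod A B ξ) {x : Op K} (hx : Cen μ x) : μ.J (star x ξ) = x ξ := by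
  refine μ.cancel bc_cf cf_ne ?_
  rw [← μ.graph x hx.1, Cen.F_vec μ hx bc_sf, Cen.F_vec μ hx bc_cf, sf, neg_zero]

/-- Scaling the vector. -/
theorem Pre.scale (ν : Pre A ξ) {c : ℝ} (hc : 0 < c) :
    ∃ ν' : Pre A ((c : ℂ) • ξ), ν'.F = ν.F := by
  have h0 : (c : ℂ) ≠ 0 := Complex.ofReal_ne_zero.2 hc.ne'
  refine ⟨{ ν with graph := fun x hx => ?_, core := fun γ ε hε => ?_ }, rfl⟩
  · rw [map_smul, map_smul, map_smul, map_smulₛₗ, map_smul, ν.graph x hx, Complex.conj_ofReal]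
  · obtain ⟨x, hx, h⟩ := ν.core γ ε hε
    refine ⟨(c : ℂ)⁻¹ • x, A.smul_mem hx _, ?_⟩
    rwa [star_smul, smul_apply, smul_apply, map_smul x, map_smul (star x), RCLike.star_def, map_inv₀,
      Complex.conj_ofReal, inv_smul_smul₀ h0, inv_smul_smul₀ h0]

end Vale.Agent.P132
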