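import Vale.Agent.P132.ICen

/-! The modular objects of a corner. -/

set_option linter.unusedSectionVars false

namespace Vale.Agent.P132

open Filter Topology MeasureTheory Vale.Agent.P096 Vale.Agent.P096b
open scoped InnerProductSpace ComplexConjugate

universe u

variable {H : Type u} [NormedAddCommGroup H] [InnerProductSpace ℂ H] [CompleteSpace H]
  {K : Type u} [NormedAddCommGroup K] [InnerProductSpace ℂ K] [CompleteSpace K]

variable {A B : Alg K} {ξ : K}

theorem icorner_le {W : Op K} (h1 : star W * W = 1) (η : K) : ‖star W η‖ ≤ ‖η‖ := by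
  have h2 : ‖W‖ ≤ 1 := ContinuousLinearMap.opNorm_le_bound _ zero_le_one fun ζ => by
    have := tl_norm_sq W ζ
    rw [h1, one_apply_eq_self, show (⟪ζ, ζ⟫_ℂ).re = ‖ζ‖ ^ 2 from inner_self_eq_norm_sq (𝕜 := ℂ) ζ,
      pow_left_inj₀ (norm_nonneg _) (norm_nonneg _) two_ne_zero] at this
    rw [this, one_mul]
  simpa using (star W).le_of_opNorm_le ((norm_star W).trans_le h2) η

/-- Compression of a calculus by an isometry whose range projection commutes with it. -/
noncomputable def icornerCalc (Φ : Calc K) (W : Op K) (h1 : star W * W = 1)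
    (h2 : ∀ f, BC f → Φ.F f * (W * star W) = W * star W * Φ.F f) : Calc K where
  F f := star W * Φ.F f * W
  one := by rw [Φ.one, mul_one, h1]
  add hf hg := by rw [Φ.add hf hg, mul_add, add_mul]
  smul c hf := by rw [Φ.smul c hf, mul_smul_comm, smul_mul_assoc]
  mul {f g} hf hg := by
    have : W * (star W * (Φ.F g * W)) = Φ.F g * W := by
      rw [← mul_assoc, ← mul_assoc, ← h2 g hg, mul_assoc, mul_assoc, h1, mul_one]
    rw [Φ.mul hf hg]
    simp only [mul_assoc, this]
  star hf := by rw [Φ.star hf, star_mul, star_mul, star_star, mul_assoc]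
  tight η ε hε := by
    obtain ⟨f, a1, a2, a3⟩ := Φ.tight (W η) ε hε
    refine ⟨f, a1, a2, lt_of_le_of_lt ?_ a3⟩
    have e : η = star W (W η) := (congrArg (fun T : Op K => T η) h1).symm
    conv_lhs => rw [e, mul_apply_eq_comp, mul_apply_eq_comp, ← map_sub, ← e]
    exact icorner_le h1 _

/-- The corner. `W := v * jc J v` is an isometry commuting with `J`, `W W* = e * jc J e` commutes
with the calculus, `F' f := W* F f W` is a calculus, `Ω₀ := W* ξ`; `W (x Ω₀) = (v x v*) ξ` for
`x ∈ A` (use `jc J e ξ = e ξ`), `(v* y v) Ω₀ = W* (y ξ)` for `y ∈ A`. This gives `Pre A Ω₀` with the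
same `J`; normalize with `Pre.scale`. -/
theorem corner (μ : Mod A B ξ) {e v : Op K} (he : Cen μ e) (hp : IsStarProjection e)
    (e0 : e ≠ 0) (hv : v ∈ A) (h1 : star v * v = 1) (h2 : v * star v = e) :
    ∃ (Ω : K) (ν : Pre A Ω), ‖Ω‖ = 1 ∧ Cyc A Ω ∧ (∀ a ∈ A, a Ω = 0 → a = 0) ∧
      ∀ g, BC g → (∀ x ∈ A, μ.F g ((e * x * e) ξ) = 0) → ν.F g = 0 := by
  have JJ := μ.JJ
  have hv' := μ.jA v hv
  have es : star e = e := hp.isSelfAdjoint.star_eq
  have cm : ∀ x ∈ A, ∀ y ∈ B, x * y = y * x := fun x hx => (μ.cp.left x).1 hx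
  have j1 : star (jc μ.J v) * jc μ.J v = 1 := by
    rw [← jc_star JJ, ← jc_mul JJ, h1, jc_one JJ]
  have j2 : jc μ.J v * star (jc μ.J v) = jc μ.J e := by rw [← jc_star JJ, ← jc_mul JJ, h2]
  have j3 : jc μ.J e ξ = e ξ := by
    have := Cen.J_vec μ he
    rw [es] at this
    rw [jc_apply, μ.J_fix μ.cp, this]
  have j4 : jc μ.J (v * jc μ.J v) = v * jc μ.J v := by rw [jc_mul JJ, jc_jc JJ, cm v hv _ hv']
  have j5 : ∀ t, μ.U t * jc μ.J e = jc μ.J e * μ.U t := fun t => by
    have := μ.jc_σ t e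
    rw [μ.σ_fix (he.2 t)] at this
    conv_rhs => rw [this, Calc.σ, mul_assoc, μ.U_neg_mul, mul_one]
  generalize jc μ.J v = w at hv' j1 j2 j4
  have w1 : star (v * w) * (v * w) = 1 := by
    rw [star_mul, mul_assoc, ← mul_assoc (star v), h1, one_mul, j1]
  have w2 : v * w * star (v * w) = e * jc μ.J e := by
    rw [star_mul, mul_assoc, ← mul_assoc w, j2, ← cm _ (star_mem hv) _ (μ.jA e he.1), ← mul_assoc,
      h2]
  have w3 : ∀ x ∈ A, (v * w) (x (star (v * w) ξ)) = (v * x * star v) ξ := fun x hx => by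
    have : v * w * x * star (v * w) = v * x * star v * jc μ.J e := by
      rw [star_mul, mul_assoc v w, ← cm x hx w hv', mul_assoc (v * x),
        cm _ (star_mem hv) _ (μ.jA e he.1), ← j2]
      simp only [mul_assoc]
    have h3 : (v * w) (x (star (v * w) ξ)) = (v * x * star v) (jc μ.J e ξ) :=
      congrArg (fun T : Op K => T ξ) this
    rw [h3, j3, ← mul_apply_eq_comp, mul_assoc, ← h2, ← mul_assoc (star v), h1, one_mul]
  have w4 : ∀ y ∈ A, (star v * y * v) (star (v * w) ξ) = star (v * w) (y ξ) := fun y hy => by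
    have a1 : star w ξ = star w (e ξ) := by
      rw [← j3, ← mul_apply_eq_comp, ← j2, ← mul_assoc, j1, one_mul]
    have a2 : v (star w (star v ξ)) = star w ξ := by
      rw [μ.cp.app hv (star_mem hv'), ← mul_apply_eq_comp v, h2, ← a1]
    simp only [star_mul, mul_apply_eq_comp]
    rw [a2, μ.cp.app hy (star_mem hv'), μ.cp.app (star_mem hv) (star_mem hv')]
  have w5 : ∀ η, μ.J ((v * w) η) = (v * w) (μ.J η) := fun η => by
    conv_rhs => rw [← j4, jc_apply, JJ]
  have w6 : ∀ η, μ.J (star (v * w) η) = star (v * w) (μ.J η) := fun η => by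
    conv_rhs => rw [← j4, ← jc_star JJ, jc_apply, JJ]
  have w7 : ∀ f, BC f → μ.F f * (v * w * star (v * w)) = v * w * star (v * w) * μ.F f :=
    fun f hf => by
      rw [w2, ← mul_assoc, Calc.comm_of_U μ.toCalc he.2 hf, mul_assoc,
        Calc.comm_of_U μ.toCalc j5 hf, mul_assoc]
  generalize v * w = W at w1 w3 w4 w5 w6 w7
  have w8 : ∀ η, star W (W η) = η := fun η => congrArg (fun T : Op K => T η) w1
  have m1 : ∀ y ∈ A, star v * y * v ∈ A := fun y hy => mul_mem (mul_mem (star_mem hv) hy) hv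
  have m2 : ∀ y ∈ A, v * y * star v ∈ A := fun y hy => mul_mem (mul_mem hv hy) (star_mem hv)
  let ν : Pre A (star W ξ) :=
    { toCalc := icornerCalc μ.toCalc W w1 w7
      J := μ.J
      JJ := JJ
      JF := fun {f} hf η => by
        change μ.J (star W (μ.F f (W η))) = star W (μ.F _ (W (μ.J η)))
        rw [w6, μ.JF hf, w5]
      graph := fun x hx => by
        change star W (μ.F sf (W _)) = star W (μ.F cf (W _))
        rw [← w5, w3 x hx, w3 _ (star_mem hx), μ.graph _ (m2 x hx), star_mul, star_mul, star_star,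
          mul_assoc]
      core := fun γ ε hε => by
        obtain ⟨y, hy, a1, a2⟩ := μ.core (W γ) ε hε
        refine ⟨star v * y * v, m1 y hy, ?_, ?_⟩
        · change ‖_ - star W (μ.F cf (W γ))‖ < ε
          rw [w4 y hy, ← map_sub]
          exact (icorner_le w1 _).trans_lt a1
        · change ‖_ - star W (μ.F sf (W γ))‖ < ε
          rw [star_mul, star_mul, star_star, ← mul_assoc, w4 _ (star_mem hy), w6, ← map_sub]
          exact (icorner_le w1 _).trans_lt a2 }
  have sep : ∀ a ∈ A, a (star W ξ) = 0 → a = 0 := fun a ha h0 => by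
    have h3 := w3 a ha
    rw [h0, map_zero] at h3
    have h4 := congrArg (fun T => star v * T * v) (μ.sepA (m2 a ha) h3.symm)
    simp only [mul_zero, zero_mul] at h4
    rwa [← mul_assoc, ← mul_assoc, h1, one_mul, mul_assoc, h1, mul_one] at h4
  have n0 : 0 < ‖star W ξ‖ := norm_pos_iff.2 fun h0 => e0 (sep e he.1 (by rw [h0, map_zero]))
  have cyc : ∀ c : ℂ, c ≠ 0 → Cyc A (c • star W ξ) := fun c hc η ε hε => by
    obtain ⟨y, hy, a1⟩ := μ.cycA (W η) ε hε
    refine ⟨c⁻¹ • (star v * y * v), A.smul_mem (m1 y hy) _, lt_of_le_of_lt ?_ a1⟩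
    rw [smul_apply, map_smul, smul_smul, inv_mul_cancel₀ hc, one_smul, w4 y hy]
    conv_lhs => rw [← w8 η, ← map_sub]
    exact icorner_le w1 _
  obtain ⟨ν', hν⟩ := Pre.scale ν (inv_pos.2 n0)
  have c0 : ((‖star W ξ‖⁻¹ : ℝ) : ℂ) ≠ 0 := Complex.ofReal_ne_zero.2 (inv_pos.2 n0).ne'
  refine ⟨_, ν', ?_, cyc _ c0, fun a ha h0 => sep a ha ?_, fun g _ h0 => ?_⟩
  · rw [norm_smul, Complex.norm_real, Real.norm_of_nonneg (inv_pos.2 n0).le, inv_mul_cancel₀ n0.ne']
  · rw [map_smul] at h0
    exact (smul_eq_zero.1 h0).resolve_left c0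
  · rw [hν]
    refine (cyc 1 one_ne_zero).ext_op fun a ha => ?_
    have := h0 _ (m2 a ha)
    have e1 : e * (v * a * star v) * e = v * a * star v := by
      rw [← h2]
      simp only [mul_assoc]
      rw [← mul_assoc (star v) v, ← mul_assoc (star v) v, h1, one_mul, one_mul]
    rw [e1] at this
    change star W (μ.F g (W _)) = 0
    rw [one_smul, w3 a ha, this, map_zero]

end Vale.Agent.P132
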