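import Vale.Agent.P132.IDefs

/-! Comparison of projections in a countably decomposable factor. -/

set_option linter.unusedSectionVars false

namespace Vale.Agent.P132

open Filter Topology MeasureTheory Vale.Agent.P096 Vale.Agent.P096b
open scoped InnerProductSpace ComplexConjugate

universe u

variable {H : Type u} [NormedAddCommGroup H] [InnerProductSpace ℂ H] [CompleteSpace H]
  {K : Type u} [NormedAddCommGroup K] [InnerProductSpace ℂ K] [CompleteSpace K]

/-- In a factor `x M y = 0` forces `x = 0` or `y = 0`: the projection on the closed span of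
`M y H` (`tl_supp`) lies in `M` and in `M'`, so it is a scalar projection. -/
theorem fac_prime {M M' : Alg H} (h : CP M M') (hf : Fac M) {x y : Op H} (hx : x ∈ M)
    (hy : y ∈ M) (x0 : x ≠ 0) (y0 : y ≠ 0) : ∃ a ∈ M, x * a * y ≠ 0 := by
  by_contra hc
  push Not at hc
  obtain ⟨e, he, h1, h2, h3⟩ := tl_supp {η : H | ∃ a ∈ M, ∃ ζ, η = a (y ζ)}
  have k1 : ∀ c ∈ M, c * e = e * c := fun c hc' => h3 c
    (by rintro _ ⟨a, ha, ζ, rfl⟩; exact ⟨c * a, mul_mem hc' ha, ζ, rfl⟩)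
    (by rintro _ ⟨a, ha, ζ, rfl⟩; exact ⟨star c * a, mul_mem (star_mem hc') ha, ζ, rfl⟩)
  have k0 : ∀ c ∈ M', ∀ η ∈ {η : H | ∃ a ∈ M, ∃ ζ, η = a (y ζ)},
      c η ∈ {η : H | ∃ a ∈ M, ∃ ζ, η = a (y ζ)} := by
    rintro c hc' _ ⟨a, ha, ζ, rfl⟩
    exact ⟨a, ha, c ζ, (congrArg (fun T : Op H => T ζ)
      ((h.left _).1 (mul_mem ha hy) c hc')).symm⟩
  have k2 : e ∈ M := (h.left e).2 fun c hc' => (h3 c (k0 c hc') (k0 _ (star_mem hc'))).symm
  obtain ⟨c, hce⟩ := hf e k2 fun c hc' => (k1 c hc').symm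
  obtain ⟨ζ, hζ⟩ : ∃ ζ, y ζ ≠ 0 := by
    by_contra h0
    push Not at h0
    exact y0 (ContinuousLinearMap.ext h0)
  have c1 : c = 1 := by
    have := h1 (y ζ) ⟨1, one_mem _, ζ, rfl⟩
    rw [hce] at this
    change c • y ζ = y ζ at this
    rw [← sub_eq_zero, ← one_smul ℂ (y ζ), smul_smul, mul_one, ← sub_smul] at this
    exact sub_eq_zero.1 ((smul_eq_zero.1 this).resolve_right hζ)
  refine x0 (ContinuousLinearMap.ext fun η => ?_)
  have h4 := h2 η
  rw [hce, c1, one_smul] at h4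
  have h5 : (Submodule.span ℂ {η : H | ∃ a ∈ M, ∃ ζ, η = a (y ζ)} : Set H) ⊆ {η | x η = 0} := by
    intro η hη
    have : Submodule.span ℂ {η : H | ∃ a ∈ M, ∃ ζ, η = a (y ζ)} ≤
        LinearMap.ker (x : H →ₗ[ℂ] H) := by
      refine Submodule.span_le.2 ?_
      rintro _ ⟨a, ha, ζ, rfl⟩
      exact congrArg (fun T : Op H => T ζ) (hc a ha)
    exact this hη
  exact closure_minimal h5 (isClosed_eq x.continuous continuous_const) h4

theorem icover_sum {p : ℕ → Op H} (hp : ∀ n, IsStarProjection (p n))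
    (ho : ∀ n m, n ≠ m → p n * p m = 0) (s : Finset ℕ) : IsStarProjection (∑ m ∈ s, p m) := by
  induction s using Finset.induction_on with
  | empty => simp
  | insert a s ha ih =>
    rw [Finset.sum_insert ha]
    refine (hp a).add ih ?_
    rw [Finset.mul_sum]
    exact Finset.sum_eq_zero fun m hm => ho a m fun e => ha (e ▸ hm)

theorem icover_step {M : Alg H} {ζ : ℕ → H} (hζ : SepSeq M ζ) (e r : Op H) :
    ∃ v, (v ∈ M ∧ e * v = v ∧ v * r = v ∧ v * star v * v = v) ∧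
      ∀ w, (w ∈ M ∧ e * w = w ∧ w * r = w ∧ w * star w * w = w) →
        ∑' n, ‖w (ζ n)‖ ^ 2 ≤ 2 * ∑' n, ‖v (ζ n)‖ ^ 2 := by
  set S : Set ℝ := (fun w : Op H => ∑' n, ‖w (ζ n)‖ ^ 2) ''
    {w | w ∈ M ∧ e * w = w ∧ w * r = w ∧ w * star w * w = w} with hS
  have h0 : (0 : Op H) ∈ {w : Op H | w ∈ M ∧ e * w = w ∧ w * r = w ∧ w * star w * w = w} :=
    ⟨zero_mem _, by simp, by simp, by simp⟩
  have hb : BddAbove S := by
    refine ⟨1, ?_⟩
    rintro _ ⟨w, hw, rfl⟩
    have hn : ‖w‖ ≤ 1 := P104.PI.norm_le (by rw [P104.PI, ← mul_assoc]; exact hw.2.2.2)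
    have hle : ∀ n, ‖w (ζ n)‖ ^ 2 ≤ ‖ζ n‖ ^ 2 := fun n =>
      pow_le_pow_left₀ (norm_nonneg _) (by simpa using w.le_of_opNorm_le hn (ζ n)) 2
    rw [← hζ.1.tsum_eq]
    exact (Summable.of_nonneg_of_le (fun n => sq_nonneg _) hle hζ.1.summable).tsum_le_tsum hle
      hζ.1.summable
  by_cases hs : sSup S ≤ 0
  · refine ⟨0, h0, fun w hw => (le_csSup hb ⟨w, hw, rfl⟩).trans (hs.trans ?_)⟩
    simp
  · obtain ⟨_, ⟨v, hv, rfl⟩, h1⟩ := exists_lt_of_lt_csSup (s := S) ⟨_, ⟨0, h0, rfl⟩⟩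
      (show sSup S / 2 < sSup S by linarith [not_le.1 hs])
    refine ⟨v, hv, fun w hw => (le_csSup hb ⟨w, hw, rfl⟩).trans ?_⟩
    simp only at h1
    linarith

/-- The unit is covered by countably many pieces of a nonzero projection.
Proof (greedy): put `φ p := ∑' n, ‖p (ζ n)‖²`. Choose partial isometries `v n ∈ M` recursively with
`e * v n = v n`, `v n * r n = v n` for `r n := 1 - ∑_{m<n} (v m)* v m`, and `φ ((v n)* v n)` at
least half of the supremum over all such partial isometries. The `r n` decrease to a projection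
`r` (`tl_decr`). If `r ≠ 0`, `fac_prime` and `tl_pi` give a nonzero partial isometry `w` with
`e w = w = w r`, so `φ (w* w) ≤ 2 φ ((v n)* v n) → 0`, contradiction. `HasSum` follows from
orthogonality: the partial sums over finite sets containing `range n` are projections between
`1 - r n` and `1`. -/
theorem cover {M M' : Alg H} (h : CP M M') (hf : Fac M) {ζ : ℕ → H} (hζ : SepSeq M ζ)
    {e : Op H} (he : IsStarProjection e) (hm : e ∈ M) (e0 : e ≠ 0) :
    ∃ v : ℕ → Op H, (∀ n, v n ∈ M) ∧ (∀ n, e * v n = v n) ∧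
      (∀ n, v n * star (v n) * v n = v n) ∧ (∀ n m, n ≠ m → v n * star (v m) = 0) ∧
      ∀ η, HasSum (fun n => star (v n) (v n η)) η := by
  choose f hf1 hf2 using icover_step hζ e
  let r : ℕ → Op H := fun n => Nat.rec 1 (fun _ q => q - star (f q) * f q) n
  let v : ℕ → Op H := fun n => f (r n)
  have r0 : r 0 = 1 := rfl
  have rs : ∀ n, r (n + 1) = r n - star (v n) * v n := fun n => rfl
  have hpi : ∀ n, P104.PI (v n) := fun n => by
    rw [P104.PI, ← mul_assoc]; exact (hf1 _).2.2.2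
  have hvr : ∀ n, v n * r n = v n := fun n => (hf1 _).2.2.1
  have hp : ∀ n, IsStarProjection (star (v n) * v n) := fun n => (hpi n).proj
  have hpr : ∀ n, star (v n) * v n * r n = star (v n) * v n := fun n => by
    rw [mul_assoc, hvr]
  have hr : ∀ n, IsStarProjection (r n) ∧ r n ∈ M := by
    intro n
    induction n with
    | zero => exact ⟨IsStarProjection.one _, one_mem _⟩
    | succ n ih =>
      exact ⟨(hp n).sub_of_mul_eq_left ih.1 (hpr n),
        sub_mem ih.2 (mul_mem (star_mem (hf1 _).1) (hf1 _).1)⟩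
  have hrv : ∀ n, r n * star (v n) = star (v n) := fun n => by
    simpa [(hr n).1.isSelfAdjoint.star_eq] using congrArg star (hvr n)
  have hd : ∀ n, r n * r (n + 1) = r (n + 1) := fun n => by
    rw [rs, mul_sub, (hr n).1.isIdempotentElem.eq, ← mul_assoc, hrv]
  have hmm : ∀ n m, n ≤ m → r n * r m = r m := fun n m hnm => by
    induction hnm with
    | refl => exact (hr n).1.isIdempotentElem.eq
    | step _ ih => rw [← hd, ← mul_assoc, ih]
  have hmm' : ∀ n m, n ≤ m → r m * r n = r m := fun n m hnm => by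
    simpa [(hr m).1.isSelfAdjoint.star_eq] using tl_flip (hr n).1 (hmm n m hnm)
  have hz : ∀ n, r (n + 1) * star (v n) = 0 := fun n => by
    have := (hpi n).star.left
    rw [star_star] at this
    rw [rs, sub_mul, hrv, this, sub_self]
  have ho1 : ∀ n m, m < n → v n * star (v m) = 0 := fun n m hmn => by
    rw [← hvr n, ← hmm' (m + 1) n hmn, mul_assoc, mul_assoc, hz, mul_zero, mul_zero]
  have ho : ∀ n m, n ≠ m → v n * star (v m) = 0 := fun n m hnm => by
    rcases lt_or_gt_of_ne hnm with h1 | h1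
    · simpa using congrArg star (ho1 m n h1)
    · exact ho1 n m h1
  have hop : ∀ n m, n ≠ m → star (v n) * v n * (star (v m) * v m) = 0 := fun n m hnm => by
    rw [mul_assoc, ← mul_assoc (v n), ho n m hnm, zero_mul, mul_zero]
  have hsum : ∀ n, r n = 1 - ∑ m ∈ Finset.range n, star (v m) * v m := by
    intro n
    induction n with
    | zero => simp [r0]
    | succ n ih => rw [rs, ih, Finset.sum_range_succ, sub_sub]
  obtain ⟨q, hqM, hq, hq1, hq2⟩ := tl_decr h r (fun n => (hr n).1) (fun n => (hr n).2) hd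
  have hsq : ∀ (p : Op H), IsStarProjection p → ∀ η, ‖p η‖ ^ 2 = (⟪η, p η⟫_ℂ).re :=
    fun p hp' η => by rw [tl_norm_sq, hp'.isSelfAdjoint.star_eq, hp'.isIdempotentElem.eq]
  have hpy : ∀ n η, ‖r n η‖ ^ 2 = ‖r (n + 1) η‖ ^ 2 + ‖v n η‖ ^ 2 := fun n η => by
    rw [hsq _ (hr n).1, hsq _ (hr (n + 1)).1, tl_norm_sq, rs, sub_apply,
      inner_sub_right, Complex.sub_re]
    ring
  have hsm : ∀ w : Op H, Summable fun n => ‖w (ζ n)‖ ^ 2 := fun w =>
    Summable.of_nonneg_of_le (fun n => sq_nonneg _) (fun n => by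
      rw [← mul_pow]; exact pow_le_pow_left₀ (norm_nonneg _) (w.le_opNorm _) 2)
      (hζ.1.summable.mul_left (‖w‖ ^ 2))
  have q0 : q = 0 := by
    by_contra q0
    obtain ⟨a, ha, ha0⟩ := fac_prime h hf hm hqM e0 q0
    obtain ⟨w, hw, w0, w1, ⟨b, w2⟩, ⟨c, w3⟩⟩ := tl_pi h _ (mul_mem (mul_mem hm ha) hqM) ha0
    have hqr : ∀ n, q * r n = q := fun n => by
      simpa [hq.isSelfAdjoint.star_eq] using tl_flip (hr n).1 (hq1 n)
    have hle : ∀ n, ∑' k, ‖w (ζ k)‖ ^ 2 ≤ 2 * ∑' k, ‖v n (ζ k)‖ ^ 2 := fun n =>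
      hf2 (r n) w ⟨hw, by rw [w2, ← mul_assoc, ← mul_assoc, ← mul_assoc, he.isIdempotentElem.eq],
        by rw [w3, mul_assoc, mul_assoc, hqr], w1⟩
    have hdec : ∀ n : ℕ, ∑' k, ‖r n (ζ k)‖ ^ 2 + n * ((∑' k, ‖w (ζ k)‖ ^ 2) / 2) ≤
        ∑' k, ‖r 0 (ζ k)‖ ^ 2 := by
      intro n
      induction n with
      | zero => simp
      | succ n ih =>
        have e1 : ∑' k, ‖r n (ζ k)‖ ^ 2 =
            ∑' k, ‖r (n + 1) (ζ k)‖ ^ 2 + ∑' k, ‖v n (ζ k)‖ ^ 2 := by
          rw [← (hsm _).tsum_add (hsm _)]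
          exact tsum_congr fun k => hpy n _
        have := hle n
        push_cast
        linarith
    have hw0 : ∑' k, ‖w (ζ k)‖ ^ 2 ≤ 0 := by
      by_contra hpos
      have hpos' : 0 < (∑' k, ‖w (ζ k)‖ ^ 2) / 2 := by linarith [not_le.1 hpos]
      obtain ⟨n, hn⟩ := exists_nat_gt ((∑' k, ‖r 0 (ζ k)‖ ^ 2) / ((∑' k, ‖w (ζ k)‖ ^ 2) / 2))
      rw [div_lt_iff₀ hpos'] at hn
      have h1 := hdec n
      have h2 : 0 ≤ ∑' k, ‖r n (ζ k)‖ ^ 2 := tsum_nonneg fun k => sq_nonneg _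
      linarith
    refine w0 (hζ.2 w hw fun k => ?_)
    have := ((hsm w).le_tsum k fun j _ => sq_nonneg _).trans hw0
    exact norm_eq_zero.1 (pow_eq_zero_iff two_ne_zero |>.1 (le_antisymm this (sq_nonneg _)))
  refine ⟨v, fun n => (hf1 _).1, fun n => (hf1 _).2.1, fun n => (hf1 _).2.2.2, ho, fun η => ?_⟩
  have hl : Tendsto (fun n => ‖r n η‖) atTop (𝓝 0) := by
    simpa [q0] using (hq2 η).norm
  rw [HasSum, tendsto_iff_norm_sub_tendsto_zero, Metric.tendsto_nhds]
  intro ε hε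
  obtain ⟨n, hn⟩ := (hl.eventually (gt_mem_nhds hε)).exists
  refine Filter.mem_of_superset (Filter.mem_atTop (Finset.range n)) fun s hs => ?_
  have hs' : Finset.range n ⊆ s := hs
  have hP := (icover_sum hp hop s).one_sub
  have e1 : (1 - ∑ m ∈ s, star (v m) * v m) * r n = 1 - ∑ m ∈ s, star (v m) * v m := by
    rw [hsum, mul_sub, mul_one, sub_eq_self, Finset.mul_sum]
    refine Finset.sum_eq_zero fun k hk => ?_
    rw [sub_mul, one_mul, Finset.sum_mul, Finset.sum_eq_single k (fun m _ hmk => hop m k hmk)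
      (fun hk' => absurd (hs' hk) hk'), (hp k).isIdempotentElem.eq, sub_self]
  have e2 : η - ∑ m ∈ s, star (v m) (v m η) = (1 - ∑ m ∈ s, star (v m) * v m) (r n η) := by
    rw [← mul_apply_eq_comp, e1]
    simp
  simp only [Set.mem_ofPred_eq, dist_zero_right, norm_norm]
  rw [norm_sub_rev, e2]
  refine lt_of_le_of_lt ?_ hn
  simpa using (1 - ∑ m ∈ s, star (v m) * v m).le_of_opNorm_le hP.norm_le (r n η)

end Vale.Agent.P132
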