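import Vale.Agent.P096b.Tom
import Vale.Agent.P096b.ModApi
import Vale.Agent.P096b.Sign
import Vale.Agent.P096b.Win
import Vale.Agent.P096b.Erg

/-! Working definitions for the bicentralizer theorem (standard form). -/

set_option linter.unusedSectionVars false

namespace Vale.Agent.P132

open Filter Topology Vale.Agent.P096 Vale.Agent.P096b
open scoped InnerProductSpace ComplexConjugate

universe u

variable {H : Type u} [NormedAddCommGroup H] [InnerProductSpace ℂ H] [CompleteSpace H]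
  {A B : Alg H} {ξ : H}

/-- The centralizer of the vector state. -/
def Cen (μ : Mod A B ξ) (x : Op H) : Prop := x ∈ A ∧ ∀ t, μ.U t * x = x * μ.U t

/-- Positive contractions. -/
def Pc (h : Op H) : Prop :=
  star h = h ∧ ∀ η, 0 ≤ (⟪η, h η⟫_ℂ).re ∧ (⟪η, h η⟫_ℂ).re ≤ ‖η‖ ^ 2

/-- The defect vector of `n` at scale `t`; it vanishes when `n ξ` is an eigenvector of
`log Δ` for the eigenvalue `t`. -/
noncomputable def dfc (μ : Mod A B ξ) (t : ℝ) (n : Op H) : H :=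
  n ξ - ((Real.exp (-t / 2) : ℝ) : ℂ) • μ.J (star n ξ)

/-- Families at scale `t` with column bounded by `h` and weighted row bounded by `k`. -/
structure Fam (A : Alg H) (t : ℝ) (h k : Op H) {ι : Type} [Fintype ι] (n : ι → Op H) : Prop where
  mem : ∀ i, n i ∈ A
  col : ∀ η, ∑ i, ‖n i η‖ ^ 2 ≤ (⟪η, h η⟫_ℂ).re
  row : ∀ η, Real.exp (-t) * ∑ i, ‖star (n i) η‖ ^ 2 ≤ (⟪η, k η⟫_ℂ).re

/-- Almost eigenoperators between any two nonzero positive elements of the centralizer. -/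
def Gam (μ : Mod A B ξ) : Prop :=
  ∀ q l : Op H, Cen μ q → Cen μ l → Pc q → Pc l → q ≠ 0 → l ≠ 0 → ∀ t ρ : ℝ, 0 < ρ →
    ∃ x ∈ A, q * x * l ≠ 0 ∧ ‖dfc μ t (q * x * l)‖ ^ 2 ≤ ρ * ‖(q * x * l) ξ‖ ^ 2

/-- Families of almost full mass and small defect exist at every scale. -/
def ERel (μ : Mod A B ξ) : Prop :=
  ∀ h k : Op H, Cen μ h → Cen μ k → Pc h → Pc k → ∀ t ε : ℝ, 0 < ε →
    ∃ (ι : Type) (_ : Fintype ι) (n : ι → Op H), Fam A t h k n ∧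
      ∑ i, ‖dfc μ t (n i)‖ ^ 2 ≤ ε ∧
      min (⟪ξ, h ξ⟫_ℂ).re (⟪ξ, k ξ⟫_ℂ).re - ε ≤ ∑ i, ‖n i ξ‖ ^ 2

/-- The working bicentralizer. -/
def Bic (μ : Mod A B ξ) (a : Op H) : Prop :=
  a ∈ A ∧ ∀ ε : ℝ, 0 < ε → ∃ δ : ℝ, 0 < δ ∧ ∀ u ∈ unitary (Op H), u ∈ A →
    ‖u ξ - μ.J (star u ξ)‖ ≤ δ → ‖(u * a - a * u) ξ‖ ≤ ε

/-- Second half of the proof. -/
def CoreStmt : Prop := ∀ (H : Type u) [NormedAddCommGroup H] [InnerProductSpace ℂ H]
  [CompleteSpace H] (A B : Alg H) (ξ : H) (μ : Mod A B ξ), ‖ξ‖ = 1 → Gam μ → ERel μ →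
    ∀ a, Bic μ a → ∃ c : ℂ, a = c • 1

end Vale.Agent.P132
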