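import Vale.Agent.P132.Defs
import Vale.Agent.P132.Work
import Vale.Agent.P096b.Amp
import Vale.Agent.P096b.Sep
import Vale.Agent.P096.TraceVec

/-! Working definitions for the first half of the bicentralizer theorem. -/

set_option linter.unusedSectionVars false

namespace Vale.Agent.P132

open Filter Topology Vale.Agent.P096 Vale.Agent.P096b
open scoped InnerProductSpace ComplexConjugate

universe u

variable {H : Type u} [NormedAddCommGroup H] [InnerProductSpace ℂ H] [CompleteSpace H]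
  {K : Type u} [NormedAddCommGroup K] [InnerProductSpace ℂ K] [CompleteSpace K]

/-- Factors. -/
def Fac (M : Alg H) : Prop := ∀ z ∈ M, (∀ x ∈ M, z * x = x * z) → ∃ c : ℂ, z = c • 1

/-- A separating sequence of total norm one. -/
def SepSeq (M : Alg H) (ζ : ℕ → H) : Prop :=
  HasSum (fun n => ‖ζ n‖ ^ 2) 1 ∧ ∀ x ∈ M, (∀ n, x (ζ n) = 0) → x = 0

/-- A faithful normal representation of `M` onto `A`. -/
structure Rep (M : Alg H) (π : Op H → Op K) (A : Alg K) : Prop where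
  mem : ∀ x ∈ M, π x ∈ A
  onto : ∀ a ∈ A, ∃ x ∈ M, π x = a
  add : ∀ x ∈ M, ∀ y ∈ M, π (x + y) = π x + π y
  smul : ∀ (c : ℂ), ∀ x ∈ M, π (c • x) = c • π x
  mul : ∀ x ∈ M, ∀ y ∈ M, π (x * y) = π x * π y
  star : ∀ x ∈ M, π (star x) = star (π x)
  one : π 1 = 1
  inj : ∀ x ∈ M, π x = 0 → x = 0
  vec : ∀ η : K, ∃ ζ : ℕ → H, HasSum (fun n => ‖ζ n‖ ^ 2) (‖η‖ ^ 2) ∧
    ∀ x ∈ M, HasSum (fun n => ⟪ζ n, x (ζ n)⟫_ℂ) ⟪η, π x η⟫_ℂ

/-- `g` vanishes outside the `δ`-neighbourhood of `t`. -/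
def Near' (g : ℝ → ℂ) (t δ : ℝ) : Prop := BC g ∧ ∀ κ, δ ≤ |κ - t| → g κ = 0

/-- The modular spectrum of every faithful normal state is everything. -/
def NoGap (M : Alg H) : Prop :=
  ∀ (K : Type u) [NormedAddCommGroup K] [InnerProductSpace ℂ K] [CompleteSpace K]
    (π : Op H → Op K) (A : Alg K) (Ω : K) (ν : Pre A Ω), Rep M π A → ‖Ω‖ = 1 → Cyc A Ω →
    (∀ a ∈ A, a Ω = 0 → a = 0) → ∀ t δ : ℝ, 0 < δ → ∃ g, Near' g t δ ∧ ν.F g ≠ 0

/-- The modular spectrum of every corner is everything. -/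
def NoGapC {A B : Alg H} {ξ : H} (μ : Mod A B ξ) : Prop :=
  ∀ e, Cen μ e → IsStarProjection e → e ≠ 0 → ∀ t δ : ℝ, 0 < δ →
    ∃ g, Near' g t δ ∧ ∃ x ∈ A, μ.F g ((e * x * e) ξ) ≠ 0

/-- The spectral measure of `η` lives on `[s - δ, s + δ]`. -/
def BL (Φ : Calc H) (s δ : ℝ) (η : H) : Prop :=
  ∀ g, BC g → (∀ κ, |κ - s| ≤ δ → g κ = 0) → Φ.F g η = 0

/-- The column of a family. -/
noncomputable def colOp {ι : Type} [Fintype ι] (n : ι → Op H) : Op H := ∑ i, star (n i) * n i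

/-- The weighted row of a family. -/
noncomputable def rowOp (t : ℝ) {ι : Type} [Fintype ι] (n : ι → Op H) : Op H :=
  ((Real.exp (-t) : ℝ) : ℂ) • ∑ i, n i * star (n i)

/-- The functional which is maximized. -/
noncomputable def gain {A B : Alg H} {ξ : H} (μ : Mod A B ξ) (t L : ℝ) {ι : Type} [Fintype ι]
    (n : ι → Op H) : ℝ :=
  ∑ i, ‖n i ξ‖ ^ 2 - L * ∑ i, ‖dfc μ t (n i)‖ ^ 2 -
    (‖colOp n ξ‖ ^ 2 + ‖rowOp t n ξ‖ ^ 2) / 100

theorem cp_vn (M : VonNeumannAlgebra H) :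
    CP M.toStarSubalgebra M.commutant.toStarSubalgebra := by
  refine ⟨fun x => ?_, fun y => ?_⟩
  · constructor
    · intro hx y hy
      exact (VonNeumannAlgebra.mem_commutant_iff.1 hy x hx)
    · intro h
      have : x ∈ M.commutant.commutant :=
        VonNeumannAlgebra.mem_commutant_iff.2 fun y hy => (h y hy).symm
      rwa [VonNeumannAlgebra.commutant_commutant] at this
  · constructor
    · intro hy x hx
      exact (VonNeumannAlgebra.mem_commutant_iff.1 hy x hx).symm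
    · intro h
      exact VonNeumannAlgebra.mem_commutant_iff.2 fun x hx => (h x hx).symm

theorem Rep.fac {M : Alg H} {π : Op H → Op K} {A : Alg K} (h : Rep M π A) (hf : Fac M) :
    Fac A := by
  intro z hz hc
  obtain ⟨x, hx, rfl⟩ := h.onto z hz
  obtain ⟨c, hc'⟩ := hf x hx fun y hy => by
    have e : π (x * y + (-1 : ℂ) • (y * x)) = 0 := by
      rw [h.add _ (mul_mem hx hy) _ (M.smul_mem (mul_mem hy hx) _), h.smul _ _ (mul_mem hy hx),
        h.mul _ hx _ hy, h.mul _ hy _ hx, hc _ (h.mem y hy)]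
      simp
    have := h.inj _ (add_mem (mul_mem hx hy) (M.smul_mem (mul_mem hy hx) _)) e
    rw [neg_smul, one_smul, add_neg_eq_zero] at this
    exact this
  exact ⟨c, by rw [hc', h.smul _ _ (one_mem M), h.one]⟩

end Vale.Agent.P132
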