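import Vale.Agent.P132.IDefs

/-! Finite differences and spectral supports. -/

namespace Vale.Agent.P132

open Filter Topology MeasureTheory Vale.Agent.P096 Vale.Agent.P096b
open scoped InnerProductSpace ComplexConjugate

universe u

variable {H : Type u} [NormedAddCommGroup H] [InnerProductSpace ℂ H] [CompleteSpace H]
  {K : Type u} [NormedAddCommGroup K] [InnerProductSpace ℂ K] [CompleteSpace K]

theorem idiff_bc {f : ℝ → ℂ} (hf : BC f) (n : ℕ) : BC fun κ => f κ ^ n := by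
  induction n with
  | zero => simpa using BC.const 1
  | succ n ih => simpa only [pow_succ] using ih.mul hf

theorem idiff_pow (Φ : Calc K) {f : ℝ → ℂ} (hf : BC f) (n : ℕ) :
    Φ.F (fun κ => f κ ^ n) = Φ.F f ^ n := by
  induction n with
  | zero => simpa using Φ.one
  | succ n ih => simp only [pow_succ, Φ.mul (idiff_bc hf n) hf, ih]

theorem idiff_norm (τ x : ℝ) : ‖ex τ x - 1‖ ^ 2 = 2 - 2 * Real.cos (τ * x) := by
  have h : ex τ x = Complex.exp (((τ * x : ℝ) : ℂ) * Complex.I) := by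
    rw [ex]
    congr 1
    push_cast
    ring
  rw [h, Complex.sq_norm, Complex.normSq_apply, Complex.sub_re, Complex.sub_im,
    Complex.exp_ofReal_mul_I_re, Complex.exp_ofReal_mul_I_im, Complex.one_re, Complex.one_im]
  nlinarith [Real.sin_sq_add_cos_sq (τ * x)]

theorem idiff_cover {δ x : ℝ} (hδ : 0 < δ) (hx : 30 * δ < |x|) :
    ∃ k : ℕ, 2 ≤ ‖ex ((2 ^ k * (16 * δ))⁻¹) x - 1‖ ^ 2 := by
  have hπ := Real.pi_pos
  obtain ⟨k, h1, h2⟩ := exists_nat_pow_near (x := |x| / (8 * δ * Real.pi)) (y := 2) (by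
    rw [le_div_iff₀ (by positivity)]
    nlinarith [Real.pi_lt_d2]) one_lt_two
  rw [le_div_iff₀ (by positivity)] at h1
  rw [div_lt_iff₀ (by positivity), pow_succ] at h2
  refine ⟨k, ?_⟩
  rw [idiff_norm, ← Real.cos_abs, abs_mul, abs_of_pos (by positivity), ← div_eq_inv_mul]
  have h3 := Real.cos_nonpos_of_pi_div_two_le_of_le (x := |x| / (2 ^ k * (16 * δ)))
    (by rw [le_div_iff₀ (by positivity)]; linarith)
    (by
      rw [div_le_iff₀ (by positivity)]
      nlinarith [show 0 < 2 ^ k * δ * Real.pi by positivity])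
  linarith

/-- Growth of finite differences bounds the spectral support. With `ν` from `meas'`,
`∫ |ex τ (κ - c) - 1|^{2n} dν ≤ C (16 τ δ)^n` for all `n`, so the set where
`|ex τ (κ - c) - 1|² ≥ 2` is null when `16 τ δ ≤ 1`; the values `τ = 2^{-k} / (16 δ)` cover
`8 π δ ≤ |κ - c|` (there `τ |κ - c| ∈ [π/2, π]` for some `k`). -/
theorem bl_of_diff (Φ : Calc K) {c δ : ℝ} (hδ : 0 < δ) {η : K} {C : ℝ}
    (h : ∀ τ : ℝ, 0 < τ → τ * δ ≤ 1 → ∀ n : ℕ,
      ‖((ex τ (-c) • Φ.U τ - 1) ^ n : Op K) η‖ ^ 2 ≤ C * (16 * (τ * δ)) ^ n) :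
    BL Φ c (30 * δ) η := by
  intro g hg hg0
  obtain ⟨ν, _, -, hν⟩ := Φ.meas' η
  have hC : 0 ≤ C := by
    have h1 := h δ⁻¹ (inv_pos.2 hδ) (inv_mul_cancel₀ hδ.ne').le 0
    rw [pow_zero, pow_zero, mul_one] at h1
    exact (sq_nonneg _).trans h1
  have hnull : ∀ k : ℕ, ν {κ | 2 ≤ ‖ex ((2 ^ k * (16 * δ))⁻¹) (κ - c) - 1‖ ^ 2} = 0 := by
    intro k
    have h1 : (1 : ℝ) ≤ 2 ^ k := one_le_pow₀ one_le_two
    have hτ : 0 < (2 ^ k * (16 * δ))⁻¹ := by positivity
    have hτ' : 16 * ((2 ^ k * (16 * δ))⁻¹ * δ) ≤ 1 := by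
      rw [← div_eq_inv_mul, ← mul_div_assoc, div_le_one (by positivity)]
      nlinarith
    generalize (2 ^ k * (16 * δ))⁻¹ = τ at *
    have hf : BC fun κ => ex τ (-c) * ex τ κ - 1 := ((bc_ex τ).cmul _).sub (BC.const 1)
    have hF : Φ.F (fun κ => ex τ (-c) * ex τ κ - 1) = ex τ (-c) • Φ.U τ - 1 := by
      rw [Φ.sub ((bc_ex τ).cmul _) (BC.const 1), Φ.smul _ (bc_ex τ), Φ.one]
      rfl
    have h2 : ∀ n : ℕ, ν.real {κ | 2 ≤ ‖ex τ (κ - c) - 1‖ ^ 2} ≤ C * (1 / 2) ^ n := by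
      intro n
      have h3 := h τ hτ (by nlinarith [mul_pos hτ hδ]) n
      rw [← hF, ← idiff_pow Φ hf, hν _ (idiff_bc hf n)] at h3
      have h4 := mul_meas_ge_le_integral_of_nonneg (Eventually.of_forall fun _ => sq_nonneg _)
        (calc_integrable_sq ν (idiff_bc hf n)) (2 ^ n)
      have h5 : ν.real {κ | 2 ≤ ‖ex τ (κ - c) - 1‖ ^ 2}
          ≤ ν.real {κ | 2 ^ n ≤ ‖(ex τ (-c) * ex τ κ - 1) ^ n‖ ^ 2} := by
        refine measureReal_mono fun κ hκ => ?_
        rw [Set.mem_ofPred_eq, norm_pow, ← pow_mul, mul_comm n, pow_mul, ← ex_add', neg_add_eq_sub]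
        exact pow_le_pow_left₀ zero_le_two hκ n
      have h6 : C * (16 * (τ * δ)) ^ n ≤ C :=
        mul_le_of_le_one_right hC (pow_le_one₀ (by positivity) hτ')
      rw [one_div, inv_pow, ← div_eq_mul_inv, le_div_iff₀ (by positivity), mul_comm]
      exact (mul_le_mul_of_nonneg_left h5 (by positivity)).trans (h4.trans (h3.trans h6))
    have h3 := ge_of_tendsto' ((tendsto_pow_atTop_nhds_zero_of_lt_one (r := (1 / 2 : ℝ))
      (by norm_num) (by norm_num)).const_mul C) h2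
    rw [mul_zero] at h3
    exact (measureReal_eq_zero_iff (measure_ne_top _ _)).1 (le_antisymm h3 measureReal_nonneg)
  have h1 : ∀ᵐ κ ∂ν, ‖g κ‖ ^ 2 = 0 := by
    filter_upwards [ae_all_iff.2 fun k => measure_eq_zero_iff_ae_notMem.1 (hnull k)] with κ hκ
    rw [hg0 κ, norm_zero, zero_pow two_ne_zero]
    by_contra h2
    obtain ⟨k, hk⟩ := idiff_cover hδ (not_le.1 h2)
    exact hκ k hk
  have h2 := hν g hg
  rw [integral_eq_zero_of_ae h1] at h2
  exact norm_eq_zero.1 (pow_eq_zero_iff two_ne_zero |>.1 h2)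

end Vale.Agent.P132
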