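import Vale.Agent.P132.ICen

/-! Extension of families. -/

set_option linter.unusedSectionVars false

namespace Vale.Agent.P132

open Filter Topology MeasureTheory Vale.Agent.P096 Vale.Agent.P096b
open scoped InnerProductSpace ComplexConjugate

universe u

variable {H : Type u} [NormedAddCommGroup H] [InnerProductSpace ℂ H] [CompleteSpace H]
  {K : Type u} [NormedAddCommGroup K] [InnerProductSpace ℂ K] [CompleteSpace K]

variable {A B : Alg K} {ξ : K}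

theorem ie0_star (x : Op K) (η ζ : K) : ⟪η, star x ζ⟫_ℂ = ⟪x η, ζ⟫_ℂ := by
  rw [ContinuousLinearMap.star_eq_adjoint, ContinuousLinearMap.adjoint_inner_right]

theorem ie0_self (η : K) : (⟪η, η⟫_ℂ).re = ‖η‖ ^ 2 := by
  have := inner_self_eq_norm_sq (𝕜 := ℂ) η
  simpa using this

theorem ie0_sq (x : Op K) (η : K) : (⟪η, (star x * x) η⟫_ℂ).re = ‖x η‖ ^ 2 := by
  rw [mul_apply_eq_comp, ie0_star, ie0_self]

theorem ie0_pc {d : Op K} (hd : Pc d) (η : K) : ‖d η‖ ^ 2 ≤ (⟪η, d η⟫_ℂ).re := by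
  obtain ⟨l, h1, h2, -⟩ := exists_sqrt' d hd.1 fun η => (hd.2 η).1
  have e : ∀ ζ, (⟪ζ, d ζ⟫_ℂ).re = ‖l ζ‖ ^ 2 := fun ζ => by
    rw [← ie0_sq, h1, h2]
  have e2 : d η = l (l η) := by rw [← h2, mul_apply_eq_comp]
  rw [e, e2, ← e]
  exact (hd.2 _).2

theorem ie0_pc' {d : Op K} (hd : Pc d) (η : K) : ‖d η‖ ^ 2 ≤ ‖η‖ ^ 2 :=
  (ie0_pc hd η).trans (hd.2 η).2

theorem ie0_tri {d e : Op K} (hd : Pc d) (he : Pc e) (x : Op K) (η : K) :
    ‖(e * x * d) η‖ ^ 2 ≤ ‖x‖ ^ 2 * (⟪η, d η⟫_ℂ).re := by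
  rw [mul_apply_eq_comp, mul_apply_eq_comp]
  calc ‖e (x (d η))‖ ^ 2 ≤ ‖x (d η)‖ ^ 2 := ie0_pc' he _
    _ ≤ (‖x‖ * ‖d η‖) ^ 2 := pow_le_pow_left₀ (norm_nonneg _) (x.le_opNorm _) 2
    _ = ‖x‖ ^ 2 * ‖d η‖ ^ 2 := by ring
    _ ≤ _ := mul_le_mul_of_nonneg_left (ie0_pc hd η) (sq_nonneg _)

theorem ie0_smul (θ : ℝ) (η : K) : ‖(θ : ℂ) • η‖ ^ 2 = θ ^ 2 * ‖η‖ ^ 2 := by
  rw [norm_smul, mul_pow, Complex.norm_real, Real.norm_eq_abs, sq_abs]

theorem ie0_star_smul (θ : ℝ) (y : Op K) : star ((θ : ℂ) • y) = (θ : ℂ) • star y := by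
  rw [star_smul, Complex.star_def, Complex.conj_ofReal]

theorem ie0_col_star {ι : Type} [Fintype ι] (n : ι → Op K) : star (colOp n) = colOp n := by
  simp only [colOp, star_sum, star_mul, star_star]

theorem ie0_row_star (t : ℝ) {ι : Type} [Fintype ι] (n : ι → Op K) :
    star (rowOp t n) = rowOp t n := by
  simp only [rowOp, ie0_star_smul, star_sum, star_mul, star_star]

theorem ie0_add_sq (u v : K) (a : ℝ) :
    ‖(a : ℂ) • v + u‖ ^ 2 = ‖u‖ ^ 2 + 2 * a * (⟪u, v⟫_ℂ).re + a ^ 2 * ‖v‖ ^ 2 := by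
  rw [add_comm, @norm_add_sq ℂ, ie0_smul, inner_smul_right]
  simp only [RCLike.re_to_complex, Complex.re_ofReal_mul]
  ring

theorem col_inner {ι : Type} [Fintype ι] (n : ι → Op K) (η : K) :
    (⟪η, colOp n η⟫_ℂ).re = ∑ i, ‖n i η‖ ^ 2 := by
  rw [colOp, sum_apply, inner_sum, Complex.re_sum]
  exact Finset.sum_congr rfl fun i _ => ie0_sq _ _

theorem row_inner (t : ℝ) {ι : Type} [Fintype ι] (n : ι → Op K) (η : K) :
    (⟪η, rowOp t n η⟫_ℂ).re = Real.exp (-t) * ∑ i, ‖star (n i) η‖ ^ 2 := by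
  rw [rowOp, smul_apply, inner_smul_right, Complex.re_ofReal_mul, sum_apply, inner_sum,
    Complex.re_sum]
  congr 1
  refine Finset.sum_congr rfl fun i _ => ?_
  rw [← ie0_sq, star_star]

/-- Extension of a family by `θ (k - r) x (h - c)`, `c = colOp n`, `r = rowOp t n`. Since
`0 ≤ h - c ≤ 1` we have `(h - c)² ≤ h - c`, so the new column is at most `h` when
`θ ‖x‖ ≤ 1`, and similarly for the row when `θ² exp (-t) ‖x‖² ≤ 1`. -/
theorem Fam.extend {t : ℝ} {h k : Op K} (hh : h ∈ A) (hk : k ∈ A) (ph : Pc h) (pk : Pc k)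
    {ι : Type} [Fintype ι] {n : ι → Op K} (hn : Fam A t h k n) {x : Op K} (hx : x ∈ A) {θ : ℝ}
    (h1 : θ ^ 2 * ‖x‖ ^ 2 ≤ 1) (h2 : θ ^ 2 * Real.exp (-t) * ‖x‖ ^ 2 ≤ 1) :
    Fam A t h k fun i : Option ι =>
      i.elim ((θ : ℂ) • ((k - rowOp t n) * x * (h - colOp n))) n := by
  have mc : colOp n ∈ A :=
    sum_mem fun i _ => mul_mem (star_mem (hn.mem i)) (hn.mem i)
  have mr : rowOp t n ∈ A :=
    A.smul_mem (sum_mem fun i _ => mul_mem (hn.mem i) (star_mem (hn.mem i))) _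
  have ed : ∀ η, (⟪η, (h - colOp n) η⟫_ℂ).re = (⟪η, h η⟫_ℂ).re - ∑ i, ‖n i η‖ ^ 2 := fun η => by
    rw [sub_apply, inner_sub_right, Complex.sub_re, col_inner]
  have ee : ∀ η, (⟪η, (k - rowOp t n) η⟫_ℂ).re =
      (⟪η, k η⟫_ℂ).re - Real.exp (-t) * ∑ i, ‖star (n i) η‖ ^ 2 := fun η => by
    rw [sub_apply, inner_sub_right, Complex.sub_re, row_inner]
  have pd : Pc (h - colOp n) := by
    refine ⟨by rw [star_sub, ph.1, ie0_col_star], fun η => ?_⟩
    have a1 := hn.col η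
    have a2 := (ph.2 η).2
    have a3 : 0 ≤ ∑ i, ‖n i η‖ ^ 2 := Finset.sum_nonneg fun i _ => sq_nonneg _
    rw [ed]
    constructor <;> linarith
  have pe : Pc (k - rowOp t n) := by
    refine ⟨by rw [star_sub, pk.1, ie0_row_star], fun η => ?_⟩
    have a1 := hn.row η
    have a2 := (pk.2 η).2
    have a3 : 0 ≤ Real.exp (-t) * ∑ i, ‖star (n i) η‖ ^ 2 :=
      mul_nonneg (Real.exp_pos _).le (Finset.sum_nonneg fun i _ => sq_nonneg _)
    rw [ee]
    constructor <;> linarith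
  refine ⟨fun i => ?_, fun η => ?_, fun η => ?_⟩
  · cases i with
    | none => exact A.smul_mem (mul_mem (mul_mem (sub_mem hk mr) hx) (sub_mem hh mc)) _
    | some i => exact hn.mem i
  · rw [Fintype.sum_option]
    simp only [Option.elim_none, Option.elim_some]
    rw [smul_apply, ie0_smul]
    have a1 := mul_le_mul_of_nonneg_left (ie0_tri pd pe x η) (sq_nonneg θ)
    have a2 := mul_le_mul_of_nonneg_right h1 (pd.2 η).1
    have a3 := ed η
    linarith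
  · rw [Fintype.sum_option]
    simp only [Option.elim_none, Option.elim_some]
    rw [ie0_star_smul, smul_apply, ie0_smul, star_mul, star_mul, pd.1, pe.1, ← mul_assoc]
    have a1 := mul_le_mul_of_nonneg_left (ie0_tri pe pd (star x) η)
      (mul_nonneg (sq_nonneg θ) (Real.exp_pos (-t)).le)
    rw [norm_star] at a1
    have a2 := mul_le_mul_of_nonneg_right h2 (pe.2 η).1
    have a3 := ee η
    linarith

/-- The gain of an extended family. -/
theorem gain_extend (μ : Mod A B ξ) (t L : ℝ) {ι : Type} [Fintype ι] (n : ι → Op K) (y : Op K)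
    (θ : ℝ) : gain μ t L (fun i : Option ι => i.elim ((θ : ℂ) • y) n) = gain μ t L n +
      θ ^ 2 * (‖y ξ‖ ^ 2 - L * ‖dfc μ t y‖ ^ 2 -
        ((⟪colOp n ξ, (star y * y) ξ⟫_ℂ).re +
          Real.exp (-t) * (⟪rowOp t n ξ, (y * star y) ξ⟫_ℂ).re) / 50) -
      θ ^ 4 * (‖(star y * y) ξ‖ ^ 2 + Real.exp (-t) ^ 2 * ‖(y * star y) ξ‖ ^ 2) / 100 := by
  have e1 : dfc μ t ((θ : ℂ) • y) = (θ : ℂ) • dfc μ t y := by
    rw [dfc, dfc, ie0_star_smul, smul_apply, smul_apply, map_smulₛₗ, Complex.conj_ofReal,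
      smul_sub, smul_comm]
  have e2 : colOp (fun i : Option ι => i.elim ((θ : ℂ) • y) n) ξ =
      ((θ ^ 2 : ℝ) : ℂ) • (star y * y) ξ + colOp n ξ := by
    rw [colOp, Fintype.sum_option]
    simp only [Option.elim_none, Option.elim_some]
    rw [add_apply, ie0_star_smul, smul_mul_smul_comm, smul_apply, colOp, Complex.ofReal_pow, sq]
  have e3 : rowOp t (fun i : Option ι => i.elim ((θ : ℂ) • y) n) ξ =
      ((Real.exp (-t) * θ ^ 2 : ℝ) : ℂ) • (y * star y) ξ + rowOp t n ξ := by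
    rw [rowOp, Fintype.sum_option]
    simp only [Option.elim_none, Option.elim_some]
    rw [smul_add, add_apply, ie0_star_smul, smul_mul_smul_comm, smul_smul, smul_apply, rowOp,
      Complex.ofReal_mul, Complex.ofReal_pow, sq]
  rw [gain, gain, e2, e3, ie0_add_sq, ie0_add_sq, Fintype.sum_option, Fintype.sum_option]
  simp only [Option.elim_none, Option.elim_some]
  rw [e1, smul_apply, ie0_smul, ie0_smul]
  ring

/-- For `c` a positive contraction of the centralizer,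
`⟪c ξ, y* y ξ⟫ = ⟪y ξ, jc J c (y ξ)⟫ ≤ ‖y ξ‖²` (`Cen.J_vec`). -/
theorem cen_le (μ : Mod A B ξ) {c y : Op K} (hc : Cen μ c) (pc : Pc c) (hy : y ∈ A) :
    (⟪c ξ, (star y * y) ξ⟫_ℂ).re ≤ ‖y ξ‖ ^ 2 := by
  have e1 : c ξ = jc μ.J c ξ := by
    rw [jc_apply, μ.J_fix μ.cp]
    have := Cen.J_vec μ hc
    rw [pc.1] at this
    exact this.symm
  rw [mul_apply_eq_comp, ie0_star, e1, μ.cp.app hy (μ.jA c hc.1), jc_apply, J_inner' μ.JJ]
  have := (pc.2 (μ.J (y ξ))).2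
  rwa [LinearIsometryEquiv.norm_map] at this

end Vale.Agent.P132
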