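import Vale.Agent.P132.IE0

/-! Maximizing sequences of families. -/

set_option linter.unusedSectionVars false

namespace Vale.Agent.P132

open Filter Topology MeasureTheory Vale.Agent.P096 Vale.Agent.P096b
open scoped InnerProductSpace ComplexConjugate

universe u

variable {H : Type u} [NormedAddCommGroup H] [InnerProductSpace ℂ H] [CompleteSpace H]
  {K : Type u} [NormedAddCommGroup K] [InnerProductSpace ℂ K] [CompleteSpace K]

variable {A B : Alg K} {ξ : K}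

theorem ie1_col_star {ι : Type} [Fintype ι] (n : ι → Op K) : star (colOp n) = colOp n := by
  simp [colOp, star_sum]

theorem ie1_row_star (t : ℝ) {ι : Type} [Fintype ι] (n : ι → Op K) :
    star (rowOp t n) = rowOp t n := by
  simp only [rowOp, star_smul, star_sum, star_mul, star_star, Complex.star_def,
    Complex.conj_ofReal]

theorem ie1_col_mem {ι : Type} [Fintype ι] {n : ι → Op K} (hn : ∀ i, n i ∈ A) : colOp n ∈ A :=
  sum_mem fun i _ => mul_mem (star_mem (hn i)) (hn i)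

theorem ie1_row_mem (t : ℝ) {ι : Type} [Fintype ι] {n : ι → Op K} (hn : ∀ i, n i ∈ A) :
    rowOp t n ∈ A :=
  A.smul_mem (sum_mem fun i _ => mul_mem (hn i) (star_mem (hn i))) _

theorem ie1_pc_sub {h c : Op K} (ph : Pc h) (hc : star c = c)
    (h0 : ∀ η, 0 ≤ (⟪η, c η⟫_ℂ).re) (h1 : ∀ η, (⟪η, c η⟫_ℂ).re ≤ (⟪η, h η⟫_ℂ).re) :
    Pc c ∧ Pc (h - c) := by
  refine ⟨⟨hc, fun η => ⟨h0 η, (h1 η).trans (ph.2 η).2⟩⟩, by rw [star_sub, ph.1, hc], fun η => ?_⟩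
  rw [sub_apply, inner_sub_right, Complex.sub_re]
  have := h0 η
  have := h1 η
  have := (ph.2 η).2
  constructor <;> linarith

theorem ie1_pc_col {t : ℝ} {h k : Op K} (ph : Pc h) {ι : Type} [Fintype ι] {n : ι → Op K}
    (hn : Fam A t h k n) : Pc (colOp n) ∧ Pc (h - colOp n) :=
  ie1_pc_sub ph (ie1_col_star n) (fun η => by rw [col_inner]; positivity)
    fun η => by rw [col_inner]; exact hn.col η

theorem ie1_pc_row {t : ℝ} {h k : Op K} (pk : Pc k) {ι : Type} [Fintype ι] {n : ι → Op K}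
    (hn : Fam A t h k n) : Pc (rowOp t n) ∧ Pc (k - rowOp t n) :=
  ie1_pc_sub pk (ie1_row_star t n) (fun η => by rw [row_inner]; positivity)
    fun η => by rw [row_inner]; exact hn.row η

theorem ie1_pc_norm {c : Op K} (pc : Pc c) : ‖c‖ ≤ 1 := by
  have h0 : 0 ≤ c := nonneg_of_inner pc.1 fun η => (pc.2 η).1
  have h1 : 0 ≤ 1 - c := nonneg_of_inner (by rw [star_sub, star_one, pc.1]) fun η => by
    rw [sub_apply, inner_sub_right, Complex.sub_re,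
      one_apply_eq_self, inner_self_eq_norm_sq_to_K]
    have := (pc.2 η).2
    have e : (((‖η‖ : ℝ) : ℂ) ^ 2).re = ‖η‖ ^ 2 := by
      rw [← Complex.ofReal_pow, Complex.ofReal_re]
    erw [e]
    linarith
  exact (CStarAlgebra.norm_le_one_iff_of_nonneg c h0).2 (sub_nonneg.1 h1)

theorem ie1_pc_lim {a : ℕ → Op K} {c : Op K} (ha : ∀ N, Pc (a N))
    (hc : ∀ η, Tendsto (fun N => a N η) atTop (𝓝 (c η))) : Pc c := by
  have h1 : ∀ ζ η, Tendsto (fun N => ⟪ζ, a N η⟫_ℂ) atTop (𝓝 ⟪ζ, c η⟫_ℂ) := fun ζ η =>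
    tendsto_const_nhds.inner (hc η)
  refine ⟨?_, fun η => ?_⟩
  · ext η
    refine ext_inner_left ℂ fun ζ => ?_
    rw [← tl_inner]
    refine tendsto_nhds_unique ((hc ζ).inner (tendsto_const_nhds (x := η))) ?_
    refine (h1 ζ η).congr fun N => ?_
    rw [tl_inner, (ha N).1]
  · have h2 := (Complex.continuous_re.tendsto _).comp (h1 η η)
    exact ⟨ge_of_tendsto' h2 fun N => ((ha N).2 η).1, le_of_tendsto' h2 fun N => ((ha N).2 η).2⟩

theorem ie1_lim (μ : Mod A B ξ) {a : ℕ → Op K} (ha : ∀ N, a N ∈ A) (hb : ∀ N, ‖a N‖ ≤ 1)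
    (hc : CauchySeq fun N => a N ξ) :
    ∃ c ∈ A, ∀ η, Tendsto (fun N => a N η) atTop (𝓝 (c η)) := by
  obtain ⟨v, hv⟩ := cauchySeq_tendsto_of_complete hc
  obtain ⟨S, hS⟩ := tl_ulim (Ultrafilter.of (atTop : Filter ℕ)) a 1 hb
  have hA : S ∈ A := P096b.CP.weak μ.cp (l := Ultrafilter.of (atTop : Filter ℕ))
    (Eventually.of_forall ha) hS
  have e : S ξ = v := ext_inner_left ℂ fun ζ =>
    tendsto_nhds_unique (hS ξ ζ)
      ((tendsto_const_nhds.inner hv).mono_left (Ultrafilter.of_le _))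
  refine ⟨S, hA, μ.cycB.strong hb fun b hb' => ?_⟩
  rw [μ.cp.app hA hb', e]
  exact ((b.continuous.tendsto v).comp hv).congr fun N => (μ.cp.app (ha N) hb' ξ).symm

theorem ie1_gain_le (μ : Mod A B ξ) (hξ : ‖ξ‖ = 1) {t L : ℝ} (hL : 0 ≤ L) {h k : Op K} (ph : Pc h)
    {ι : Type} [Fintype ι] {n : ι → Op K} (hn : Fam A t h k n) : gain μ t L n ≤ 1 := by
  have h1 := (hn.col ξ).trans (ph.2 ξ).2
  have h2 : 0 ≤ L * ∑ i, ‖dfc μ t (n i)‖ ^ 2 := by positivity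
  have h3 : 0 ≤ (‖colOp n ξ‖ ^ 2 + ‖rowOp t n ξ‖ ^ 2) / 100 := by positivity
  rw [hξ] at h1
  unfold gain
  linarith

theorem ie1_dfc_smul (μ : Mod A B ξ) (t θ : ℝ) (y : Op K) :
    dfc μ t ((θ : ℂ) • y) = (θ : ℂ) • dfc μ t y := by
  simp only [dfc, star_smul, smul_apply, map_smulₛₗ, smul_sub,
    Complex.star_def, Complex.conj_ofReal]
  rw [smul_comm]

/-- The mean of two families. -/
noncomputable def ie1mid {ι ι' : Type} (n : ι → Op K) (n' : ι' → Op K) : ι ⊕ ι' → Op K :=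
  fun i => ((√(1 / 2) : ℝ) : ℂ) • Sum.elim n n' i

theorem ie1_half : (√(1 / 2) : ℝ) ^ 2 = 1 / 2 := Real.sq_sqrt (by norm_num)

theorem ie1_nsq (v : K) : ‖((√(1 / 2) : ℝ) : ℂ) • v‖ ^ 2 = ‖v‖ ^ 2 / 2 := by
  rw [norm_smul, mul_pow, Complex.norm_real, Real.norm_eq_abs, sq_abs, ie1_half]
  ring

theorem ie1_cc : ((√(1 / 2) : ℝ) : ℂ) * ((√(1 / 2) : ℝ) : ℂ) = 1 / 2 := by
  rw [← Complex.ofReal_mul, ← sq, ie1_half]
  norm_num

theorem ie1_mid_star {ι ι' : Type} (n : ι → Op K) (n' : ι' → Op K) (i : ι ⊕ ι') :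
    star (ie1mid n n' i) = ((√(1 / 2) : ℝ) : ℂ) • star (Sum.elim n n' i) := by
  simp only [ie1mid, star_smul, Complex.star_def, Complex.conj_ofReal]

theorem ie1_mid_col {ι ι' : Type} [Fintype ι] [Fintype ι'] (n : ι → Op K) (n' : ι' → Op K) :
    colOp (ie1mid n n') = (1 / 2 : ℂ) • (colOp n + colOp n') := by
  simp only [colOp, ie1_mid_star]
  simp only [ie1mid, smul_mul_smul_comm, ie1_cc, ← Finset.smul_sum, Fintype.sum_sum_type,
    Sum.elim_inl, Sum.elim_inr]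

theorem ie1_mid_row (t : ℝ) {ι ι' : Type} [Fintype ι] [Fintype ι'] (n : ι → Op K)
    (n' : ι' → Op K) : rowOp t (ie1mid n n') = (1 / 2 : ℂ) • (rowOp t n + rowOp t n') := by
  simp only [rowOp, ie1_mid_star]
  simp only [ie1mid, smul_mul_smul_comm, ie1_cc, ← Finset.smul_sum, Fintype.sum_sum_type,
    Sum.elim_inl, Sum.elim_inr, ← smul_add]
  rw [smul_comm]

theorem ie1_mid_fam {t : ℝ} {h k : Op K} {ι ι' : Type} [Fintype ι] [Fintype ι'] {n : ι → Op K}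
    {n' : ι' → Op K} (hn : Fam A t h k n) (hn' : Fam A t h k n') : Fam A t h k (ie1mid n n') := by
  refine ⟨fun i => A.smul_mem ?_ _, fun η => ?_, fun η => ?_⟩
  · rcases i with i | i
    · exact hn.mem i
    · exact hn'.mem i
  · have h1 := hn.col η
    have h2 := hn'.col η
    simp only [ie1mid, smul_apply, ie1_nsq, Fintype.sum_sum_type,
      Sum.elim_inl, Sum.elim_inr, ← Finset.sum_div]
    linarith
  · have h1 := hn.row η
    have h2 := hn'.row η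
    simp only [ie1_mid_star, smul_apply, ie1_nsq, Fintype.sum_sum_type,
      Sum.elim_inl, Sum.elim_inr, ← Finset.sum_div]
    linarith

theorem ie1_par (a b : K) : ‖(1 / 2 : ℂ) • (a + b)‖ ^ 2 = (‖a‖ ^ 2 + ‖b‖ ^ 2) / 2 - ‖a - b‖ ^ 2 / 4 := by
  have h := parallelogram_law_with_norm ℂ a b
  rw [norm_smul, mul_pow]
  have e : ‖(1 / 2 : ℂ)‖ = 1 / 2 := by simp
  rw [e]
  nlinarith

theorem ie1_mid_gain (μ : Mod A B ξ) (t L : ℝ) {ι ι' : Type} [Fintype ι] [Fintype ι']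
    (n : ι → Op K) (n' : ι' → Op K) : gain μ t L (ie1mid n n') =
      (gain μ t L n + gain μ t L n') / 2 +
        (‖colOp n ξ - colOp n' ξ‖ ^ 2 + ‖rowOp t n ξ - rowOp t n' ξ‖ ^ 2) / 400 := by
  unfold gain
  rw [ie1_mid_col, ie1_mid_row]
  simp only [ie1mid, ie1_dfc_smul, smul_apply, add_apply,
    ie1_nsq, ie1_par, Fintype.sum_sum_type, Sum.elim_inl, Sum.elim_inr, ← Finset.sum_div]
  ring

theorem ie1_σ_sum (Φ : Calc K) (s : ℝ) {ι : Type} [Fintype ι] (x : ι → Op K) :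
    Φ.σ s (∑ i, x i) = ∑ i, Φ.σ s (x i) := by
  simp only [Calc.σ, Finset.mul_sum, Finset.sum_mul]

theorem ie1_σ_col (Φ : Calc K) (s : ℝ) {ι : Type} [Fintype ι] (n : ι → Op K) :
    colOp (fun i => Φ.σ s (n i)) = Φ.σ s (colOp n) := by
  simp only [colOp, ie1_σ_sum, Φ.σ_mul, Φ.σ_star]

theorem ie1_σ_row (Φ : Calc K) (s t : ℝ) {ι : Type} [Fintype ι] (n : ι → Op K) :
    rowOp t (fun i => Φ.σ s (n i)) = Φ.σ s (rowOp t n) := by
  simp only [rowOp, ie1_σ_sum, Φ.σ_mul, Φ.σ_star, Φ.σ_smul]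

theorem ie1_σ_inner (Φ : Calc K) (s : ℝ) (x : Op K) (η : K) :
    ⟪η, Φ.σ s x η⟫_ℂ = ⟪Φ.U (-s) η, x (Φ.U (-s) η)⟫_ℂ := by
  rw [tl_inner, Φ.star_U, neg_neg]
  rfl

theorem ie1_σ_fam (μ : Mod A B ξ) (s : ℝ) {t : ℝ} {h k : Op K} (hh : Cen μ h) (hk : Cen μ k)
    {ι : Type} [Fintype ι] {n : ι → Op K} (hn : Fam A t h k n) :
    Fam A t h k fun i => μ.σ s (n i) := by
  refine ⟨fun i => μ.uA s _ (hn.mem i), fun η => ?_, fun η => ?_⟩
  · rw [← col_inner, ie1_σ_col, ie1_σ_inner, col_inner, ← μ.σ_fix (hh.2 s), ie1_σ_inner]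
    exact hn.col _
  · rw [← row_inner, ie1_σ_row, ie1_σ_inner, row_inner, ← μ.σ_fix (hk.2 s), ie1_σ_inner]
    exact hn.row _

theorem ie1_σ_dfc (μ : Mod A B ξ) (s t : ℝ) (y : Op K) :
    dfc μ t (μ.σ s y) = μ.U s (dfc μ t y) := by
  simp only [dfc, ← μ.σ_star, μ.toPre.σ_vec μ.cp, μ.toPre.J_U, map_sub, map_smul]

theorem ie1_σ_gain (μ : Mod A B ξ) (s t L : ℝ) {ι : Type} [Fintype ι] (n : ι → Op K) :
    gain μ t L (fun i => μ.σ s (n i)) = gain μ t L n := by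
  unfold gain
  rw [ie1_σ_col, ie1_σ_row]
  simp only [ie1_σ_dfc, μ.toPre.σ_vec μ.cp, μ.norm_U]

theorem ie1_cauchy {v : ℕ → K} {e : ℕ → ℝ} (he : Tendsto e atTop (𝓝 0))
    (h : ∀ N M, ‖v N - v M‖ ^ 2 ≤ e N + e M) : CauchySeq v := by
  refine Metric.cauchySeq_iff.2 fun ε hε => ?_
  obtain ⟨N, hN⟩ := eventually_atTop.1 (he.eventually (gt_mem_nhds (show (0 : ℝ) < ε ^ 2 / 2 by
    positivity)))
  refine ⟨N, fun a ha b hb => ?_⟩
  rw [dist_eq_norm]
  refine lt_of_pow_lt_pow_left₀ 2 hε.le ?_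
  have := h a b
  have := hN a ha
  have := hN b hb
  linarith

theorem ie1_fix (μ : Mod A B ξ) {a : ℕ → Op K} {c : Op K} (hc : c ∈ A)
    (h : ∀ η, Tendsto (fun N => a N η) atTop (𝓝 (c η))) {e : ℕ → ℝ} (he : Tendsto e atTop (𝓝 0))
    (h2 : ∀ s N, ‖a N ξ - μ.σ s (a N) ξ‖ ^ 2 ≤ e N) : Cen μ c := by
  refine ⟨hc, fun s => μ.fixA hc ?_⟩
  have h3 : Tendsto (fun N => ‖a N ξ - μ.σ s (a N) ξ‖ ^ 2) atTop
      (𝓝 (‖c ξ - μ.U s (c ξ)‖ ^ 2)) := by
    simp only [μ.toPre.σ_vec μ.cp]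
    exact ((h ξ).sub (((μ.U s).continuous.tendsto _).comp (h ξ))).norm.pow 2
  have h4 := le_of_tendsto_of_tendsto' h3 he (h2 s)
  have h5 : ‖c ξ - μ.U s (c ξ)‖ = 0 := pow_eq_zero_iff (two_ne_zero) |>.1
    (le_antisymm h4 (by positivity))
  exact (sub_eq_zero.1 (norm_eq_zero.1 h5)).symm

/-- Maximizing sequences converge. `gain ≤ 1` on families, the empty family has gain zero; let
`m` be the supremum and take families with gain at least `m - 1/(N+1)`. For two families `n`, `n'`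
the family `(n/√2, n'/√2)` on the sum type has gain
`(gain n + gain n')/2 + (‖(c - c') ξ‖² + ‖(r - r') ξ‖²)/400`. So `colOp (n N) ξ` and
`rowOp t (n N) ξ` are Cauchy; the operators are bounded by one, so they converge strongly
(`Cyc.strong`, limit from `tl_ulim`, `CP.weak`). Applying this to `n' = σ s ∘ n` (a family with
the same gain since `h`, `k` commute with `U`, `J_U`, `σ_vec`) shows `U s (c ξ) = c ξ`, so `c` is in
the centralizer (`fixA`). -/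
theorem max_seq (μ : Mod A B ξ) (hξ : ‖ξ‖ = 1) {h k : Op K} (hh : Cen μ h) (hk : Cen μ k)
    (ph : Pc h) (pk : Pc k) (t : ℝ) {L : ℝ} (hL : 0 ≤ L) :
    ∃ (m : ℝ) (ι : ℕ → Type) (_ : ∀ N, Fintype (ι N)) (n : ∀ N, ι N → Op K) (c r : Op K),
      0 ≤ m ∧ (∀ N, Fam A t h k (n N)) ∧
      Tendsto (fun N => gain μ t L (n N)) atTop (𝓝 m) ∧
      (∀ (ι' : Type) [Fintype ι'] (n' : ι' → Op K), Fam A t h k n' → gain μ t L n' ≤ m) ∧
      Cen μ c ∧ Cen μ r ∧ Pc c ∧ Pc r ∧ Pc (h - c) ∧ Pc (k - r) ∧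
      (∀ η, Tendsto (fun N => colOp (n N) η) atTop (𝓝 (c η))) ∧
      ∀ η, Tendsto (fun N => rowOp t (n N) η) atTop (𝓝 (r η)) := by
  set S : Set ℝ := {g | ∃ (ι : Type) (_ : Fintype ι) (n : ι → Op K),
    Fam A t h k n ∧ gain μ t L n = g} with hS
  have hbd : BddAbove S := ⟨1, by
    rintro g ⟨ι, _, n, hn, rfl⟩
    exact ie1_gain_le μ hξ hL ph hn⟩
  have h0 : (0 : ℝ) ∈ S := ⟨Empty, inferInstance, Empty.elim,
    ⟨fun i => i.elim, fun η => by simpa using (ph.2 η).1, fun η => by simpa using (pk.2 η).1⟩,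
    by simp [gain, colOp, rowOp]⟩
  obtain ⟨u, -, hu, huS⟩ := exists_seq_tendsto_sSup ⟨0, h0⟩ hbd
  choose ι hι n hn hg using huS
  have hmax : ∀ (ι' : Type) [Fintype ι'] (n' : ι' → Op K), Fam A t h k n' →
      gain μ t L n' ≤ sSup S := fun ι' _ n' hn' => le_csSup hbd ⟨ι', _, n', hn', rfl⟩
  have he : Tendsto (fun N => 200 * (sSup S - u N)) atTop (𝓝 0) := by
    simpa using (hu.const_sub (sSup S)).const_mul 200
  have he2 : Tendsto (fun N => 400 * (sSup S - u N)) atTop (𝓝 0) := by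
    simpa using (hu.const_sub (sSup S)).const_mul 400
  have k1 : ∀ N M, ‖colOp (n N) ξ - colOp (n M) ξ‖ ^ 2 + ‖rowOp t (n N) ξ - rowOp t (n M) ξ‖ ^ 2
      ≤ 200 * (sSup S - u N) + 200 * (sSup S - u M) := fun N M => by
    have := hmax _ _ (ie1_mid_fam (hn N) (hn M))
    rw [ie1_mid_gain, hg, hg] at this
    linarith
  have k2 : ∀ s N, ‖colOp (n N) ξ - μ.σ s (colOp (n N)) ξ‖ ^ 2 +
      ‖rowOp t (n N) ξ - μ.σ s (rowOp t (n N)) ξ‖ ^ 2 ≤ 400 * (sSup S - u N) := fun s N => by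
    have := hmax _ _ (ie1_mid_fam (hn N) (ie1_σ_fam μ s hh hk (hn N)))
    rw [ie1_mid_gain, ie1_σ_gain, hg, ie1_σ_col, ie1_σ_row] at this
    linarith
  obtain ⟨c, hc, tc⟩ := ie1_lim μ (fun N => ie1_col_mem (hn N).mem)
    (fun N => ie1_pc_norm (ie1_pc_col ph (hn N)).1)
    (ie1_cauchy he fun N M => le_trans (le_add_of_nonneg_right (by positivity)) (k1 N M))
  obtain ⟨r, hr, tr⟩ := ie1_lim μ (fun N => ie1_row_mem t (hn N).mem)
    (fun N => ie1_pc_norm (ie1_pc_row pk (hn N)).1)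
    (ie1_cauchy he fun N M => le_trans (le_add_of_nonneg_left (by positivity)) (k1 N M))
  refine ⟨sSup S, ι, hι, n, c, r, le_csSup hbd h0, hn, by simpa only [hg] using hu, hmax,
    ie1_fix μ hc tc he2 fun s N => le_trans (le_add_of_nonneg_right (by positivity)) (k2 s N),
    ie1_fix μ hr tr he2 fun s N => le_trans (le_add_of_nonneg_left (by positivity)) (k2 s N),
    ie1_pc_lim (fun N => (ie1_pc_col ph (hn N)).1) tc,
    ie1_pc_lim (fun N => (ie1_pc_row pk (hn N)).1) tr,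
    ie1_pc_lim (fun N => (ie1_pc_col ph (hn N)).2) fun η => tendsto_const_nhds.sub (tc η),
    ie1_pc_lim (fun N => (ie1_pc_row pk (hn N)).2) fun η => tendsto_const_nhds.sub (tr η), tc, tr⟩

end Vale.Agent.P132
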