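import Vale.Agent.P132.IE1

/-! Families of almost full mass. -/

set_option linter.unusedSectionVars false

namespace Vale.Agent.P132

open Filter Topology MeasureTheory Vale.Agent.P096 Vale.Agent.P096b
open scoped InnerProductSpace ComplexConjugate

universe u

variable {H : Type u} [NormedAddCommGroup H] [InnerProductSpace ℂ H] [CompleteSpace H]
  {K : Type u} [NormedAddCommGroup K] [InnerProductSpace ℂ K] [CompleteSpace K]

variable {A B : Alg K} {ξ : K}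

theorem ie2_app {a : ℕ → Op K} {x : Op K} {C : ℝ} (hb : ∀ N, ‖a N‖ ≤ C)
    (ha : ∀ η, Tendsto (fun N => a N η) atTop (𝓝 (x η))) {v : ℕ → K} {w : K}
    (hv : Tendsto v atTop (𝓝 w)) : Tendsto (fun N => a N (v N)) atTop (𝓝 (x w)) := by
  have h1 : Tendsto (fun N => a N (v N - w)) atTop (𝓝 0) := by
    rw [tendsto_zero_iff_norm_tendsto_zero]
    have h2 := (tendsto_iff_norm_sub_tendsto_zero.1 hv).const_mul C
    rw [mul_zero] at h2
    exact squeeze_zero (fun _ => norm_nonneg _) (fun N => (a N).le_of_opNorm_le (hb N) _) h2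
  have h3 := h1.add (ha w)
  rw [zero_add] at h3
  refine h3.congr fun N => ?_
  rw [map_sub, sub_add_cancel]

theorem ie2_three {a b : ℕ → Op K} {p q : Op K} (x : Op K) (ha : ∀ N, ‖a N‖ ≤ 1)
    (hb : ∀ N, ‖b N‖ ≤ 1) (ta : ∀ η, Tendsto (fun N => a N η) atTop (𝓝 (p η)))
    (tb : ∀ η, Tendsto (fun N => b N η) atTop (𝓝 (q η))) :
    (∀ N, ‖a N * x * b N‖ ≤ ‖x‖) ∧
      ∀ η, Tendsto (fun N => (a N * x * b N) η) atTop (𝓝 ((p * x * q) η)) :=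
  ⟨fun N => tl_norm3 (ha N) (hb N), fun η =>
    ie2_app ha ta ((x.continuous.tendsto _).comp (tb η))⟩

theorem ie2_sub (μ : Mod A B ξ) {x y : Op K} (hx : Cen μ x) (hy : Cen μ y) : Cen μ (x - y) :=
  ⟨sub_mem hx.1 hy.1, fun t => by rw [mul_sub, sub_mul, hx.2, hy.2]⟩

theorem ie2_row (μ : Mod A B ξ) (t : ℝ) (y : Op K) :
    Real.exp (-t) * ‖star y ξ‖ ^ 2 = ‖y ξ - dfc μ t y‖ ^ 2 := by
  rw [dfc, sub_sub_cancel, norm_smul, μ.J.norm_map, mul_pow, Complex.norm_real, Real.norm_eq_abs,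
    sq_abs, sq (Real.exp _), ← Real.exp_add, add_halves]

theorem ie2_sq (a b : K) {η : ℝ} (hη : 0 < η) :
    ‖a - b‖ ^ 2 ≤ (1 + η) * ‖a‖ ^ 2 + (1 + 1 / η) * ‖b‖ ^ 2 := by
  have h1 := pow_le_pow_left₀ (norm_nonneg _) (norm_sub_le a b) 2
  have h2 : 0 ≤ (η * ‖a‖ - ‖b‖) ^ 2 / η := by positivity
  have h3 : (η * ‖a‖ - ‖b‖) ^ 2 / η = η * ‖a‖ ^ 2 - 2 * ‖a‖ * ‖b‖ + 1 / η * ‖b‖ ^ 2 := by
    field_simp
    ring
  nlinarith

theorem ie2_small {E D a b : ℝ} (hE : 0 < E)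
    (h : ∀ θ : ℝ, θ ^ 2 * a ≤ 1 → θ ^ 2 * b ≤ 1 → θ ^ 2 * E - θ ^ 4 * D ≤ 0) : False := by
  have c1 : Continuous fun θ : ℝ => θ ^ 2 * a := by fun_prop
  have c2 : Continuous fun θ : ℝ => θ ^ 2 * b := by fun_prop
  have c3 : Continuous fun θ : ℝ => θ ^ 2 * D := by fun_prop
  have e1 := (c1.tendsto 0).eventually (gt_mem_nhds (show (0 : ℝ) ^ 2 * a < 1 by simp))
  have e2 := (c2.tendsto 0).eventually (gt_mem_nhds (show (0 : ℝ) ^ 2 * b < 1 by simp))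
  have e3 := (c3.tendsto 0).eventually (gt_mem_nhds (show (0 : ℝ) ^ 2 * D < E by simpa using hE))
  obtain ⟨θ, ⟨⟨h1, h2⟩, h3⟩, h4⟩ := ((((e1.and e2).and e3).filter_mono
    (nhdsWithin_le_nhds (s := Set.Ioi (0 : ℝ)))).and self_mem_nhdsWithin).exists
  have h5 := h θ h1.le h2.le
  have h6 : 0 < θ ^ 2 := pow_pos h4 2
  have h7 := mul_lt_mul_of_pos_left h3 h6
  nlinarith

theorem ie2_full (μ : Mod A B ξ) (hΓ : Gam μ) {h k : Op K} (hh : Cen μ h) (hk : Cen μ k)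
    (ph : Pc h) (pk : Pc k) {t L : ℝ} (hL : 0 ≤ L) {m : ℝ} {ι : ℕ → Type} [∀ N, Fintype (ι N)]
    {n : ∀ N, ι N → Op K} {c r : Op K} (hn : ∀ N, Fam A t h k (n N))
    (hg : Tendsto (fun N => gain μ t L (n N)) atTop (𝓝 m))
    (hm : ∀ (ι' : Type) [Fintype ι'] (n' : ι' → Op K), Fam A t h k n' → gain μ t L n' ≤ m)
    (cc : Cen μ c) (cr : Cen μ r) (pc : Pc c) (pr : Pc r) (pc' : Pc (h - c)) (pr' : Pc (k - r))
    (tc : ∀ η, Tendsto (fun N => colOp (n N) η) atTop (𝓝 (c η)))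
    (tr : ∀ η, Tendsto (fun N => rowOp t (n N) η) atTop (𝓝 (r η))) : h - c = 0 ∨ k - r = 0 := by
  by_contra hne
  rw [not_or] at hne
  have hρ : 0 < 1 / (10 * (L + 1)) := by positivity
  obtain ⟨x, hx, y0, hd⟩ := hΓ (k - r) (h - c) (ie2_sub μ hk cr) (ie2_sub μ hh cc) pr' pc' hne.2
    hne.1 t _ hρ
  have ta : ∀ η, Tendsto (fun N => (k - rowOp t (n N)) η) atTop (𝓝 ((k - r) η)) := fun η =>
    tendsto_const_nhds.sub (tr η)
  have tb : ∀ η, Tendsto (fun N => (h - colOp (n N)) η) atTop (𝓝 ((h - c) η)) := fun η =>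
    tendsto_const_nhds.sub (tc η)
  have na : ∀ N, ‖k - rowOp t (n N)‖ ≤ 1 := fun N => ie1_pc_norm (ie1_pc_row pk (hn N)).2
  have nb : ∀ N, ‖h - colOp (n N)‖ ≤ 1 := fun N => ie1_pc_norm (ie1_pc_col ph (hn N)).2
  obtain ⟨n1, t1⟩ := ie2_three x na nb ta tb
  obtain ⟨n2, t2⟩ := ie2_three (star x) nb na tb ta
  have s1 : ∀ N, (h - colOp (n N)) * star x * (k - rowOp t (n N)) =
      star ((k - rowOp t (n N)) * x * (h - colOp (n N))) := fun N => by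
    rw [star_mul, star_mul, (ie1_pc_row pk (hn N)).2.1, (ie1_pc_col ph (hn N)).2.1, mul_assoc]
  have s2 : (h - c) * star x * (k - r) = star ((k - r) * x * (h - c)) := by
    rw [star_mul, star_mul, pr'.1, pc'.1, mul_assoc]
  simp only [s1, s2] at n2 t2
  have hyA : (k - r) * x * (h - c) ∈ A :=
    mul_mem (mul_mem (sub_mem hk.1 cr.1) hx) (sub_mem hh.1 cc.1)
  set y := (k - r) * x * (h - c) with hy
  set Y : ℕ → Op K := fun N => (k - rowOp t (n N)) * x * (h - colOp (n N)) with hY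
  have t3 : Tendsto (fun N => (star (Y N) * Y N) ξ) atTop (𝓝 ((star y * y) ξ)) :=
    ie2_app n2 t2 (t1 ξ)
  have t4 : Tendsto (fun N => (Y N * star (Y N)) ξ) atTop (𝓝 ((y * star y) ξ)) :=
    ie2_app n1 t1 (t2 ξ)
  have t5 : Tendsto (fun N => dfc μ t (Y N)) atTop (𝓝 (dfc μ t y)) :=
    (t1 ξ).sub (((μ.J.continuous.tendsto _).comp (t2 ξ)).const_smul _)
  have t6 := (Complex.continuous_re.tendsto _).comp ((tc ξ).inner (𝕜 := ℂ) t3)
  have t7 := (Complex.continuous_re.tendsto _).comp ((tr ξ).inner (𝕜 := ℂ) t4)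
  have b1 := cen_le μ cc pc hyA
  have b2 := cen_le μ cr pr (star_mem hyA)
  rw [star_star] at b2
  have b3 := ie2_row μ t y
  have b4 := ie2_sq (y ξ) (dfc μ t y) one_pos
  have b5 : 0 < ‖y ξ‖ ^ 2 := pow_pos (norm_pos_iff.2 fun e => y0 (μ.sepA hyA e)) 2
  have b6 := mul_le_mul_of_nonneg_left b2 (Real.exp_pos (-t)).le
  have b7 : (L + 1) * ‖dfc μ t y‖ ^ 2 ≤ ‖y ξ‖ ^ 2 / 10 := by
    refine (mul_le_mul_of_nonneg_left hd (by positivity)).trans (le_of_eq ?_)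
    field_simp
  have b8 : 0 ≤ L * ‖dfc μ t y‖ ^ 2 := by positivity
  refine ie2_small (E := ‖y ξ‖ ^ 2 - L * ‖dfc μ t y‖ ^ 2 -
    ((⟪c ξ, (star y * y) ξ⟫_ℂ).re + Real.exp (-t) * (⟪r ξ, (y * star y) ξ⟫_ℂ).re) / 50)
    (D := (‖(star y * y) ξ‖ ^ 2 + Real.exp (-t) ^ 2 * ‖(y * star y) ξ‖ ^ 2) / 100)
    (a := ‖x‖ ^ 2) (b := Real.exp (-t) * ‖x‖ ^ 2) (by nlinarith [sq_nonneg ‖dfc μ t y‖])
    fun θ h1 h2 => ?_
  have k1 : ∀ N, gain μ t L (fun i : Option (ι N) => i.elim ((θ : ℂ) • Y N) (n N)) ≤ m :=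
    fun N => hm _ _ (Fam.extend hh.1 hk.1 ph pk (hn N) hx h1 (by rwa [mul_assoc]))
  simp only [gain_extend] at k1
  have k2 := le_of_tendsto' ((hg.add ((((((t1 ξ).norm.pow 2).sub
    ((t5.norm.pow 2).const_mul L)).sub ((t6.add (t7.const_mul (Real.exp (-t)))).div_const
      50))).const_mul (θ ^ 2))).sub ((((t3.norm.pow 2).add ((t4.norm.pow 2).const_mul
        (Real.exp (-t) ^ 2))).const_mul (θ ^ 4)).div_const 100)) k1
  linarith

/-- Proof. Take `L := 4/ε²`-like large and `max_seq`. If `h - c ≠ 0` and `k - r ≠ 0`, `Gam` with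
`q := k - r`, `l := h - c`, `ρ := 1/(10 (L + 1))` gives `x`, `y := q x l`; for
`y N := (k - r N) x (h - c N)` the vectors `y N ξ`, `(y N)* ξ`, `(y N)* y N ξ`, `y N (y N)* ξ`
converge to those of `y` (bounded strong convergence), so `gain_extend`, `Fam.extend` give in the
limit `m + θ² (‖y ξ‖² (1 - L ρ) - (‖y ξ‖² + exp (-t) ‖y* ξ‖²)/50) - θ⁴ D ≤ m` with
`exp (-t) ‖y* ξ‖² ≤ 2 ‖y ξ‖² + 2 ‖dfc y‖²`; false for small `θ`. So `c = h` or `r = k`. For large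
`N` the gain is `≥ -1`, so `L * defect ≤ 2`; the mass is `⟪ξ, c N ξ⟫`, and
`⟪ξ, r N ξ⟫ = ∑ ‖n ξ - dfc n‖² ≤ mass + 2 √defect + defect`. -/
theorem erel (μ : Mod A B ξ) (hξ : ‖ξ‖ = 1) (hΓ : Gam μ) : ERel μ := by
  intro h k hh hk ph pk t ε hε
  have hL : 0 < 8 * (1 + 4 / ε) / ε := by positivity
  obtain ⟨m, ι, _, n, c, r, m0, hn, hg, hm, cc, cr, pc, pr, pc', pr', tc, tr⟩ :=
    max_seq μ hξ hh hk ph pk t hL.le
  have e1 : ∀ᶠ N in atTop, -1 < gain μ t (8 * (1 + 4 / ε) / ε) (n N) :=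
    hg.eventually (lt_mem_nhds (by linarith))
  have mass : ∀ N, ∑ i, ‖n N i ξ‖ ^ 2 ≤ 1 := fun N => by
    have := ((hn N).col ξ).trans (ph.2 ξ).2
    rwa [hξ, one_pow] at this
  have e2 : ∀ᶠ N in atTop, (1 + 4 / ε) * ∑ i, ‖dfc μ t (n N i)‖ ^ 2 ≤ ε / 4 := by
    filter_upwards [e1] with N hN
    have h1 := mass N
    have h3 : 0 ≤ (‖colOp (n N) ξ‖ ^ 2 + ‖rowOp t (n N) ξ‖ ^ 2) / 100 := by positivity
    unfold gain at hN
    have h4 : 8 * (1 + 4 / ε) / ε * ∑ i, ‖dfc μ t (n N i)‖ ^ 2 ≤ 2 := by linarith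
    have h5 := mul_le_mul_of_nonneg_left h4 (show 0 ≤ ε / 8 by positivity)
    have h6 : ε / 8 * (8 * (1 + 4 / ε) / ε * ∑ i, ‖dfc μ t (n N i)‖ ^ 2) =
        (1 + 4 / ε) * ∑ i, ‖dfc μ t (n N i)‖ ^ 2 := by field_simp
    linarith
  have e3 : ∀ N, (1 + 4 / ε) * ∑ i, ‖dfc μ t (n N i)‖ ^ 2 ≤ ε / 4 →
      ∑ i, ‖dfc μ t (n N i)‖ ^ 2 ≤ ε := fun N hN => by
    have h1 : 0 ≤ ∑ i, ‖dfc μ t (n N i)‖ ^ 2 := by positivity
    have h2 : 0 ≤ 4 / ε * ∑ i, ‖dfc μ t (n N i)‖ ^ 2 := by positivity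
    linarith
  rcases ie2_full μ hΓ hh hk ph pk hL.le hn hg hm cc cr pc pr pc' pr' tc tr with e | e
  · rw [sub_eq_zero] at e
    subst e
    have t1 := (Complex.continuous_re.tendsto _).comp
      ((tendsto_const_nhds (x := ξ)).inner (𝕜 := ℂ) (tc ξ))
    obtain ⟨N, h1, h2⟩ := (e2.and (t1.eventually
      (lt_mem_nhds (show (⟪ξ, h ξ⟫_ℂ).re - ε < (⟪ξ, h ξ⟫_ℂ).re by linarith)))).exists
    refine ⟨ι N, _, n N, hn N, e3 N h1, ?_⟩
    rw [Function.comp_apply, col_inner] at h2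
    have := min_le_left (⟪ξ, h ξ⟫_ℂ).re (⟪ξ, k ξ⟫_ℂ).re
    linarith
  · rw [sub_eq_zero] at e
    subst e
    have t1 := (Complex.continuous_re.tendsto _).comp
      ((tendsto_const_nhds (x := ξ)).inner (𝕜 := ℂ) (tr ξ))
    obtain ⟨N, h1, h2⟩ := (e2.and (t1.eventually
      (lt_mem_nhds (show (⟪ξ, k ξ⟫_ℂ).re - ε / 2 < (⟪ξ, k ξ⟫_ℂ).re by linarith)))).exists
    refine ⟨ι N, _, n N, hn N, e3 N h1, ?_⟩
    rw [Function.comp_apply, row_inner, Finset.mul_sum] at h2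
    simp only [ie2_row μ] at h2
    have h3 := Finset.sum_le_sum fun i (_ : i ∈ Finset.univ) =>
      ie2_sq (n N i ξ) (dfc μ t (n N i)) (show 0 < ε / 4 by positivity)
    rw [Finset.sum_add_distrib, ← Finset.mul_sum, ← Finset.mul_sum, one_div_div] at h3
    have := min_le_right (⟪ξ, h ξ⟫_ℂ).re (⟪ξ, k ξ⟫_ℂ).re
    have h4 := mul_le_mul_of_nonneg_left (mass N) (show 0 ≤ ε / 4 by positivity)
    linarith

end Vale.Agent.P132
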