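import Vale.Agent.P132.IDefs
import Vale.Agent.P096b.Ind

/-! Restriction to a cyclic subspace. -/

set_option linter.unusedSectionVars false

namespace Vale.Agent.P132

open Filter Topology MeasureTheory Vale.Agent.P096 Vale.Agent.P096b
open scoped InnerProductSpace ComplexConjugate

universe u

variable {H : Type u} [NormedAddCommGroup H] [InnerProductSpace ℂ H] [CompleteSpace H]
  {K : Type u} [NormedAddCommGroup K] [InnerProductSpace ℂ K] [CompleteSpace K]

/-- Restriction to the cyclic subspace of a separating vector.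
Proof: `E :=` closure of `N ω` (closed submodule, invariant under `N`; `p` the projection on it
lies in `N'`), `K := E`, `j := E.subtypeₗᵢ`, `π := sepPi E` (file `P096b/Sep`),
`A :=` image of `N`, `B := cm (π '' N)`. `ω` is cyclic for `N'` (`cyc_of_sep`), and `sepPi E y ∈ B`
for `y ∈ N'` (`sepPi_mem`), so `Ω` is cyclic for `B`. If `T` commutes with `B`, then for
`y ∈ N'`, with `l` the square root (`exists_sqrt'`) of `sepPi E (y* y) ∈ B`,
`‖y (j (T Ω))‖ = ‖l (T Ω)‖ = ‖T (l Ω)‖ ≤ ‖T‖ ‖y ω‖`; so `y ω ↦ y (j (T Ω))` extends to a bounded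
operator `x` commuting with `N'`, `x ∈ N`, `π x Ω = T Ω`, and `T = π x` since both commute with
`B` and `Ω` is cyclic for `B` (`Cyc.ext_op`). -/
theorem reduce {N N' : Alg H} (h : CP N N') {ω : H} (hs : ∀ x ∈ N, x ω = 0 → x = 0) :
    ∃ (K : Type u) (_ : NormedAddCommGroup K) (_ : InnerProductSpace ℂ K) (_ : CompleteSpace K)
      (j : K →ₗᵢ[ℂ] H) (π : Op H → Op K) (A B : Alg K) (Ω : K),
      j Ω = ω ∧ (∀ x ∈ N, ∀ η, j (π x η) = x (j η)) ∧ (∀ a, a ∈ A ↔ ∃ x ∈ N, π x = a) ∧
      CP A B ∧ Cyc A Ω ∧ Cyc B Ω := by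
  let S : Submodule ℂ H :=
    { carrier := {v | ∃ x ∈ N, x ω = v}
      add_mem' := by
        rintro _ _ ⟨x, hx, rfl⟩ ⟨y, hy, rfl⟩
        exact ⟨x + y, add_mem hx hy, rfl⟩
      zero_mem' := ⟨0, zero_mem N, rfl⟩
      smul_mem' := by
        rintro c _ ⟨x, hx, rfl⟩
        exact ⟨c • x, N.smul_mem hx c, rfl⟩ }
  let E : Submodule ℂ H := S.topologicalClosure
  have : CompleteSpace E := S.isClosed_topologicalClosure.completeSpace_coe
  have hE : ∀ x ∈ N, ∀ η ∈ E, x η ∈ E := fun x hx η hη => by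
    refine map_mem_closure x.continuous hη ?_
    rintro _ ⟨y, hy, rfl⟩
    exact ⟨x * y, mul_mem hx hy, rfl⟩
  have hω : ω ∈ E := S.le_topologicalClosure ⟨1, one_mem N, rfl⟩
  have hc := cyc_of_sep h hs
  have hp : IsStarProjection (sepUp E 1) := isStarProjection_starProjection (U := E)
  have hpN : sepUp E 1 ∈ N' := (h.right _).2 fun x hx =>
    sepUp_comm (hE x hx) (hE _ (star_mem hx)) (by rw [one_mul, mul_one])
  have hfix : ∀ η, sepUp E 1 η = η ↔ η ∈ E := fun η => Submodule.starProjection_eq_self_iff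
  refine ⟨E, inferInstance, inferInstance, inferInstance, E.subtypeₗᵢ, sepPi E,
    cm (cm (sepPi E '' N) : Set (Op E)), cm (sepPi E '' N), ⟨ω, hω⟩, rfl,
    fun x hx η => sepPi_coe (hE x hx) η, fun T => ⟨fun hT => ?_, ?_⟩, (cp_cm _).symm,
    fun η ε hε => ?_, fun η ε hε => ?_⟩
  · have inv : ∀ d : Op H, d * sepUp E 1 = sepUp E 1 * d → ∀ η ∈ E, d η ∈ E := fun d hd η hη => by
      rw [← hfix, ← mul_apply_eq_comp, ← hd, mul_apply_eq_comp, (hfix η).2 hη]
    obtain ⟨n, hn, -, h2⟩ := ind_back h hc hp hpN ((hfix ω).2 hω) (T := sepUp E T)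
      (ContinuousLinearMap.ext fun η => by
        simp only [mul_apply_eq_comp, sepUp_apply, one_apply_eq_self,
          Submodule.orthogonalProjectionOnto_mem_subspace_eq_self])
      fun d hd e => (sepUp_comm (inv d e) (inv _ (by
        have := congrArg star e
        rw [star_mul, star_mul, hp.isSelfAdjoint.star_eq] at this
        exact this.symm)) (mem_cm_alg.1 hT _ (sepPi_mem h.symm le_rfl hE hd))).symm
    refine ⟨n, hn, ContinuousLinearMap.ext fun a => ?_⟩
    have h3 : n (sepUp E 1 a) = sepUp E T a := congrArg (fun X : Op H => X a) h2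
    rw [(hfix a).2 a.2] at h3
    rw [sepPi_apply, h3, sepUp_apply, Submodule.orthogonalProjectionOnto_mem_subspace_eq_self,
      Submodule.orthogonalProjectionOnto_mem_subspace_eq_self]
  · rintro ⟨x, hx, rfl⟩
    exact sub_cm_cm ⟨x, hx, rfl⟩
  · obtain ⟨_, ⟨x, hx, rfl⟩, h1⟩ := Metric.mem_closure_iff.1 η.2 ε hε
    refine ⟨sepPi E x, sub_cm_cm ⟨x, hx, rfl⟩, ?_⟩
    rw [Submodule.coe_norm, Submodule.coe_sub, sepPi_coe (hE x hx), ← dist_eq_norm, dist_comm]
    exact h1
  · obtain ⟨y, hy, h1⟩ := hc η ε hε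
    refine ⟨sepPi E y, sepPi_mem h.symm le_rfl hE hy, lt_of_le_of_lt ?_ h1⟩
    have := E.norm_orthogonalProjectionOnto_apply_le (y ω - η)
    rwa [map_sub, Submodule.orthogonalProjectionOnto_mem_subspace_eq_self] at this

end Vale.Agent.P132
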