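import Vale.Agent.P132.IAmp
import Vale.Agent.P132.IRed

/-! The standard representation of a faithful normal state. -/

set_option linter.unusedSectionVars false

namespace Vale.Agent.P132

open Filter Topology MeasureTheory Vale.Agent.P096 Vale.Agent.P096b
open scoped InnerProductSpace ComplexConjugate

universe u

variable {H : Type u} [NormedAddCommGroup H] [InnerProductSpace ℂ H] [CompleteSpace H]
  {K : Type u} [NormedAddCommGroup K] [InnerProductSpace ℂ K] [CompleteSpace K]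

theorem istd_norm (f : lp (fun _ : ℕ => H) 2) : HasSum (fun n => ‖f n‖ ^ 2) (‖f‖ ^ 2) := by
  have h := lp.hasSum_norm (p := 2) (by norm_num) f
  simpa using h

/-- The standard representation. Combine `amp_cp` and `reduce` with `ω := ζ` as an element of
`lp 2`; all fields of `Rep` follow from `j (π x η) = ρ x (j η)` and injectivity of `j`. -/
theorem std_rep {M M' : Alg H} (h : CP M M') {ζ : ℕ → H} (hζ : SepSeq M ζ) :
    ∃ (K : Type u) (_ : NormedAddCommGroup K) (_ : InnerProductSpace ℂ K) (_ : CompleteSpace K)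
      (π : Op H → Op K) (A B : Alg K) (Ω : K), Rep M π A ∧ CP A B ∧ Cyc A Ω ∧ Cyc B Ω ∧
      ‖Ω‖ = 1 ∧ ∀ x ∈ M, HasSum (fun n => ⟪ζ n, x (ζ n)⟫_ℂ) ⟪Ω, π x Ω⟫_ℂ := by
  obtain ⟨ρ, N, N', hρ, hcp, hN⟩ := amp_cp h
  have hm : Memℓp ζ 2 := memℓp_gen (by simpa using hζ.1.summable)
  obtain ⟨ω, hω⟩ : ∃ ω : lp (fun _ : ℕ => H) 2, ∀ n, ω n = ζ n := ⟨⟨ζ, hm⟩, fun _ => rfl⟩
  have hz : ∀ x ∈ M, ρ x ω = 0 → x = 0 := by
    intro x hx h0
    refine hζ.2 x hx fun n => ?_
    rw [← hω, ← hρ, h0]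
    rfl
  have hs : ∀ X ∈ N, X ω = 0 → X = 0 := by
    intro X hX h0
    obtain ⟨x, hx, rfl⟩ := (hN X).1 hX
    rw [hz x hx h0, map_zero]
  obtain ⟨K, i1, i2, i3, j, π, A, B, Ω, hΩ, hj, hA, hAB, cA, cB⟩ := reduce hcp hs
  have hj' : ∀ x ∈ M, ∀ η, j (π (ρ x) η) = ρ x (j η) := fun x hx =>
    hj _ ((hN _).2 ⟨x, hx, rfl⟩)
  have hv : ∀ η : K, ∀ x ∈ M, HasSum (fun n => ⟪j η n, x (j η n)⟫_ℂ) ⟪η, π (ρ x) η⟫_ℂ := by
    intro η x hx
    have h1 := lp.hasSum_inner (𝕜 := ℂ) (j η) (ρ x (j η))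
    simp only [hρ] at h1
    rwa [← hj' x hx, j.inner_map_map] at h1
  refine ⟨K, i1, i2, i3, fun x => π (ρ x), A, B, Ω, ⟨?_, ?_, ?_, ?_, ?_, ?_, ?_, ?_, ?_⟩, hAB, cA,
    cB, ?_, ?_⟩
  · exact fun x hx => (hA _).2 ⟨_, (hN _).2 ⟨x, hx, rfl⟩, rfl⟩
  · intro a ha
    obtain ⟨X, hX, rfl⟩ := (hA a).1 ha
    obtain ⟨x, hx, rfl⟩ := (hN X).1 hX
    exact ⟨x, hx, rfl⟩
  · intro x hx y hy
    ext η
    apply j.injective
    rw [hj' _ (add_mem hx hy), ContinuousLinearMap.add_apply, map_add j, hj' x hx, hj' y hy,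
      map_add ρ, ContinuousLinearMap.add_apply]
  · intro c x hx
    ext η
    apply j.injective
    rw [hj' _ (M.smul_mem hx c), ContinuousLinearMap.smul_apply, map_smul j, hj' x hx,
      map_smul ρ, ContinuousLinearMap.smul_apply]
  · intro x hx y hy
    ext η
    apply j.injective
    rw [hj' _ (mul_mem hx hy), ContinuousLinearMap.mul_apply, hj' x hx, hj' y hy,
      map_mul ρ, ContinuousLinearMap.mul_apply]
  · intro x hx
    rw [ContinuousLinearMap.star_eq_adjoint (π (ρ x)), ContinuousLinearMap.eq_adjoint_iff]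
    intro η η'
    rw [← j.inner_map_map, ← j.inner_map_map η, hj' _ (star_mem hx), hj' x hx, map_star ρ,
      ContinuousLinearMap.star_eq_adjoint, ContinuousLinearMap.adjoint_inner_left]
  · ext η
    apply j.injective
    rw [hj' _ (one_mem M), map_one ρ]
    rfl
  · intro x hx h0
    refine hz x hx ?_
    rw [← hΩ, ← hj' x hx, h0]
    simp
  · intro η
    refine ⟨fun n => j η n, ?_, hv η⟩
    rw [← j.norm_map η]
    exact istd_norm (j η)
  · have h1 := istd_norm ω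
    simp only [hω] at h1
    have h2 := h1.unique hζ.1
    rw [← hΩ, j.norm_map] at h2
    exact (pow_eq_one_iff_of_nonneg (norm_nonneg Ω) two_ne_zero).1 h2
  · intro x hx
    have h1 := hv Ω x hx
    simp only [hΩ, hω] at h1
    exact h1

end Vale.Agent.P132
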