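import Vale.Agent.P132.ICover
import Vale.Agent.P132.IStd

/-! There are no finite projections. -/

set_option linter.unusedSectionVars false

namespace Vale.Agent.P132

open Filter Topology MeasureTheory Vale.Agent.P096 Vale.Agent.P096b
open scoped InnerProductSpace ComplexConjugate

universe u

variable {H : Type u} [NormedAddCommGroup H] [InnerProductSpace ℂ H] [CompleteSpace H]
  {K : Type u} [NormedAddCommGroup K] [InnerProductSpace ℂ K] [CompleteSpace K]

/-- Exact eigenvectors. From `gam`: `y Ω = cf γ`, `J y* Ω = sf γ`; testing against `core`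
gives `(sf² - exp s cf²) γ = 0`, and `calc_null` gives `F (g cf) γ = 0`. -/
theorem fin_eig {A : Alg K} {Ω : K} (ν : Pre A Ω) {y : Op K} (hy : y ∈ A) {s : ℝ}
    (h : ∀ z ∈ A, ⟪star z Ω, star y Ω⟫_ℂ = ((Real.exp s : ℝ) : ℂ) * ⟪y Ω, z Ω⟫_ℂ)
    {g : ℝ → ℂ} (hg : BC g) (h0 : g s = 0) : ν.F g (y Ω) = 0 := by
  obtain ⟨γ, h1, h2⟩ := ν.gam hy
  have h3 : ∀ γ' : K, ⟪ν.F sf γ, ν.F sf γ'⟫_ℂ =
      ((Real.exp s : ℝ) : ℂ) * ⟪ν.F cf γ, ν.F cf γ'⟫_ℂ := fun γ' => by
    choose z hz k1 k2 using fun n : ℕ =>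
      ν.core γ' (1 / ((n : ℝ) + 1)) Nat.one_div_pos_of_nat
    have t1 : Tendsto (fun n => z n Ω) atTop (𝓝 (ν.F cf γ')) := by
      rw [tendsto_iff_norm_sub_tendsto_zero]
      exact squeeze_zero (fun _ => norm_nonneg _) (fun n => (k1 n).le)
        tendsto_one_div_add_atTop_nhds_zero_nat
    have t2 : Tendsto (fun n => ν.J (star (z n) Ω)) atTop (𝓝 (ν.F sf γ')) := by
      rw [tendsto_iff_norm_sub_tendsto_zero]
      exact squeeze_zero (fun _ => norm_nonneg _) (fun n => (k2 n).le)
        tendsto_one_div_add_atTop_nhds_zero_nat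
    refine tendsto_nhds_unique (tendsto_const_nhds.inner t2)
      (((tendsto_const_nhds.inner t1).const_mul _).congr fun n => ?_)
    rw [← h1, ← h2, J_inner, h _ (hz n)]
  have b1 : BC fun κ => sf κ * sf κ - ((Real.exp s : ℝ) : ℂ) * (cf κ * cf κ) :=
    (bc_sf.mul bc_sf).sub ((bc_cf.mul bc_cf).cmul _)
  have h4 : ν.F (fun κ => sf κ * sf κ - ((Real.exp s : ℝ) : ℂ) * (cf κ * cf κ)) γ = 0 := by
    rw [ν.toCalc.sub (bc_sf.mul bc_sf) ((bc_cf.mul bc_cf).cmul _), ν.smul _ (bc_cf.mul bc_cf),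
      sub_apply, smul_apply,
      ← ν.toCalc.mul_apply bc_sf bc_sf, ← ν.toCalc.mul_apply bc_cf bc_cf, sub_eq_zero]
    refine ext_inner_right ℂ fun γ' => ?_
    rw [inner_smul_left, Complex.conj_ofReal, ν.sf_inner (ν.F sf γ), ν.cf_inner (ν.F cf γ), h3]
  rw [h1, ν.toCalc.mul_apply hg bc_cf]
  refine ν.toCalc.calc_null b1 h4 (hg.mul bc_cf) fun κ hκ => ?_
  have e1 : sf κ * sf κ = ((Real.exp κ : ℝ) : ℂ) * (cf κ * cf κ) := by
    have : Real.exp κ = Real.exp (κ / 2) * Real.exp (κ / 2) := by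
      rw [← Real.exp_add, add_halves]
    rw [sf_eq, this, Complex.ofReal_mul]
    ring
  rw [e1, ← sub_mul, mul_eq_zero, or_iff_left (mul_ne_zero (cf_ne κ) (cf_ne κ)), sub_eq_zero,
    Complex.ofReal_inj, Real.exp_eq_exp] at hκ
  rw [hκ, h0, zero_mul]

/-- Normal representations are strongly continuous on bounded sequences. -/
theorem ifin_strong {M : Alg H} {π : Op H → Op K} {A : Alg K} (h : Rep M π A) {a : ℕ → Op H}
    (ha : ∀ n, a n ∈ M) (h0 : ∀ η, Tendsto (fun n => a n η) atTop (𝓝 0)) (η : K) :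
    Tendsto (fun n => π (a n) η) atTop (𝓝 0) := by
  obtain ⟨C, hC⟩ := banach_steinhaus (g := a) fun η => by
    obtain ⟨C, hC⟩ := (h0 η).norm.bddAbove_range
    exact ⟨C, fun n => hC ⟨n, rfl⟩⟩
  obtain ⟨ζ, h1, h2⟩ := h.vec η
  have h3 : ∀ n, ‖π (a n) η‖ ^ 2 = ∑' j, ‖a n (ζ j)‖ ^ 2 := fun n => by
    have k := Complex.hasSum_re (h2 _ (mul_mem (star_mem (ha n)) (ha n)))
    rw [h.mul _ (star_mem (ha n)) _ (ha n), h.star _ (ha n), ← tl_norm_sq] at k
    simp only [← tl_norm_sq] at k
    exact k.tsum_eq.symm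
  have h4 := tendsto_tsum_of_dominated_convergence (𝓕 := atTop)
    (f := fun n j => ‖a n (ζ j)‖ ^ 2) (g := fun _ => (0 : ℝ))
    (bound := fun j => C ^ 2 * ‖ζ j‖ ^ 2) (h1.summable.mul_left _)
    (fun j => by simpa using (h0 (ζ j)).norm.pow 2)
    (Eventually.of_forall fun n j => by
      rw [Real.norm_of_nonneg (by positivity), ← mul_pow]
      exact pow_le_pow_left₀ (norm_nonneg _) (ContinuousLinearMap.le_of_opNorm_le _ (hC n) _) 2)
  simp only [← h3, tsum_zero] at h4
  rw [tendsto_zero_iff_norm_tendsto_zero]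
  simpa using h4.sqrt

theorem ifin_zero {M : Alg H} {π : Op H → Op K} {A : Alg K} (h : Rep M π A) : π 0 = 0 := by
  simpa using h.smul 0 0 (zero_mem M)

theorem ifin_sum {M : Alg H} {π : Op H → Op K} {A : Alg K} (h : Rep M π A) {p : ℕ → Op H}
    (hp : ∀ n, p n ∈ M) (N : ℕ) :
    π (∑ n ∈ Finset.range N, p n) = ∑ n ∈ Finset.range N, π (p n) := by
  induction N with
  | zero => simpa using ifin_zero h
  | succ N ih =>
    rw [Finset.sum_range_succ, Finset.sum_range_succ,
      h.add _ (sum_mem fun n _ => hp n) _ (hp N), ih]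

/-- An operator killing all the pieces of a vector kills the vector. -/
theorem ifin_kill {M : Alg H} {π : Op H → Op K} {A : Alg K} (h : Rep M π A) {p : ℕ → Op H}
    (hp : ∀ n, p n ∈ M) (hs : ∀ η, HasSum (fun n => p n η) η) {T : Op K} {η : K}
    (h0 : ∀ n, T (π (p n) η) = 0) : T η = 0 := by
  have m : ∀ N, ∑ n ∈ Finset.range N, p n ∈ M := fun N => sum_mem fun n _ => hp n
  have h1 := ifin_strong h (a := fun N => 1 + (-1 : ℂ) • ∑ n ∈ Finset.range N, p n)
    (fun N => add_mem (one_mem M) (M.smul_mem (m N) _)) (fun θ => by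
      have := (hs θ).tendsto_sum_nat.const_sub θ
      rw [sub_self] at this
      refine this.congr fun N => ?_
      simp [sub_eq_add_neg]) η
  have h2 := (T.continuous.tendsto _).comp h1
  rw [map_zero] at h2
  refine tendsto_nhds_unique tendsto_const_nhds (h2.congr fun N => ?_)
  simp only [Function.comp_apply]
  rw [h.add _ (one_mem M) _ (M.smul_mem (m N) _), h.smul _ _ (m N), h.one, ifin_sum h hp]
  simp [h0]

/-- Polarization of the trace property. -/
theorem ifin_trace {M : Alg H} {e : Op H} {ω : H}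
    (h : ∀ a, Cor M e a → ‖star a ω‖ = ‖a ω‖) {a b : Op H} (ha : Cor M e a) (hb : Cor M e b) :
    ⟪star a ω, star b ω⟫_ℂ = ⟪b ω, a ω⟫_ℂ := by
  have k : ∀ c : ℂ, ‖star a ω + conj c • star b ω‖ = ‖a ω + c • b ω‖ := fun c => by
    have := h (a + c • b) ⟨add_mem ha.mem (M.smul_mem hb.mem c),
      by rw [mul_add, mul_smul_comm, ha.left, hb.left],
      by rw [add_mul, smul_mul_assoc, ha.right, hb.right]⟩
    simpa using this
  have k' : ∀ c : ℂ, (conj c * ⟪star a ω, star b ω⟫_ℂ).re = (c * ⟪a ω, b ω⟫_ℂ).re := fun c => by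
    have h1 := norm_add_sq (𝕜 := ℂ) (star a ω) (conj c • star b ω)
    have h2 := norm_add_sq (𝕜 := ℂ) (a ω) (c • b ω)
    rw [k, h a ha, norm_smul, h b hb, RCLike.norm_conj, inner_smul_right] at h1
    rw [norm_smul, inner_smul_right] at h2
    simp only [RCLike.re_to_complex] at h1 h2
    linarith
  rw [← inner_conj_symm (b ω) (a ω)]
  refine Complex.ext ?_ ?_
  · have := k' 1
    rwa [map_one, one_mul, one_mul, ← Complex.conj_re ⟪a ω, b ω⟫_ℂ] at this
  · have := k' Complex.I
    simp only [Complex.conj_I, Complex.mul_re, Complex.neg_re, Complex.I_re, Complex.neg_im,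
      Complex.I_im] at this
    rw [Complex.conj_im]
    linarith

theorem ifin_norm {v : Op H} (h : v * star v * v = v) (η : H) : ‖star v η‖ ≤ ‖η‖ := by
  have h1 : IsStarProjection (v * star v) := isStarProjection_iff'.2
    ⟨by rw [← mul_assoc, h], by rw [star_mul, star_star]⟩
  have h2 : ‖star v‖ * ‖star v‖ ≤ 1 := by
    rw [← CStarRing.norm_star_mul_self, star_star]
    exact h1.norm_le
  have h3 : ‖star v‖ ≤ 1 := by nlinarith [norm_nonneg (star v)]
  simpa using ContinuousLinearMap.le_of_opNorm_le _ h3 η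

/-- No nonzero projection is finite. Otherwise `traceVec tools` gives `e`, `ω` with
`τ a := ⟪ω, a ω⟫` a faithful trace on the corner `e M e` (polarize `‖a* ω‖ = ‖a ω‖`). Take `v` from
`cover` for `e`, `p n := (v n)* v n`, `ζ' n := c 2^{-n} (v n)* ω` with `c > 0` normalizing; this is a
`SepSeq` (if `x (v n)* ω = 0` for all `n` then `v m x (v n)* = 0` for all `m, n`). In `std_rep` of
`ζ'` with `tomita`, `ψ x := ⟪Ω, π x Ω⟫ = c² ∑ 4^{-n} τ (v n x (v n)*)` satisfies
`ψ (z y*) = 4^{m-n} ψ (y* z)` for `y = p n x p m` and all `z ∈ M`. By `fin_eig`,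
`F g (π y Ω) = 0` for `g` vanishing on `(log 4) ℤ`. If `η = F g θ ≠ 0` then `η` is orthogonal to
(`F (conj g) η` kills) all `π (p n x p m) Ω`, and these span a dense subspace: `Rep.vec` and
dominated convergence give `π (∑_{n<N} p n) → 1` strongly. This contradicts `NoGap` at
`t = log 2`, `δ = log 2`. -/
theorem not_fin {M M' : Alg H} (h : CP M M') (hf : Fac M) {ζ : ℕ → H} (hζ : SepSeq M ζ)
    (hg : NoGap M) {q : Op H} (hq : IsStarProjection q) (hm : q ∈ M) (q0 : q ≠ 0) :
    ¬ Fin' M q := by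
  intro hfin
  obtain ⟨e, ω, he, eq, eω, n1, tr, fa⟩ := traceVec tools H M M' q h hq hm q0 hfin
  have e0 : e ≠ 0 := fun e0 => by
    rw [← eω, e0] at n1
    simp at n1
  obtain ⟨v, vM, ev, vv, vo, vs⟩ := cover h hf hζ he eq.mem e0
  have cor : ∀ m n, ∀ x ∈ M, Cor M e (v m * x * star (v n)) := fun m n x hx =>
    ⟨mul_mem (mul_mem (vM m) hx) (star_mem (vM n)), by rw [← mul_assoc, ← mul_assoc, ev],
      by rw [mul_assoc, tl_flip he (ev n)]⟩
  have sep : ∀ x ∈ M, (∀ n, x (star (v n) ω) = 0) → x = 0 := fun x hx h0 => by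
    have h1 : ∀ m n, v m * x * star (v n) = 0 := fun m n =>
      fa _ (cor m n x hx) (by simp [h0])
    ext η
    have h2 : ∀ m, v m (x η) = 0 := fun m => by
      have h3 := (vs η).mapL (v m * x)
      refine h3.unique ?_
      have h4 : ∀ n, (v m * x) (star (v n) (v n η)) = 0 := fun n =>
        congrArg (fun T : Op H => T (v n η)) (h1 m n)
      simp only [h4]
      exact hasSum_zero
    refine (vs (x η)).unique ?_
    simp only [h2, map_zero]
    exact hasSum_zero
  have sm : Summable fun n : ℕ => (1 / 4 : ℝ) ^ n * ‖star (v n) ω‖ ^ 2 := by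
    refine Summable.of_nonneg_of_le (fun n => by positivity) (fun n => ?_)
      (summable_geometric_of_lt_one (r := 1 / 4) (by norm_num) (by norm_num))
    refine mul_le_of_le_one_right (by positivity) (pow_le_one₀ (norm_nonneg _) ?_)
    exact (ifin_norm (vv n) ω).trans n1.le
  obtain ⟨S, hS⟩ := sm
  have S0 : 0 < S := by
    by_contra hn
    have h1 : S = 0 := le_antisymm (not_lt.1 hn) (hS.nonneg fun n => by positivity)
    rw [h1, hasSum_zero_iff_of_nonneg fun n => by positivity] at hS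
    have h2 := sep 1 (one_mem M) fun n => by simpa using congrFun hS n
    exact e0 (by rw [← mul_one e, h2, mul_zero])
  obtain ⟨c, hc⟩ : ∃ c : ℕ → ℝ, ∀ n, c n = √(S⁻¹ * (1 / 4) ^ n) := ⟨_, fun _ => rfl⟩
  have c0 : ∀ n, 0 < c n := fun n => by rw [hc]; positivity
  have c2 : ∀ n, c n * c n = S⁻¹ * (1 / 4) ^ n := fun n => by
    rw [hc, Real.mul_self_sqrt (by positivity)]
  have hζ' : SepSeq M fun n => (c n : ℂ) • star (v n) ω := by
    refine ⟨?_, fun x hx h0 => sep x hx fun n => ?_⟩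
    · have := hS.mul_left S⁻¹
      rw [inv_mul_cancel₀ S0.ne'] at this
      refine this.congr_fun fun n => ?_
      rw [norm_smul, Complex.norm_real, Real.norm_of_nonneg (c0 n).le, mul_pow, sq (c n), c2,
        mul_assoc]
    · have := h0 n
      rw [map_smul, smul_eq_zero] at this
      exact this.resolve_left (Complex.ofReal_ne_zero.2 (c0 n).ne')
  obtain ⟨K, _, _, _, π, A, B, Ω, hπ, hAB, cA, cB, nΩ, hψ⟩ := std_rep h hζ'
  obtain ⟨μ⟩ := tomita hAB cA cB
  have hψ' : ∀ x ∈ M, ∀ n, (∀ k, k ≠ n → v k * x * star (v k) = 0) → ⟪Ω, π x Ω⟫_ℂ =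
      ((S⁻¹ * (1 / 4) ^ n : ℝ) : ℂ) * ⟪ω, (v n * x * star (v n)) ω⟫_ℂ := fun x hx n h0 => by
    have h1 : ∀ k, ⟪(c k : ℂ) • star (v k) ω, x ((c k : ℂ) • star (v k) ω)⟫_ℂ =
        ((S⁻¹ * (1 / 4) ^ k : ℝ) : ℂ) * ⟪ω, (v k * x * star (v k)) ω⟫_ℂ := fun k => by
      rw [map_smul, inner_smul_left, inner_smul_right, Complex.conj_ofReal, tl_inner', ← c2,
        Complex.ofReal_mul, mul_assoc]
      rfl
    have h2 := hψ x hx
    simp only [h1] at h2
    refine h2.unique (hasSum_single n fun k hk => ?_)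
    simp [h0 k hk]
  have l2 : 0 < Real.log 2 := Real.log_pos one_lt_two
  obtain ⟨g, ⟨g1, g2⟩, g0⟩ := hg K π A Ω μ.toPre hπ nΩ cA (fun a ha => μ.sepA ha)
    (Real.log 2) (Real.log 2) l2
  have pM : ∀ n, star (v n) * v n ∈ M := fun n => mul_mem (star_mem (vM n)) (vM n)
  have vv' : ∀ n, star (v n) * v n * star (v n) = star (v n) := fun n => by
    simpa only [star_mul, star_star, ← mul_assoc] using congrArg star (vv n)
  have key : ∀ x ∈ M, ∀ n m : ℕ,
      μ.F g (π (star (v n) * v n * x * (star (v m) * v m)) Ω) = 0 := fun x hx n m => by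
    have yM := mul_mem (mul_mem (pM n) hx) (pM m)
    have ys : star (star (v n) * v n * x * (star (v m) * v m)) =
        star (v m) * v m * star x * (star (v n) * v n) := by
      simp only [star_mul, star_star, mul_assoc]
    refine fin_eig μ.toPre (hπ.mem _ yM) (s := ((m : ℝ) - n) * (2 * Real.log 2))
      (fun z hz => ?_) g1 (g2 _ ?_)
    · obtain ⟨z, zM, rfl⟩ := hπ.onto z hz
      have e1 := hψ' _ (mul_mem zM (star_mem yM)) n fun k hk => by
        rw [ys]
        simp only [mul_assoc, vo n k hk.symm, mul_zero]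
      have e2 := hψ' _ (mul_mem (star_mem yM) zM) m fun k hk => by
        rw [ys]
        simp only [← mul_assoc, vo k m hk, zero_mul]
      rw [hπ.mul _ zM _ (star_mem yM), hπ.star _ yM] at e1
      rw [hπ.mul _ (star_mem yM) _ zM, hπ.star _ yM] at e2
      have e3 := ifin_trace tr (cor n m z zM) (cor n m x hx)
      rw [tl_inner', tl_inner] at e3
      have e4 : v n * (z * star (star (v n) * v n * x * (star (v m) * v m))) * star (v n) =
          v n * z * star (v m) * star (v n * x * star (v m)) := by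
        rw [ys, mul_assoc (v n), mul_assoc z, mul_assoc _ (star (v n) * v n), vv']
        simp only [star_mul, star_star, mul_assoc]
      have e5 : v m * (star (star (v n) * v n * x * (star (v m) * v m)) * z) * star (v m) =
          star (v n * x * star (v m)) * (v n * z * star (v m)) := by
        rw [ys]
        simp only [star_mul, star_star, ← mul_assoc, vv]
      have e6 : S⁻¹ * (1 / 4 : ℝ) ^ n =
          Real.exp (((m : ℝ) - n) * (2 * Real.log 2)) * (S⁻¹ * (1 / 4) ^ m) := by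
        have : Real.exp (2 * Real.log 2) = 4 := by
          rw [two_mul, Real.exp_add, Real.exp_log two_pos]
          norm_num
        rw [sub_mul, Real.exp_sub, Real.exp_nat_mul, Real.exp_nat_mul, this]
        field_simp
        rw [← mul_pow, ← mul_pow]
        norm_num
      rw [e4, e6] at e1
      rw [e5] at e2
      rw [tl_inner', tl_inner (π _) Ω (π z Ω)]
      refine e1.trans ?_
      rw [Complex.ofReal_mul, mul_assoc]
      refine congrArg _ (Eq.trans ?_ e2.symm)
      exact congrArg _ e3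
    · rcases le_or_gt m n with hmn | hmn
      · have : (m : ℝ) ≤ n := Nat.cast_le.2 hmn
        exact le_abs.2 (Or.inr (by nlinarith))
      · have : (n : ℝ) + 1 ≤ m := by exact_mod_cast hmn
        exact le_abs.2 (Or.inl (by nlinarith))
  refine g0 (cA.ext_op fun a ha => ?_)
  obtain ⟨x, hx, rfl⟩ := hπ.onto a ha
  refine ifin_kill hπ pM vs (T := μ.F g * π x) fun m => ?_
  refine ifin_kill hπ pM vs (T := μ.F g) fun n => ?_
  have := key x hx n m
  rwa [hπ.mul _ (mul_mem (pM n) hx) _ (pM m), hπ.mul _ (pM n) _ hx] at this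

end Vale.Agent.P132
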