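import Vale.Agent.P132.IDefs

/-! Kernels and spectral supports. -/

set_option linter.unusedSectionVars false

namespace Vale.Agent.P132

open Filter Topology MeasureTheory Vale.Agent.P096 Vale.Agent.P096b
open scoped InnerProductSpace ComplexConjugate

universe u

variable {H : Type u} [NormedAddCommGroup H] [InnerProductSpace ℂ H] [CompleteSpace H]
  {K : Type u} [NormedAddCommGroup K] [InnerProductSpace ℂ K] [CompleteSpace K]

/-- Integrable kernels with compactly supported Fourier transform. Take a smooth bump `b`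
(`ContDiffBump`), view it as a Schwartz function and use Fourier inversion; recall
`ft k κ = ∫ k t * exp (I t κ)`. -/
theorem exists_ker (s δ : ℝ) (hδ : 0 < δ) : ∃ k : ℝ → ℂ, Integrable k ∧
    (∀ κ, δ ≤ |κ - s| → ft k κ = 0) ∧ ∀ κ, |κ - s| ≤ δ / 2 → ft k κ ≠ 0 := by
  have hp : 0 < 2 * Real.pi := by positivity
  let b : ContDiffBump (s / (2 * Real.pi)) :=
    ⟨δ / 2 / (2 * Real.pi), δ / (2 * Real.pi), by positivity,
      div_lt_div_of_pos_right (by linarith) hp⟩
  let B : SchwartzMap ℝ ℂ := (b.hasCompactSupport.comp_left Complex.ofReal_zero).toSchwartzMap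
    (Complex.ofRealCLM.contDiff.comp b.contDiff)
  have h1 : Integrable (FourierTransform.fourier (B : ℝ → ℂ)) :=
    (FourierTransform.fourier B).integrable
  have h2 : ∀ κ, ft (FourierTransform.fourier (B : ℝ → ℂ)) κ = (b (κ / (2 * Real.pi)) : ℝ) :=
    fun κ => by
      have h3 := B.integrable.fourierInv_fourier_eq h1 (v := κ / (2 * Real.pi))
        B.continuous.continuousAt
      rw [Real.fourierInv_eq'] at h3
      refine Eq.trans (integral_congr_ae (Eventually.of_forall fun t => ?_)) h3
      have e : 2 * Real.pi * ⟪t, κ / (2 * Real.pi)⟫_ℝ = t * κ := by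
        simp only [RCLike.inner_apply, conj_trivial]
        field_simp
      simp only [e, ex, smul_eq_mul]
      push_cast
      rw [mul_comm, mul_comm _ Complex.I, mul_assoc]
  have h4 : ∀ κ, dist (κ / (2 * Real.pi)) (s / (2 * Real.pi)) = |κ - s| / (2 * Real.pi) :=
    fun κ => by rw [Real.dist_eq, ← sub_div, abs_div, abs_of_pos hp]
  refine ⟨_, h1, fun κ h => ?_, fun κ h => ?_⟩
  · rw [h2, b.zero_of_le_dist (by rw [h4]; exact div_le_div_of_nonneg_right h hp.le),
      Complex.ofReal_zero]
  · rw [h2, b.one_of_mem_closedBall (by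
      rw [Metric.mem_closedBall, h4]; exact div_le_div_of_nonneg_right h hp.le)]
    simp

/-- A nonzero vector has a point in its spectral support (`meas'`,
`measure_null_of_locally_null`). -/
theorem exists_pt (Φ : Calc K) {η : K} (h : η ≠ 0) :
    ∃ s : ℝ, ∀ g, BC g → g s ≠ 0 → Φ.F g η ≠ 0 := by
  by_contra hc
  push Not at hc
  obtain ⟨μ, h1, -, h2⟩ := Φ.meas' η
  have h3 : μ Set.univ = 0 := measure_null_of_locally_null _ fun s _ => by
    obtain ⟨g, g1, g2, g3⟩ := hc s
    have h4 := h2 g g1
    rw [g3, norm_zero, zero_pow two_ne_zero, eq_comm, integral_eq_zero_iff_of_nonneg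
      (fun _ => by positivity) (calc_integrable_sq μ g1)] at h4
    refine ⟨{κ | g κ ≠ 0}, mem_nhdsWithin_of_mem_nhds (g1.1.continuousAt.eventually_ne g2), ?_⟩
    exact measure_mono_null (fun κ hκ => by simpa using hκ) h4
  have h5 := h2 _ (BC.const 1)
  rw [Φ.one, one_apply_eq_self, Measure.measure_univ_eq_zero.1 h3, integral_zero_measure] at h5
  exact h (norm_eq_zero.1 (pow_eq_zero_iff two_ne_zero |>.1 h5))

end Vale.Agent.P132
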