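import Vale.Agent.P132.IProd
import Vale.Agent.P132.ICover
import Vale.Agent.P132.IKer

/-! Almost eigenoperators. -/

set_option linter.unusedSectionVars false

namespace Vale.Agent.P132

open Filter Topology MeasureTheory Vale.Agent.P096 Vale.Agent.P096b
open scoped InnerProductSpace ComplexConjugate

universe u

variable {H : Type u} [NormedAddCommGroup H] [InnerProductSpace ℂ H] [CompleteSpace H]
  {K : Type u} [NormedAddCommGroup K] [InnerProductSpace ℂ K] [CompleteSpace K]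

theorem igam_filt (Φ : Calc K) {k : ℝ → ℂ} (hk : Integrable k) {q l : Op K}
    (hq : ∀ t, Φ.U t * q = q * Φ.U t) (hl : ∀ t, Φ.U t * l = l * Φ.U t) (x : Op K) :
    q * Φ.filt k x * l = Φ.filt k (q * x * l) := by
  ext η
  rw [mul_apply_eq_comp, mul_apply_eq_comp, Φ.filt_apply hk, Φ.filt_apply hk,
    ← q.integral_comp_comm (Φ.integrable_σ hk x _)]
  refine integral_congr_ae (ae_of_all _ fun t => ?_)
  dsimp only
  rw [map_smul, Φ.σ_mul, Φ.σ_mul, Φ.σ_fix (hq t), Φ.σ_fix (hl t)]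
  rfl

theorem igam_delta {ρ : ℝ} (hρ : 0 < ρ) :
    ∃ δ : ℝ, 0 < δ ∧ (Real.exp (30 * δ / 2) - 1) ^ 2 ≤ ρ := by
  have c : Continuous fun δ : ℝ => (Real.exp (30 * δ / 2) - 1) ^ 2 := by fun_prop
  have e := (c.tendsto 0).eventually (gt_mem_nhds
    (show (Real.exp (30 * 0 / 2) - 1) ^ 2 < ρ by simpa using hρ))
  obtain ⟨δ, h1, h2⟩ := ((e.filter_mono (nhdsWithin_le_nhds (s := Set.Ioi (0 : ℝ)))).and
    self_mem_nhdsWithin).exists
  exact ⟨δ, h2, h1.le⟩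

theorem igam_zero {X : Set K} (z : K →L[ℂ] K) (h : ∀ η ∈ X, z η = 0) {v : K}
    (hv : v ∈ closure (Submodule.span ℂ X : Set K)) : z v = 0 := by
  have h1 : (Submodule.span ℂ X : Set K) ⊆ {v | z v = 0} := fun v hv =>
    (Submodule.span_le (p := LinearMap.ker (z : K →ₗ[ℂ] K))).2 (fun η hη => h η hη) hv
  exact closure_minimal h1 (isClosed_eq z.continuous continuous_const) hv

theorem igam_orth {X : Set K} {u : K} (h : ∀ η ∈ X, ⟪u, η⟫_ℂ = 0) {v : K}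
    (hv : v ∈ closure (Submodule.span ℂ X : Set K)) : ⟪u, v⟫_ℂ = 0 := by
  have h1 : (Submodule.span ℂ X : Set K) ⊆ {v | ⟪u, v⟫_ℂ = 0} := fun v hv =>
    (Submodule.span_le (p := LinearMap.ker (innerSL ℂ u : K →ₗ[ℂ] ℂ))).2
      (fun η hη => h η hη) hv
  exact closure_minimal h1 (isClosed_eq (by fun_prop) continuous_const) hv

/-- The first factor: a band limited element with a partner. -/
theorem igam_w {A B : Alg K} {ξ : K} (μ : Mod A B ξ) (hf : Fac A) {q l : Op K} (hq : Cen μ q)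
    (hl : Cen μ l) (q0 : q ≠ 0) (l0 : l ≠ 0) : ∃ s₀ : ℝ, ∀ δ : ℝ, 0 < δ → ∃ y ∈ A,
      q * y * l ≠ 0 ∧ BL μ.toCalc s₀ δ ((q * y * l) ξ) ∧ ∃ w' ∈ B, (q * y * l) ξ = w' ξ := by
  obtain ⟨y₀, hy₀, h0⟩ := fac_prime μ.cp hf hq.1 hl.1 q0 l0
  have hA : q * y₀ * l ∈ A := mul_mem (mul_mem hq.1 hy₀) hl.1
  obtain ⟨s₀, hs⟩ := exists_pt μ.toCalc (η := (q * y₀ * l) ξ) fun e => h0 (μ.sepA hA e)
  refine ⟨s₀, fun δ hδ => ?_⟩
  obtain ⟨k, hk, k0, k1⟩ := exists_ker s₀ δ hδ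
  have hg := gk_int one_pos 0 0
  have m1 : ∀ x ∈ A, μ.filt k x ∈ A := fun x hx => μ.filt_mem μ.cp hk fun t => μ.uA t x hx
  have m2 : ∀ θ, ∀ x ∈ A, μ.filt (gk 1 0 θ) x ∈ A := fun θ x hx =>
    μ.filt_mem μ.cp (gk_int one_pos 0 θ) fun t => μ.uA t x hx
  have e : q * μ.filt (gk 1 0 0) (μ.filt k y₀) * l =
      μ.filt (gk 1 0 0) (μ.filt k (q * y₀ * l)) := by
    rw [igam_filt _ hg hq.2 hl.2, igam_filt _ hk hq.2 hl.2]
  have e1 : μ.filt (gk 1 0 0) (μ.filt k (q * y₀ * l)) ξ =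
      μ.F (gs 1 0 0) (μ.F (ft k) ((q * y₀ * l) ξ)) := by
    rw [μ.filt_ξ hg, μ.filt_ξ hk, ft_gk one_pos]
  refine ⟨μ.filt (gk 1 0 0) (μ.filt k y₀), m2 0 _ (m1 _ hy₀), fun h => ?_, ?_,
    jc μ.J (μ.filt (gk 1 0 (1 / 2)) (star (μ.filt k (q * y₀ * l)))),
    μ.jA _ (m2 _ _ (star_mem (m1 _ hA))), ?_⟩
  · refine hs _ ((gs_bc one_pos 0 0).mul (bc_ft hk)) (mul_ne_zero ?_ (k1 _ ?_)) ?_
    · exact Complex.ofReal_ne_zero.2 (Real.exp_pos _).ne'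
    · simpa using half_pos hδ |>.le
    · rw [← μ.mul_apply (gs_bc one_pos 0 0) (bc_ft hk), ← e1, ← e, h]
      rfl
  · rw [e, e1, ← mul_apply_eq_comp, μ.comm (gs_bc one_pos 0 0) (bc_ft hk), mul_apply_eq_comp]
    exact BL.of_near _ ⟨bc_ft hk, k0⟩ _
  · rw [e, jc_apply, μ.toPre.J_fix μ.cp, ← μ.partner one_pos (m1 _ hA), μ.JJ]

/-- The second factor: a band limited element of a corner. -/
theorem igam_z {A B : Alg K} {ξ : K} (μ : Mod A B ξ) (hn : NoGapC μ) {e : Op K} (he : Cen μ e)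
    (pe : IsStarProjection e) (e0 : e ≠ 0) (a : ℝ) {δ : ℝ} (hδ : 0 < δ) :
    ∃ z ∈ A, z ≠ 0 ∧ e * z * e = z ∧ BL μ.toCalc a δ (z ξ) := by
  obtain ⟨g, hg, x, hx, h0⟩ := hn e he pe e0 a (δ / 2) (half_pos hδ)
  obtain ⟨k, hk, k0, k1⟩ := exists_ker a δ hδ
  have hA : e * x * e ∈ A := mul_mem (mul_mem he.1 hx) he.1
  refine ⟨μ.filt k (e * x * e), μ.filt_mem μ.cp hk fun t => μ.uA t _ hA, fun h => h0 ?_, ?_, ?_⟩
  · refine μ.calc_null (bc_ft hk) ?_ hg.1 fun κ hκ => hg.2 κ ?_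
    · rw [← μ.filt_ξ hk, h]
      rfl
    · by_contra h1
      exact k1 κ (not_le.1 h1).le hκ
  · rw [igam_filt _ hk he.2 he.2]
    congr 1
    rw [← mul_assoc, ← mul_assoc, pe.isIdempotentElem.eq, mul_assoc _ e e, pe.isIdempotentElem.eq]
  · rw [μ.filt_ξ hk]
    exact BL.of_near _ ⟨bc_ft hk, k0⟩ _

/-- Proof. `fac_prime` gives `y₀ ∈ A` with `q y₀ l ≠ 0`; `s₀` from `exists_pt` for `(q y₀ l) ξ`;
`k` from `exists_ker s₀ δ`; `y := filt (gk 1 0 0) (filt k y₀)`, `w := q y l ≠ 0`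
(`w ξ = F (gs 1 0 0) (F (ft k) (q y₀ l ξ))`, as `q` and `jc J l` commute with the calculus and
`l ξ = jc J l ξ`). `w = filt (gk 1 0 0) (q (filt k y₀) l)` has a partner in `B` (`Mod.partner`).
Let `e` be the projection on the closed span of the ranges of all `σ s w` (`tl_supp`); it is in the
centralizer, nonzero, and `q` is injective on its range. `NoGapC` at `t - s₀`, `δ/2` gives `g`,
`x₀`; with `k'` from `exists_ker (t - s₀) δ`, `z := filt k' (e x₀ e) = e z e ≠ 0` (`calc_null`).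
So `z * σ s w ≠ 0` for some `s`, and `q * (z * q * σ s y) * l = q * (z * σ s w) ≠ 0`.
`bl_prod`, `BL.map`, `BL.dfc_le` finish, for `δ` with `(exp (15 δ) - 1)² ≤ ρ`. -/
theorem gam {A B : Alg K} {ξ : K} (μ : Mod A B ξ) (hf : Fac A) (hn : NoGapC μ) : Gam μ := by
  intro q l hq hl pq _ q0 l0 t ρ hρ
  obtain ⟨δ, hδ, hδρ⟩ := igam_delta hρ
  obtain ⟨s₀, hs⟩ := igam_w μ hf hq hl q0 l0
  obtain ⟨y, hy, w0, bw, w', hw', ew⟩ := hs δ hδ
  have hw : q * y * l ∈ A := mul_mem (mul_mem hq.1 hy) hl.1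
  have eσ : ∀ s, μ.σ s (q * y * l) = q * μ.σ s y * l := fun s => by
    rw [μ.σ_mul, μ.σ_mul, μ.σ_fix (hq.2 s), μ.σ_fix (hl.2 s)]
  set w := q * y * l with hwd
  obtain ⟨e, pe, e1, e2, e3⟩ := tl_supp {v : K | ∃ s η, v = μ.σ s w η}
  have mB : ∀ c ∈ B, ∀ v ∈ {v : K | ∃ s η, v = μ.σ s w η},
      c v ∈ {v : K | ∃ s η, v = μ.σ s w η} := by
    rintro c hc _ ⟨s, η, rfl⟩
    exact ⟨s, c η, (μ.cp.app (μ.uA s w hw) hc η).symm⟩
  have mU : ∀ r, ∀ v ∈ {v : K | ∃ s η, v = μ.σ s w η},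
      μ.U r v ∈ {v : K | ∃ s η, v = μ.σ s w η} := by
    rintro r _ ⟨s, η, rfl⟩
    refine ⟨r + s, μ.U r η, ?_⟩
    have e4 : ∀ x : Op K, μ.σ r x * μ.U r = μ.U r * x := fun x => by
      rw [Calc.σ, mul_assoc, μ.U_neg_mul, mul_one]
    rw [← μ.σ_σ, ← mul_apply_eq_comp (μ.σ r _), e4]
    rfl
  have he : Cen μ e := ⟨(μ.cp.left e).2 fun c hc => (e3 c (mB c hc) (mB _ (star_mem hc))).symm,
    fun r => e3 _ (mU r) (by rw [μ.star_U]; exact mU (-r))⟩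
  have e0 : e ≠ 0 := fun h => w0 (ContinuousLinearMap.ext fun η => by
    have := e1 _ ⟨0, η, rfl⟩
    rw [h, μ.σ_zero] at this
    exact this.symm)
  obtain ⟨z, hz, z0, ez, bz⟩ := igam_z μ hn he pe e0 (t - s₀) hδ
  obtain ⟨s, η, hη⟩ : ∃ s η, z (μ.σ s w η) ≠ 0 := by
    by_contra hc
    push Not at hc
    refine z0 (ContinuousLinearMap.ext fun η => ?_)
    have h1 : z (e η) = 0 := igam_zero z (by
      rintro _ ⟨s, η, rfl⟩
      exact hc s η) (e2 η)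
    rw [← ez, mul_apply_eq_comp, mul_apply_eq_comp, h1, map_zero]
    rfl
  have hx : z * q * μ.σ s y ∈ A := mul_mem (mul_mem hz hq.1) (μ.uA s y hy)
  have ex : q * (z * q * μ.σ s y) * l = q * (z * μ.σ s w) := by
    rw [eσ]
    simp only [mul_assoc]
  have b1 : BL μ.toCalc s₀ δ (μ.σ s w ξ) := by
    rw [μ.toPre.σ_vec μ.cp]
    exact bw.map fun r => by rw [← μ.U_add, ← μ.U_add, add_comm]
  have b2 := bl_prod μ hδ hz (μ.uA s w hw) (μ.uB s hw')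
    (by rw [μ.toPre.σ_vec μ.cp, μ.toPre.σ_vec μ.cp, ew]) bz b1
  rw [sub_add_cancel] at b2
  have b3 := BL.dfc_le μ (x := q * (z * μ.σ s w)) (by positivity)
    (mul_mem hq.1 (mul_mem hz (μ.uA s w hw))) (b2.map hq.2)
  refine ⟨_, hx, ?_, ?_⟩
  · rw [ex]
    intro h
    have h1 : q (z (μ.σ s w η)) = 0 := congrArg (fun a : Op K => a η) h
    have h2 : z (μ.σ s w η) ∈
        closure (Submodule.span ℂ {v : K | ∃ s η, v = μ.σ s w η} : Set K) := by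
      rw [← ez]
      exact e2 _
    refine hη (inner_self_eq_zero (𝕜 := ℂ).1 (igam_orth ?_ h2))
    rintro _ ⟨r, ζ, rfl⟩
    rw [eσ r, mul_assoc, mul_apply_eq_comp q, ← tl_inner', pq.1, h1, inner_zero_left]
  · rw [ex]
    refine (pow_le_pow_left₀ (norm_nonneg _) b3 2).trans ?_
    rw [mul_pow]
    exact mul_le_mul_of_nonneg_right hδρ (sq_nonneg _)

end Vale.Agent.P132
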