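import Vale.Agent.P132.IDefs

/-! The graph of the modular operator and its resolvent. -/

set_option linter.unusedSectionVars false

namespace Vale.Agent.P132

open Filter Topology MeasureTheory Vale.Agent.P096 Vale.Agent.P096b
open scoped InnerProductSpace ComplexConjugate

universe u

variable {H : Type u} [NormedAddCommGroup H] [InnerProductSpace ℂ H] [CompleteSpace H]
  {K : Type u} [NormedAddCommGroup K] [InnerProductSpace ℂ K] [CompleteSpace K]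

variable {A : Alg K} {Ω : K}

theorem igap_gam (ν : Pre A Ω) {η η' : K} (h : ν.F sf η = ν.F cf (ν.J η')) :
    ∃ γ, η = ν.F cf γ ∧ ν.J η' = ν.F sf γ := by
  refine ⟨ν.F cf η + ν.F sf (ν.J η'), ?_, ?_⟩
  · rw [map_add, ν.cs_comm, ← h, ν.sq_add]
  · rw [map_add, ← ν.cs_comm, h, ν.sq_add]

/-- The closure of the graph of `a Ω ↦ a* Ω`. The right side is closed and contains the pairs
(`ν.graph`). Conversely if `sf η = cf (J η')`, put `γ := cf η + sf (J η')`; then `cf γ = η`,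
`sf γ = J η'` (`sq_add`, `cs_comm`) and `ν.core γ` approximates. -/
theorem gap_S (ν : Pre A Ω) (η η' : K) :
    (η, η') ∈ closure {p : K × K | ∃ a ∈ A, p = (a Ω, star a Ω)} ↔
      ν.F sf η = ν.F cf (ν.J η') := by
  constructor
  · intro h
    refine closure_minimal (t := {p : K × K | ν.F sf p.1 = ν.F cf (ν.J p.2)}) ?_
      (isClosed_eq (by fun_prop) (by fun_prop)) h
    rintro _ ⟨a, ha, rfl⟩
    exact ν.graph a ha
  · intro h
    obtain ⟨γ, h1, h2⟩ := igap_gam ν h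
    refine Metric.mem_closure_iff.2 fun ε hε => ?_
    obtain ⟨x, hx, h3, h4⟩ := ν.core γ ε hε
    rw [← h2, ← map_sub, ν.J.norm_map] at h4
    refine ⟨_, ⟨x, hx, rfl⟩, ?_⟩
    rw [Prod.dist_eq, dist_eq_norm', dist_eq_norm', h1]
    exact max_lt h3 h4

/-- The graph of `Δ`. If `η = cf γ`, `J η' = sf γ`, the condition on all pairs
`(cf γ', J (sf γ'))` says `cf ζ = sf (sf γ)`. Conversely from `cf² ζ = sf² η` take
`γ := cf η + cf ζ`, `η' := J (sf γ)`. -/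
theorem gap_D (ν : Pre A Ω) (η ζ : K) :
    (∃ η' : K, ν.F sf η = ν.F cf (ν.J η') ∧
      ∀ θ θ' : K, ν.F sf θ = ν.F cf (ν.J θ') → ⟪θ, ζ⟫_ℂ = ⟪η', θ'⟫_ℂ) ↔
      ν.F cf (ν.F cf ζ) = ν.F sf (ν.F sf η) := by
  constructor
  · rintro ⟨η', h1, h2⟩
    obtain ⟨γ, rfl, h3⟩ := igap_gam ν h1
    have h4 : ν.F cf ζ = ν.F sf (ν.F sf γ) := ext_inner_left ℂ fun γ' => by
      rw [← ν.cf_inner, h2 _ (ν.J (ν.F sf γ')) (by rw [ν.JJ, ν.cs_comm]), ← ν.JJ η', J_inner, h3,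
        ν.sf_inner]
    rw [h4, ν.cs_comm, ν.cs_comm]
  · intro h
    have h1 : ν.F cf (ν.F cf η + ν.F cf ζ) = η := by rw [map_add, h, ν.sq_add]
    have h2 : ν.F sf (ν.F sf (ν.F cf η + ν.F cf ζ)) = ν.F cf ζ := by
      rw [← map_add, ← ν.cs_comm, ← ν.cs_comm, map_add, map_add, ← h, ν.sq_add]
    generalize ν.F cf η + ν.F cf ζ = γ at h1 h2
    refine ⟨ν.J (ν.F sf γ), by rw [ν.JJ, ν.cs_comm, h1], fun θ θ' h3 => ?_⟩
    obtain ⟨γ', rfl, h4⟩ := igap_gam ν h3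
    rw [J_inner' ν.JJ, h4, ν.sf_inner, h2, ν.cf_inner]

/-- The resolvent. Let `χ` be continuous with values in `[0,1]`, zero on `|κ - t| ≤ δ/2`, one on
`δ ≤ |κ - t|`; then `F (1 - χ) = 0`, and `R := F g`, `g κ := χ κ / (exp κ - exp t)` (bounded and
continuous; note `g (sf² - exp t cf²) = χ cf²`). Use injectivity of `F cf` (`Calc.cancel`). -/
theorem gap_R (Φ : Calc K) {t δ : ℝ} (hδ : 0 < δ) (h : ∀ g, Near' g t δ → Φ.F g = 0) :
    ∃ R : Op K,
      (∀ ζ, Φ.F cf (Φ.F cf (ζ + ((Real.exp t : ℝ) : ℂ) • R ζ)) = Φ.F sf (Φ.F sf (R ζ))) ∧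
      ∀ η ζ, Φ.F cf (Φ.F cf ζ) = Φ.F sf (Φ.F sf η) →
        R (ζ - ((Real.exp t : ℝ) : ℂ) • η) = η := by
  let ψ : ℝ → ℝ := fun κ => max 0 (δ - |κ - t|)
  let d : ℝ → ℂ := fun κ => ((Real.exp κ : ℝ) : ℂ) - (Real.exp t : ℝ) + (ψ κ : ℝ) * Complex.I
  let c : ℝ := min (δ / 2) (min (Real.exp (t + δ / 2) - Real.exp t)
    (Real.exp t - Real.exp (t - δ / 2)))
  have c0 : 0 < c := lt_min (half_pos hδ) (lt_min
    (sub_pos.2 (Real.exp_lt_exp.2 (by linarith))) (sub_pos.2 (Real.exp_lt_exp.2 (by linarith))))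
  have hd : ∀ κ, c ≤ ‖d κ‖ := fun κ => by
    have h1 : |Real.exp κ - Real.exp t| ≤ ‖d κ‖ := by
      simpa [d, -Complex.ofReal_exp] using Complex.abs_re_le_norm (d κ)
    have h2 : |ψ κ| ≤ ‖d κ‖ := by
      simpa [d, -Complex.ofReal_exp] using Complex.abs_im_le_norm (d κ)
    rcases le_or_gt (t + δ / 2) κ with a | a
    · exact ((min_le_right _ _).trans (min_le_left _ _)).trans
        (((sub_le_sub_right (Real.exp_le_exp.2 a) _).trans (le_abs_self _)).trans h1)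
    rcases le_or_gt κ (t - δ / 2) with b | b
    · rw [abs_sub_comm] at h1
      exact ((min_le_right _ _).trans (min_le_right _ _)).trans
        (((sub_le_sub_left (Real.exp_le_exp.2 b) _).trans (le_abs_self _)).trans h1)
    · refine (min_le_left _ _).trans (le_trans ?_ (((le_max_right _ _).trans (le_abs_self _)).trans h2))
      have : |κ - t| ≤ δ / 2 := abs_le.2 ⟨by linarith, by linarith⟩
      linarith
  have d0 : ∀ κ, d κ ≠ 0 := fun κ => norm_pos_iff.1 (c0.trans_le (hd κ))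
  have cψ : Continuous ψ := by fun_prop
  have bg : BC fun κ => (d κ)⁻¹ := BC.of_le (Continuous.inv₀ (by fun_prop) d0) (C := c⁻¹) fun κ => by
    rw [norm_inv]
    exact inv_anti₀ c0 (hd κ)
  have bψ : BC fun κ => (ψ κ : ℂ) := calc_ofReal cψ (C := δ) fun κ => by
    rw [abs_of_nonneg (le_max_left _ _)]
    exact max_le hδ.le (sub_le_self _ (abs_nonneg _))
  have bc := bc_cf.mul bc_cf
  have bs := bc_sf.mul bc_sf
  have h0 := h (fun κ => Complex.I * ((ψ κ : ℂ) * ((d κ)⁻¹ * (cf κ * cf κ))))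
    ⟨(bψ.mul (bg.mul bc)).cmul _, fun κ hκ => by simp [ψ, max_eq_left (sub_nonpos.2 hκ)]⟩
  have key : Φ.F (fun κ => (d κ)⁻¹) * (Φ.F sf * Φ.F sf) = Φ.F cf * Φ.F cf +
      ((Real.exp t : ℝ) : ℂ) • (Φ.F (fun κ => (d κ)⁻¹) * (Φ.F cf * Φ.F cf)) := by
    rw [← Φ.mul bc_sf bc_sf, ← Φ.mul bc_cf bc_cf, ← Φ.mul bg bs, ← Φ.mul bg bc,
      ← Φ.smul _ (bg.mul bc), ← Φ.add bc ((bg.mul bc).cmul _), ← sub_eq_zero,
      ← Φ.sub (bg.mul bs) (bc.add ((bg.mul bc).cmul _)), ← neg_eq_zero, ← h0, ← neg_one_smul ℂ,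
      ← Φ.smul _ ((bg.mul bs).sub (bc.add ((bg.mul bc).cmul _)))]
    congr 1
    funext κ
    have e1 : sf κ * sf κ = (Real.exp κ : ℝ) * (cf κ * cf κ) := by
      rw [sf_eq, mul_mul_mul_comm, ← Complex.ofReal_mul, ← Real.exp_add, add_halves]
    have e2 := mul_inv_cancel₀ (d0 κ)
    rw [e1]
    generalize (d κ)⁻¹ = x at e2
    simp only [d] at e2
    linear_combination (-(cf κ * cf κ)) * e2
  have cm : ∀ {f}, BC f → ∀ η, Φ.F f (Φ.F (fun κ => (d κ)⁻¹) η) =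
      Φ.F (fun κ => (d κ)⁻¹) (Φ.F f η) := fun hf η => congrArg (fun T : Op K => T η) (Φ.comm hf bg)
  have key' : ∀ η, Φ.F (fun κ => (d κ)⁻¹) (Φ.F sf (Φ.F sf η)) = Φ.F cf (Φ.F cf η) +
      ((Real.exp t : ℝ) : ℂ) • Φ.F (fun κ => (d κ)⁻¹) (Φ.F cf (Φ.F cf η)) := fun η =>
    congrArg (fun T : Op K => T η) key
  refine ⟨Φ.F fun κ => (d κ)⁻¹, fun ζ => ?_, fun η ζ e => ?_⟩
  · simp only [map_add, map_smul, cm bc_cf, cm bc_sf, key']
  · refine Φ.cancel bc_cf cf_ne (Φ.cancel bc_cf cf_ne ?_)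
    simp only [map_sub, map_smul, cm bc_cf, e, key', add_sub_cancel_right]

end Vale.Agent.P132
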