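import Vale.Agent.P132.ICover

/-! Nonzero projections are equivalent to the unit. -/

set_option linter.unusedSectionVars false

namespace Vale.Agent.P132

open Filter Topology MeasureTheory Vale.Agent.P096 Vale.Agent.P096b
open scoped InnerProductSpace ComplexConjugate

universe u

variable {H : Type u} [NormedAddCommGroup H] [InnerProductSpace ℂ H] [CompleteSpace H]
  {K : Type u} [NormedAddCommGroup K] [InnerProductSpace ℂ K] [CompleteSpace K]

/-- Schroeder-Bernstein. Let `q` be the projection on the closed span of the vectors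
`u^n (1 - e) η` (`tl_supp`, `q ∈ M`), `w := u q + (1 - q)`. -/
theorem sb {M M' : Alg H} (h : CP M M') {e u : Op H} (he : IsStarProjection e) (hm : e ∈ M)
    (hu : u ∈ M) (h1 : star u * u = 1) (h2 : e * u = u) :
    ∃ w ∈ M, star w * w = 1 ∧ w * star w = e := by
  obtain ⟨q, hq, q1, q2, q3⟩ := tl_supp {η : H | ∃ (n : ℕ) (θ : H), η = (u ^ n * (1 - e)) θ}
  have h3 : star u * (1 - e) = 0 := by rw [mul_sub, mul_one, tl_flip he h2, sub_self]
  have qM : q ∈ M := by
    have key : ∀ c ∈ M', ∀ η ∈ {η : H | ∃ (n : ℕ) (θ : H), η = (u ^ n * (1 - e)) θ},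
        c η ∈ {η : H | ∃ (n : ℕ) (θ : H), η = (u ^ n * (1 - e)) θ} := by
      rintro c hc _ ⟨n, θ, rfl⟩
      exact ⟨n, c θ, (h.app (mul_mem (pow_mem hu n) (sub_mem (one_mem M) hm)) hc θ).symm⟩
    exact (h.left q).2 fun c hc => (q3 c (key c hc) (key _ (star_mem hc))).symm
  have c1 : u * q = q * u := by
    refine q3 u ?_ ?_
    · rintro _ ⟨n, θ, rfl⟩
      exact ⟨n + 1, θ, by rw [pow_succ', mul_assoc]; rfl⟩
    · rintro _ ⟨n, θ, rfl⟩
      rcases n with _ | n
      · refine ⟨0, 0, ?_⟩
        rw [map_zero, pow_zero, one_mul, ← mul_apply_eq_comp, h3]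
        rfl
      · refine ⟨n, θ, ?_⟩
        rw [← mul_apply_eq_comp, pow_succ', ← mul_assoc, ← mul_assoc, h1, one_mul]
  have c2 : star u * q = q * star u := by
    have := congrArg star c1
    rw [star_mul, star_mul, hq.isSelfAdjoint.star_eq] at this
    exact this.symm
  have c3 : q * (1 - e) = 1 - e := by
    ext θ
    exact q1 ((1 - e) θ) ⟨0, θ, by rw [pow_zero, one_mul]⟩
  have c4 : (u * star u - e) * q = 0 := by
    ext θ
    have hc : IsClosed {η : H | (u * star u - e) η = 0} :=
      isClosed_eq (u * star u - e).continuous continuous_const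
    refine closure_minimal (t := {η : H | (u * star u - e) η = 0}) (fun η hη => ?_) hc (q2 θ)
    refine (Submodule.span_le (p := LinearMap.ker (u * star u - e).toLinearMap)).2 ?_ hη
    rintro _ ⟨n, θ', rfl⟩
    have : (u * star u - e) * (u ^ n * (1 - e)) = 0 := by
      rcases n with _ | n
      · rw [pow_zero, one_mul, sub_mul, mul_assoc, h3, mul_zero, he.mul_one_sub_self, sub_self]
      · have : (u * star u - e) * u = 0 := by rw [sub_mul, mul_assoc, h1, mul_one, h2, sub_self]
        rw [pow_succ', ← mul_assoc, ← mul_assoc, this, zero_mul, zero_mul]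
    exact congrArg (fun a : Op H => a θ') this
  have qq : q * q = q := hq.isIdempotentElem.eq
  have sw : star (u * q + (1 - q)) = q * star u + (1 - q) := by
    rw [star_add, star_mul, star_sub, star_one, hq.isSelfAdjoint.star_eq]
  refine ⟨u * q + (1 - q), add_mem (mul_mem hu qM) (sub_mem (one_mem M) qM), ?_, ?_⟩
  · rw [sw]
    have a1 : q * star u * (u * q) = q := by
      rw [mul_assoc, ← mul_assoc (star u), h1, one_mul, qq]
    have a2 : q * star u * (1 - q) = 0 := by
      rw [← c2, mul_assoc, hq.mul_one_sub_self, mul_zero]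
    have a3 : (1 - q) * (u * q) = 0 := by
      rw [c1, ← mul_assoc, hq.one_sub_mul_self, zero_mul]
    rw [add_mul, mul_add, mul_add, a1, a2, a3, hq.one_sub.isIdempotentElem.eq]
    abel
  · rw [sw]
    have c5 : (1 - e) * q = 1 - e := by
      have := congrArg star c3
      rwa [star_mul, hq.isSelfAdjoint.star_eq, he.one_sub.isSelfAdjoint.star_eq] at this
    have a1 : u * q * (q * star u) = q - (1 - e) := by
      rw [mul_assoc, ← mul_assoc q, qq, ← c2, ← mul_assoc]
      rw [sub_mul, sub_eq_zero] at c4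
      rw [c4, ← c5, sub_mul, one_mul, sub_sub_cancel]
    have a2 : u * q * (1 - q) = 0 := by rw [mul_assoc, hq.mul_one_sub_self, mul_zero]
    have a3 : (1 - q) * (q * star u) = 0 := by rw [← mul_assoc, hq.one_sub_mul_self, zero_mul]
    rw [add_mul, mul_add, mul_add, a1, a2, a3, hq.one_sub.isIdempotentElem.eq]
    abel

/-- Sum of a row of operators with orthogonal ranges. -/
theorem iinf_sum {M M' : Alg H} (h : CP M M') {e : Op H}
    (a : ℕ → Op H) (hM : ∀ n, a n ∈ M) (h1 : ∀ n, e * a n = a n)
    (h2 : ∀ n m, n ≠ m → star (a n) * a m = 0)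
    (h3 : ∀ η, HasSum (fun n => (star (a n) * a n) η) η) :
    ∃ u ∈ M, star u * u = 1 ∧ e * u = u := by
  set T : ℕ → Op H := fun N => ∑ n ∈ Finset.range N, a n with hT
  have hTT : ∀ m N, m ≤ N → star (T m) * T N = ∑ n ∈ Finset.range m, star (a n) * a n := by
    intro m N hmN
    rw [hT, star_sum, Finset.sum_mul]
    refine Finset.sum_congr rfl fun n hn => ?_
    rw [Finset.mul_sum]
    refine Finset.sum_eq_single n (fun k _ hk => h2 n k hk.symm) fun hk => ?_
    exact absurd (Finset.mem_range.2 ((Finset.mem_range.1 hn).trans_le hmN)) hk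
  have hb : ∀ N, ‖T N‖ ≤ 1 := by
    intro N
    refine ContinuousLinearMap.opNorm_le_bound _ zero_le_one fun η => ?_
    have s1 : HasSum (fun n => ‖a n η‖ ^ 2) (‖η‖ ^ 2) := by
      have := (Complex.reCLM.comp ((innerSL ℂ η).restrictScalars ℝ)).hasSum (h3 η)
      have e1 : ‖η‖ ^ 2 = (⟪η, η⟫_ℂ).re := by
        have := tl_norm_sq (1 : Op H) η
        simpa using this
      simp only [tl_norm_sq, e1]
      exact this
    have s2 : ‖T N η‖ ^ 2 = ∑ n ∈ Finset.range N, ‖a n η‖ ^ 2 := by
      rw [tl_norm_sq, hTT N N le_rfl, sum_apply, inner_sum, Complex.re_sum]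
      simp only [tl_norm_sq]
    rw [one_mul]
    refine le_of_pow_le_pow_left₀ two_ne_zero (norm_nonneg _) ?_
    rw [s2]
    exact sum_le_hasSum _ (fun _ _ => by positivity) s1
  obtain ⟨u, hu⟩ := tl_ulim (Ultrafilter.of (atTop : Filter ℕ)) T 1 hb
  have hle : (Ultrafilter.of (atTop : Filter ℕ) : Filter ℕ) ≤ atTop := Ultrafilter.of_le _
  have TM : ∀ N, T N ∈ M := fun N => sum_mem fun n _ => hM n
  refine ⟨u, (h.left u).2 fun y hy => ?_, ?_, ?_⟩
  · ext η
    refine ext_inner_left ℂ fun θ => ?_
    have t1 := hu η (star y θ)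
    simp only [tl_inner'] at t1
    have t2 := hu (y η) θ
    simp only [fun N => h.app (TM N) hy η] at t2
    exact tendsto_nhds_unique t2 t1
  · ext η
    refine ext_inner_left ℂ fun θ => ?_
    have t1 : ∀ m, ⟪T m θ, u η⟫_ℂ = ⟪θ, ∑ n ∈ Finset.range m, (star (a n) * a n) η⟫_ℂ := by
      intro m
      refine tendsto_nhds_unique (hu η (T m θ)) (tendsto_const_nhds.congr' ?_)
      filter_upwards [hle (eventually_ge_atTop m)] with N hN
      rw [tl_inner, ← mul_apply_eq_comp, hTT m N hN, sum_apply]
    have t2 : Tendsto (fun m => ⟪T m θ, u η⟫_ℂ) atTop (𝓝 ⟪θ, η⟫_ℂ) := by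
      simp only [t1]
      exact tendsto_const_nhds.inner (h3 η).tendsto_sum_nat
    have t3 : Tendsto (fun m => ⟪T m θ, u η⟫_ℂ) (Ultrafilter.of (atTop : Filter ℕ))
        (𝓝 ⟪u θ, u η⟫_ℂ) := by
      have := (Complex.continuous_conj.tendsto _).comp (hu θ (u η))
      simpa only [Function.comp_def, inner_conj_symm] using this
    have t4 := tendsto_nhds_unique t3 (t2.mono_left hle)
    rw [tl_inner] at t4
    exact t4
  · ext η
    refine ext_inner_left ℂ fun θ => ?_
    have e1 : ∀ N, e * T N = T N := fun N => by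
      rw [hT, Finset.mul_sum]
      exact Finset.sum_congr rfl fun n _ => h1 n
    have t1 := hu η (star e θ)
    simp only [tl_inner', ← mul_apply_eq_comp, e1] at t1
    exact tendsto_nhds_unique t1 (hu η θ)

/-- An infinite projection majorizes the range of an isometry. There is `s ∈ M` with
`s* s = e`, `e s = s`, `f := e - s s* ≠ 0` (a projection with `s* f = 0`). Take `v` from `cover`
for `f`; the vectors `s^n (v n η)` are orthogonal with `∑ ‖v n η‖² = ‖η‖²`, so
`u η := ∑' n, s^n (v n η)` is an isometry, in `M` by `tl_strong` or `h.left`, with `e u = u`. -/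
theorem iso_le {M M' : Alg H} (h : CP M M') (hf : Fac M) {ζ : ℕ → H} (hζ : SepSeq M ζ)
    {e : Op H} (he : IsStarProjection e) (hm : e ∈ M) (hi : ¬ Fin' M e) :
    ∃ u ∈ M, star u * u = 1 ∧ e * u = u := by
  unfold Fin' at hi
  push Not at hi
  obtain ⟨s, hs, s1, s2, s3⟩ := hi
  have ee : e * e = e := he.isIdempotentElem.eq
  have es : star e = e := he.isSelfAdjoint.star_eq
  have s4 : s * e = s := by
    have : star (s * (1 - e)) * (s * (1 - e)) = 0 := by
      rw [star_mul, mul_assoc, ← mul_assoc (star s), s1, he.mul_one_sub_self, mul_zero]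
    have := (CStarRing.star_mul_self_eq_zero_iff _).1 this
    rw [mul_sub, mul_one, sub_eq_zero] at this
    exact this.symm
  have s5 : star s * e = star s := tl_flip he s2
  have p1 : e * (s * star s) = s * star s := by rw [← mul_assoc, s2]
  have p2 : s * star s * e = s * star s := by rw [mul_assoc, s5]
  have p3 : s * star s * s = s := by rw [mul_assoc, s1, s4]
  have hfp : IsStarProjection (e - s * star s) := by
    refine ⟨?_, ?_⟩
    · show (e - s * star s) * (e - s * star s) = e - s * star s
      rw [sub_mul, mul_sub, mul_sub, ee, p1, p2, ← mul_assoc, p3, sub_self, sub_zero]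
    · show star (e - s * star s) = e - s * star s
      rw [star_sub, es, star_mul, star_star]
  obtain ⟨v, v1, v2, -, -, v5⟩ := cover h hf hζ hfp (sub_mem hm (mul_mem hs (star_mem hs)))
    (sub_ne_zero.2 s3.symm)
  have f1 : e * (e - s * star s) = e - s * star s := by rw [mul_sub, ee, p1]
  have f2 : (e - s * star s) * s = 0 := by rw [sub_mul, s2, p3, sub_self]
  have v6 : ∀ n, e * v n = v n := fun n => by rw [← v2 n, ← mul_assoc, f1]
  have v7 : ∀ n, star (v n) * s = 0 := fun n => by
    rw [← tl_flip hfp (v2 n), mul_assoc, f2, mul_zero]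
  have w1 : ∀ k n, e * (s ^ k * v n) = s ^ k * v n := by
    intro k n
    rcases k with _ | k
    · rw [pow_zero, one_mul, v6]
    · rw [pow_succ', ← mul_assoc, ← mul_assoc, s2]
  have w2 : ∀ k j n, star (s ^ k) * (s ^ (k + j) * v n) = s ^ j * v n := by
    intro k j n
    induction k with
    | zero => simp
    | succ k ih =>
      rw [Nat.add_right_comm, pow_succ', pow_succ' s (k + j), star_mul, mul_assoc, mul_assoc,
        ← mul_assoc (star s), s1, w1, ih]
  have w3 : ∀ n m, n < m → star (s ^ n * v n) * (s ^ m * v m) = 0 := by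
    intro n m hnm
    obtain ⟨j, rfl⟩ := Nat.exists_eq_add_of_lt hnm
    rw [star_mul, mul_assoc, add_assoc, w2, pow_succ', ← mul_assoc, ← mul_assoc, v7, zero_mul,
      zero_mul]
  refine iinf_sum h (fun n => s ^ n * v n) (fun n => mul_mem (pow_mem hs n) (v1 n))
    (fun n => w1 n n) (fun n m hnm => ?_) fun η => ?_
  · rcases lt_or_gt_of_ne hnm with h1 | h1
    · exact w3 n m h1
    · have := congrArg star (w3 m n h1)
      rwa [star_mul, star_star, star_zero] at this
  · have : ∀ n, star (s ^ n * v n) * (s ^ n * v n) = star (v n) * v n := fun n => by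
      have := w2 n 0 n
      rw [add_zero, pow_zero, one_mul] at this
      rw [star_mul, mul_assoc, this]
    simp only [this]
    exact v5 η

end Vale.Agent.P132
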