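import Vale.Agent.P132.IGap

/-! The type hypothesis in working form. -/

set_option linter.unusedSectionVars false

namespace Vale.Agent.P132

open Filter Topology MeasureTheory Vale.Agent.P096 Vale.Agent.P096b
open scoped InnerProductSpace ComplexConjugate

universe u

variable {H : Type u} [NormedAddCommGroup H] [InnerProductSpace ℂ H] [CompleteSpace H]
  {K : Type u} [NormedAddCommGroup K] [InnerProductSpace ℂ K] [CompleteSpace K]

/-- Type III₁ in working form. Given the data of `NoGap`, put `ψ x := ⟪Ω, π x Ω⟫`,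
`Λ x := π x Ω`; `ψ` is a faithful normal state (`Rep.vec`, `Rep.inj`), `Λ` is a GNS map, the set
defining `graphS M Λ` is the one of `gap_S` (`Rep.onto`, `Rep.star`), and `gap_D`, `gap_R`
contradict `exp t ∈ graphSpectrum`. -/
theorem noGap_of {M : VonNeumannAlgebra H} (h : IsTypeIII1 M) : NoGap M.toStarSubalgebra := by
  intro K _ _ _ π A Ω ν hπ hΩ hcyc hsep t δ hδ
  by_contra hcon
  have hg : ∀ g, Near' g t δ → ν.F g = 0 := by
    intro g hg
    by_contra h0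
    exact hcon ⟨g, hg, h0⟩
  have hin : ∀ x ∈ M, ∀ y ∈ M, ⟪π x Ω, π y Ω⟫_ℂ = ⟪Ω, π (star x * y) Ω⟫_ℂ := by
    intro x hx y hy
    rw [hπ.mul _ (star_mem (s := M.toStarSubalgebra) hx) _ hy, hπ.star _ hx,
      mul_apply_eq_comp, ContinuousLinearMap.star_eq_adjoint,
      ContinuousLinearMap.adjoint_inner_right]
  have hψ : IsFaithfulNormalState M (fun x => ⟪Ω, π x Ω⟫_ℂ) := by
    refine ⟨?_, ?_, ?_, ?_⟩
    · obtain ⟨ζ, h1, h2⟩ := hπ.vec Ω
      exact ⟨ζ, ζ, h1.summable, h1.summable, h2⟩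
    · intro x hx
      rw [← hin x hx x hx, inner_self_eq_norm_sq_to_K]
      constructor
      · rw [← RCLike.ofReal_pow]
        exact (sq_nonneg ‖π x Ω‖).trans_eq (Complex.ofReal_re _).symm
      · rw [← RCLike.ofReal_pow]
        exact Complex.ofReal_im _
    · show ⟪Ω, π 1 Ω⟫_ℂ = 1
      rw [hπ.one, one_apply_eq_self, inner_self_eq_norm_sq_to_K, hΩ]
      simp
    · intro x hx h0
      have h1 : ⟪π x Ω, π x Ω⟫_ℂ = 0 := by rw [hin x hx x hx]; exact h0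
      exact hπ.inj x hx (hsep _ (hπ.mem x hx) (inner_self_eq_zero.1 h1))
  have hΛ : IsGNS M (fun x => ⟪Ω, π x Ω⟫_ℂ) (fun x => π x Ω) := by
    refine ⟨hin, ?_⟩
    rw [Metric.dense_iff]
    intro η ε hε
    obtain ⟨a, ha, h1⟩ := hcyc η ε hε
    obtain ⟨x, hx, rfl⟩ := hπ.onto a ha
    exact ⟨π x Ω, by rwa [Metric.mem_ball, dist_eq_norm], x, hx, rfl⟩
  have hS : ∀ η η' : K, (η, η') ∈ graphS M (fun x => π x Ω) ↔ ν.F sf η = ν.F cf (ν.J η') := by
    intro η η'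
    rw [← gap_S ν]
    have e : {p : K × K | ∃ x ∈ M, p = (π x Ω, π (star x) Ω)} =
        {p : K × K | ∃ a ∈ A, p = (a Ω, star a Ω)} := by
      ext p
      constructor
      · rintro ⟨x, hx, rfl⟩
        exact ⟨π x, hπ.mem x hx, by rw [hπ.star x hx]⟩
      · rintro ⟨a, ha, rfl⟩
        obtain ⟨x, hx, rfl⟩ := hπ.onto a ha
        exact ⟨x, hx, by rw [hπ.star x hx]⟩
    unfold graphS
    rw [e]
  have hD : ∀ η ζ : K, (η, ζ) ∈ graphDelta M (fun x => π x Ω) ↔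
      ν.F cf (ν.F cf ζ) = ν.F sf (ν.F sf η) := by
    intro η ζ
    rw [← gap_D ν]
    constructor
    · rintro ⟨η', h1, h2⟩
      exact ⟨η', (hS _ _).1 h1, fun θ θ' h3 => h2 (θ, θ') ((hS _ _).2 h3)⟩
    · rintro ⟨η', h1, h2⟩
      exact ⟨η', (hS _ _).2 h1, fun q h3 => h2 q.1 q.2 ((hS _ _).1 h3)⟩
  obtain ⟨R, h1, h2⟩ := gap_R ν.toCalc hδ hg
  exact h.2 _ hψ K _ hΛ (Real.exp t) (Real.exp_pos t).le
    ⟨R, fun ζ => (hD _ _).2 (h1 ζ), fun p hp => h2 p.1 p.2 ((hD _ _).1 hp)⟩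

end Vale.Agent.P132
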