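import Vale.Agent.P132.IStd
import Vale.Agent.P132.INoGap
import Vale.Agent.P132.IFin
import Vale.Agent.P132.IInf
import Vale.Agent.P132.ICorner
import Vale.Agent.P132.IGam
import Vale.Agent.P132.IE2

/-! Assembly of the first half. -/

set_option linter.unusedSectionVars false

namespace Vale.Agent.P132

open Filter Topology MeasureTheory Vale.Agent.P096 Vale.Agent.P096b
open scoped InnerProductSpace ComplexConjugate

universe u

variable {H : Type u} [NormedAddCommGroup H] [InnerProductSpace ℂ H] [CompleteSpace H]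
  {K : Type u} [NormedAddCommGroup K] [InnerProductSpace ℂ K] [CompleteSpace K]

theorem imain_sq (x : Op H) (η : H) : ⟪η, (star x * x) η⟫_ℂ = ((‖x η‖ ^ 2 : ℝ) : ℂ) := by
  rw [ContinuousLinearMap.mul_apply, ContinuousLinearMap.star_eq_adjoint,
    ContinuousLinearMap.adjoint_inner_right, inner_self_eq_norm_sq_to_K]
  simp

namespace Rep

variable {M : Alg H} {π : Op H → Op K} {A : Alg K}

theorem sub (h : Rep M π A) {x y : Op H} (hx : x ∈ M) (hy : y ∈ M) : π (x - y) = π x - π y := by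
  have e : x - y = x + (-1 : ℂ) • y := by simp [sub_eq_add_neg]
  rw [e, h.add _ hx _ (M.smul_mem hy _), h.smul _ _ hy]
  simp [sub_eq_add_neg]

theorem ext (h : Rep M π A) {x y : Op H} (hx : x ∈ M) (hy : y ∈ M) (e : π x = π y) : x = y :=
  sub_eq_zero.1 (h.inj _ (sub_mem hx hy) (by rw [h.sub hx hy, e, sub_self]))

theorem sq (h : Rep M π A) (η : K) : ∃ ζ : ℕ → H, HasSum (fun n => ‖ζ n‖ ^ 2) (‖η‖ ^ 2) ∧
    ∀ x ∈ M, HasSum (fun n => ‖x (ζ n)‖ ^ 2) (‖π x η‖ ^ 2) := by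
  obtain ⟨ζ, h1, h2⟩ := h.vec η
  refine ⟨ζ, h1, fun x hx => ?_⟩
  have := h2 _ (mul_mem (star_mem hx) hx)
  rw [h.mul _ (star_mem hx) _ hx, h.star _ hx] at this
  simp only [imain_sq] at this
  exact_mod_cast this

theorem norm_le (h : Rep M π A) {x : Op H} (hx : x ∈ M) (η : K) : ‖π x η‖ ≤ ‖x‖ * ‖η‖ := by
  obtain ⟨ζ, h1, h2⟩ := h.sq η
  have := hasSum_le (fun n => ?_) (h2 x hx) (h1.mul_left (‖x‖ ^ 2))
  · rw [← mul_pow] at this
    exact le_of_pow_le_pow_left₀ two_ne_zero (by positivity) this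
  · rw [← mul_pow]
    exact pow_le_pow_left₀ (norm_nonneg _) (x.le_opNorm _) 2

theorem strong (h : Rep M π A) {x : ℕ → Op H} (hx : ∀ n, x n ∈ M) {C : ℝ} (hC : ∀ n, ‖x n‖ ≤ C)
    (h0 : ∀ η, Tendsto (fun n => x n η) atTop (𝓝 0)) (η : K) :
    Tendsto (fun n => ‖π (x n) η‖ ^ 2) atTop (𝓝 0) := by
  obtain ⟨ζ, h1, h2⟩ := h.sq η
  have := tendsto_tsum_of_dominated_convergence (𝓕 := atTop)
    (f := fun n k => ‖x n (ζ k)‖ ^ 2) (g := fun _ => (0 : ℝ))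
    (bound := fun k => C ^ 2 * ‖ζ k‖ ^ 2) (h1.summable.mul_left _) (fun k => ?_)
    (Eventually.of_forall fun n k => ?_)
  · simp only [tsum_zero] at this
    exact this.congr fun n => (h2 _ (hx n)).tsum_eq
  · simpa using ((h0 (ζ k)).norm).pow 2
  · rw [Real.norm_of_nonneg (by positivity), ← mul_pow]
    exact pow_le_pow_left₀ (norm_nonneg _) (((x n).le_opNorm _).trans
      (mul_le_mul_of_nonneg_right (hC n) (norm_nonneg _))) 2

end Rep

/-- Unitaries almost fixed by the modular conjugation almost centralize the state. -/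
theorem imain_ac {A B : Alg K} {ξ : K} (μ : Mod A B ξ) {u y : Op K} (hu : u ∈ A) (hy : y ∈ A)
    {C : ℝ} (hC : ∀ η, ‖y η‖ ≤ C * ‖η‖) (hξ : ‖ξ‖ = 1) :
    ‖⟪ξ, (y * u) ξ⟫_ℂ - ⟪ξ, (u * y) ξ⟫_ℂ‖ ≤ 2 * ‖u ξ - μ.J (star u ξ)‖ * C := by
  have J1 : μ.J ξ = ξ := μ.J_fix μ.cp
  have hb : jc μ.J (star u) ∈ B := μ.jA _ (star_mem hu)
  have e1 : ⟪ξ, y (μ.J (star u ξ))⟫_ℂ = ⟪μ.J (u ξ), y ξ⟫_ℂ := by
    have : y (μ.J (star u ξ)) = jc μ.J (star u) (y ξ) := by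
      have := congrArg (fun z : Op K => z ξ) (μ.cp.left y |>.1 hy _ hb)
      simpa [J1] using this
    rw [this, jc_star μ.JJ, ContinuousLinearMap.star_eq_adjoint,
      ContinuousLinearMap.adjoint_inner_right, jc_apply, J1]
  have e2 : ⟪ξ, (u * y) ξ⟫_ℂ = ⟪star u ξ, y ξ⟫_ℂ := by
    rw [ContinuousLinearMap.star_eq_adjoint, ContinuousLinearMap.adjoint_inner_left]; rfl
  have e3 : ⟪ξ, (y * u) ξ⟫_ℂ - ⟪ξ, (u * y) ξ⟫_ℂ =
      ⟪ξ, y (u ξ - μ.J (star u ξ))⟫_ℂ + ⟪μ.J (u ξ - μ.J (star u ξ)), y ξ⟫_ℂ := by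
    rw [e2, map_sub, inner_sub_right, e1, map_sub, μ.JJ, inner_sub_left]
    simp only [ContinuousLinearMap.mul_apply]
    ring
  rw [e3]
  have n1 := (norm_inner_le_norm (𝕜 := ℂ) ξ (y (u ξ - μ.J (star u ξ)))).trans
    (mul_le_mul_of_nonneg_left (hC _) (norm_nonneg _))
  have n2 := (norm_inner_le_norm (𝕜 := ℂ) (μ.J (u ξ - μ.J (star u ξ))) (y ξ)).trans
    (mul_le_mul_of_nonneg_left (hC _) (norm_nonneg _))
  rw [hξ] at n1 n2
  rw [μ.J.norm_map] at n2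
  refine (norm_add_le _ _).trans ?_
  linarith

theorem bic_of {M : VonNeumannAlgebra H} {φ : Op H → ℂ} {π : Op H → Op K} {A B : Alg K} {ξ : K}
    (h : Rep M.toStarSubalgebra π A) (μ : Mod A B ξ) (hξ : ‖ξ‖ = 1)
    (hφ : ∀ x ∈ M, φ x = ⟪ξ, π x ξ⟫_ℂ) {a : Op H} (ha : a ∈ bicentralizer M φ) :
    Bic μ (π a) := by
  refine ⟨h.mem a ha.1, fun ε hε => ?_⟩
  by_contra hn
  push Not at hn
  choose u u1 u2 u3 u4 using fun n : ℕ => hn (1 / ((n : ℝ) + 1)) (by positivity)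
  choose w w1 w2 using fun n => h.onto (u n) (u2 n)
  have wu : ∀ n, star (w n) * w n = 1 := fun n =>
    h.ext (mul_mem (star_mem (w1 n)) (w1 n)) (one_mem _) (by
      rw [h.mul _ (star_mem (w1 n)) _ (w1 n), h.star _ (w1 n), w2, h.one]
      exact Unitary.star_mul_self_of_mem (u1 n))
  have wn : ∀ n, ‖w n‖ ≤ 1 := fun n => by
    refine ContinuousLinearMap.opNorm_le_bound _ zero_le_one fun η => ?_
    have k1 := imain_sq (w n) η
    have k2 := imain_sq (1 : Op H) η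
    rw [star_one, one_mul] at k2
    rw [wu, k2] at k1
    have e : ‖η‖ ^ 2 = ‖w n η‖ ^ 2 := Complex.ofReal_injective k1
    rw [one_mul]
    exact le_of_pow_le_pow_left₀ two_ne_zero (norm_nonneg _) e.ge
  have ac : AsympCentralizes M φ w := by
    intro δ hδ
    have := tendsto_one_div_add_atTop_nhds_zero_nat (𝕜 := ℝ)
    filter_upwards [this.eventually (gt_mem_nhds (half_pos hδ))] with n hn y hy
    rw [hφ _ (mul_mem hy (w1 n)), hφ _ (mul_mem (w1 n) hy), h.mul _ hy _ (w1 n),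
      h.mul _ (w1 n) _ hy, w2]
    refine (imain_ac μ (u2 n) (h.mem y hy) (h.norm_le hy) hξ).trans ?_
    exact mul_le_mul_of_nonneg_right (by linarith [u3 n]) (norm_nonneg _)
  have hm : ∀ n, a * w n - w n * a ∈ M.toStarSubalgebra := fun n =>
    sub_mem (mul_mem ha.1 (w1 n)) (mul_mem (w1 n) ha.1)
  have := h.strong hm (C := 2 * ‖a‖) (fun n => ?_) (ha.2 w w1 ⟨1, wn⟩ ac) ξ
  · obtain ⟨n, hn⟩ := (this.eventually (gt_mem_nhds (pow_pos hε 2))).exists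
    rw [h.sub (mul_mem ha.1 (w1 n)) (mul_mem (w1 n) ha.1), h.mul _ ha.1 _ (w1 n),
      h.mul _ (w1 n) _ ha.1, w2, ← neg_sub, ContinuousLinearMap.neg_apply, norm_neg] at hn
    exact absurd (lt_of_pow_lt_pow_left₀ 2 hε.le hn) (not_lt.2 (u4 n).le)
  · have k1 := (norm_mul_le a (w n)).trans (mul_le_mul_of_nonneg_left (wn n) (norm_nonneg _))
    have k2 := (norm_mul_le (w n) a).trans (mul_le_mul_of_nonneg_right (wn n) (norm_nonneg _))
    exact (norm_sub_le _ _).trans (by linarith)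

theorem noGapC_of {M M' : Alg H} (hM : CP M M') (hf : Fac M) {ζ : ℕ → H} (hζ : SepSeq M ζ)
    (hg : NoGap M) {π : Op H → Op K} {A B : Alg K} {ξ : K} (h : Rep M π A) (μ : Mod A B ξ) :
    NoGapC μ := by
  intro e he hp e0 t δ hδ
  obtain ⟨p, pm, rfl⟩ := h.onto e he.1
  have pp : IsStarProjection p := by
    refine ⟨h.ext (mul_mem pm pm) pm ?_, h.ext (star_mem pm) pm ?_⟩
    · rw [h.mul _ pm _ pm]; exact hp.isIdempotentElem
    · rw [h.star _ pm]; exact hp.isSelfAdjoint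
  have p0 : p ≠ 0 := by
    rintro rfl
    apply e0
    simpa using h.smul 0 0 pm
  obtain ⟨u, um, u1, u2⟩ := iso_le hM hf hζ pp pm (not_fin hM hf hζ hg pp pm p0)
  obtain ⟨w, wm, w1, w2⟩ := sb hM pp pm um u1 u2
  obtain ⟨Ω, ν, n1, n2, n3, n4⟩ := corner μ he hp e0 (h.mem w wm)
    (by rw [← h.star _ wm, ← h.mul _ (star_mem wm) _ wm, w1, h.one])
    (by rw [← h.star _ wm, ← h.mul _ wm _ (star_mem wm), w2])
  obtain ⟨g, g1, g2⟩ := hg K π A Ω ν h n1 n2 n3 t δ hδ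
  refine ⟨g, g1, ?_⟩
  by_contra hn
  push Not at hn
  exact g2 (n4 g g1.1 hn)

theorem main_of (hc : CoreStmt.{u}) (M : VonNeumannAlgebra H) (hM : IsTypeIII1 M)
    (φ : Op H → ℂ) (hφ : IsFaithfulNormalState M φ) :
    bicentralizer M φ = {a | ∃ c : ℂ, a = c • (1 : Op H)} := by
  ext a
  constructor
  · intro ha
    obtain ⟨ζ, z1, z2⟩ := fns_vec hφ
    obtain ⟨K, _, _, _, π, A, B, ξ, h, hAB, cA, cB, hξ, hs⟩ := std_rep (cp_vn M) z1
    obtain ⟨μ⟩ := tomita hAB cA cB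
    have hf : Fac M.toStarSubalgebra := hM.1
    have hΓ : Gam μ := gam μ (h.fac hf) (noGapC_of (cp_vn M) hf z1 (noGap_of hM) h μ)
    obtain ⟨c, hc'⟩ := hc K A B ξ μ hξ hΓ (erel μ hξ hΓ) _
      (bic_of h μ hξ (fun x hx => (z2 x hx).unique (hs x hx)) ha)
    refine ⟨c, h.ext ha.1 (M.toStarSubalgebra.smul_mem (one_mem _) c) ?_⟩
    rw [hc', h.smul _ _ (one_mem _), h.one]
  · rintro ⟨c, rfl⟩
    refine ⟨M.toStarSubalgebra.smul_mem (one_mem _) c, fun w _ _ _ η => ?_⟩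
    simp

end Vale.Agent.P132
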