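import Vale.Agent.P132.IDefs

/-! Positive functionals are vector functionals. -/

set_option linter.unusedSectionVars false

namespace Vale.Agent.P132

open Filter Topology MeasureTheory Vale.Agent.P096 Vale.Agent.P096b
open scoped InnerProductSpace ComplexConjugate

universe u

variable {H : Type u} [NormedAddCommGroup H] [InnerProductSpace ℂ H] [CompleteSpace H]
  {K : Type u} [NormedAddCommGroup K] [InnerProductSpace ℂ K] [CompleteSpace K]

/-- A bounded form on a dense subspace is given by an operator. -/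
theorem ipos_riesz {E : Type u} [AddCommGroup E] [Module ℂ E] (e f g : E →ₗ[ℂ] H)
    (hd : DenseRange e) (hb : ∀ x y, ‖⟪f x, g y⟫_ℂ‖ ≤ ‖e x‖ * ‖e y‖) :
    ∃ T : Op H, ∀ x y, ⟪T (e x), e y⟫_ℂ = ⟪f x, g y⟫_ℂ := by
  have h1 : ∀ x, ∃ v : H, ‖v‖ ≤ ‖e x‖ ∧ ∀ y, ⟪v, e y⟫_ℂ = ⟪f x, g y⟫_ℂ := by
    intro x
    let s : E →ₗ[ℂ] ℂ := (innerₛₗ ℂ (f x)) ∘ₗ g
    refine ⟨(InnerProductSpace.toDual ℂ H).symm (s.extendOfNorm e), ?_, fun y => ?_⟩
    · rw [LinearIsometryEquiv.norm_map]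
      exact LinearMap.opNorm_extendOfNorm_le hd (norm_nonneg _) (hb x)
    · rw [InnerProductSpace.toDual_symm_apply]
      exact LinearMap.extendOfNorm_eq (f := s) hd ⟨_, hb x⟩ y
  choose v hv hv' using h1
  have ext : ∀ a b : H, (∀ y, ⟪a, e y⟫_ℂ = ⟪b, e y⟫_ℂ) → a = b := fun a b h =>
    ext_inner_right ℂ fun z => hd.induction_on z (isClosed_eq (by fun_prop) (by fun_prop)) h
  let V : E →ₗ[ℂ] H :=
    { toFun := v
      map_add' := fun x x' => ext _ _ fun y => by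
        rw [hv', inner_add_left, hv', hv', map_add, inner_add_left]
      map_smul' := fun c x => ext _ _ fun y => by
        rw [hv', inner_smul_left, hv', map_smul, inner_smul_left, RingHom.id_apply] }
  refine ⟨V.extendOfNorm e, fun x y => ?_⟩
  rw [LinearMap.extendOfNorm_eq hd ⟨1, fun x => by rw [one_mul]; exact hv x⟩]
  exact hv' x y

/-- A positive form is hermitian. -/
theorem ipos_herm {E : Type u} [AddCommGroup E] [Module ℂ E] (f g : E →ₗ[ℂ] H)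
    (h : ∀ x, (⟪f x, g x⟫_ℂ).im = 0) (x y : E) : conj ⟪f y, g x⟫_ℂ = ⟪f x, g y⟫_ℂ := by
  have h1 := h (x + y)
  have h2 := h (x + Complex.I • y)
  have h3 := h x
  have h4 := h y
  simp only [map_add, map_smul, inner_add_left, inner_add_right, inner_smul_left,
    inner_smul_right, Complex.add_im, Complex.add_re, Complex.mul_im, Complex.mul_re,
    Complex.conj_I, Complex.neg_re, Complex.neg_im, Complex.I_re, Complex.I_im] at h1 h2
  apply Complex.ext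
  · rw [Complex.conj_re]
    linarith
  · rw [Complex.conj_im]
    linarith

/-- The inequality of Cauchy and Schwarz for a positive form. -/
theorem ipos_cs {E : Type u} [AddCommGroup E] [Module ℂ E] (e f g : E →ₗ[ℂ] H)
    (h : ∀ x, (⟪f x, g x⟫_ℂ).im = 0) (h0 : ∀ x, 0 ≤ (⟪f x, g x⟫_ℂ).re)
    (h1 : ∀ x, (⟪f x, g x⟫_ℂ).re ≤ ‖e x‖ ^ 2) (x y : E) : ‖⟪f x, g y⟫_ℂ‖ ≤ ‖e x‖ * ‖e y‖ := by
  let c : PreInnerProductSpace.Core ℂ E :=
    { inner := fun x y => ⟪f x, g y⟫_ℂ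
      conj_inner_symm := ipos_herm f g h
      re_inner_nonneg := h0
      add_left := fun x y z => by rw [map_add, inner_add_left]
      smul_left := fun x y r => by rw [map_smul, inner_smul_left] }
  have h2 : ‖⟪f x, g y⟫_ℂ‖ * ‖⟪f y, g x⟫_ℂ‖ ≤ (⟪f x, g x⟫_ℂ).re * (⟪f y, g y⟫_ℂ).re :=
    @InnerProductSpace.Core.inner_mul_inner_self_le ℂ E _ _ _ c x y
  rw [← ipos_herm f g h y x, Complex.norm_conj] at h2
  refine abs_le_of_sq_le_sq' ?_ (by positivity) |>.2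
  rw [sq, mul_pow]
  exact h2.trans (mul_le_mul (h1 x) (h1 y) (h0 y) (sq_nonneg _))

/-- A positive functional of the form `⟪η, x ξ⟫` is a vector functional.
Proof: `ζ := ξ + η`; for `a = x* x`, `4 re ⟪η, a ξ⟫ = ‖x (ξ + η)‖² - ‖x (ξ - η)‖² ≤ ‖x ζ‖²`.
The form `(x ζ, y ζ) ↦ ⟪η, x* y ξ⟫` is positive, so by Cauchy-Schwarz it is bounded by
`‖x ζ‖ ‖y ζ‖`; with `p` the projection on the closure of `A ζ` (`tl_supp`, `p ∈ B`) it is given by
a positive operator `T = p T p` with `⟪x ζ, T (y ζ)⟫ = ⟪η, x* y ξ⟫`; `T` commutes with `A`, so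
`T ∈ B`; take `ω := l ζ` with `l` from `exists_sqrt'`.
(One way to build `T`: the functional `y ζ ↦ ⟪η, y ξ⟫`-type extensions by density,
`ContinuousLinearMap.extend` or `LinearMap.extendOfNorm`, or `InnerProductSpace.toDual` on the
closed subspace.) -/
theorem pos_vec {A B : Alg H} (h : CP A B) (ξ η : H)
    (hp : ∀ x ∈ A, 0 ≤ (⟪η, (star x * x) ξ⟫_ℂ).re ∧ (⟪η, (star x * x) ξ⟫_ℂ).im = 0) :
    ∃ ω : H, ∀ x ∈ A, ⟪ω, x ω⟫_ℂ = ⟪η, x ξ⟫_ℂ := by
  let ev : H → A →ₗ[ℂ] H := fun ζ =>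
    { toFun := fun a => (a : Op H) ζ
      map_add' := fun _ _ => rfl
      map_smul' := fun _ _ => rfl }
  obtain ⟨p, hp1, hp2, hp3, hp4⟩ := tl_supp (LinearMap.range (ev (ξ + η)) : Set H)
  rw [Submodule.span_eq] at hp3
  have hc : ∀ c ∈ A, c * p = p * c := fun c hc => hp4 c
    (by rintro _ ⟨a, rfl⟩; exact ⟨⟨c * a, mul_mem hc a.2⟩, rfl⟩)
    (by rintro _ ⟨a, rfl⟩; exact ⟨⟨star c * a, mul_mem (star_mem hc) a.2⟩, rfl⟩)
  let e : A × H →ₗ[ℂ] H := (ev (ξ + η)).coprod (1 - p : Op H).toLinearMap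
  have he : ∀ z : A × H, e z = (z.1 : Op H) (ξ + η) + (z.2 - p z.2) := fun z => rfl
  let f : A × H →ₗ[ℂ] H := ev η ∘ₗ LinearMap.fst ℂ A H
  let g : A × H →ₗ[ℂ] H := ev ξ ∘ₗ LinearMap.fst ℂ A H
  have hd : DenseRange e := fun u => by
    have h3 := map_mem_closure (f := fun ζ : H => ζ + (u - p u)) (t := Set.range e)
      (by fun_prop) (hp3 u) (by rintro _ ⟨c, rfl⟩; exact ⟨(c, u), rfl⟩)
    rwa [add_sub_cancel] at h3
  have hfg : ∀ z : A × H, ⟪f z, g z⟫_ℂ = ⟪η, (star (z.1 : Op H) * z.1) ξ⟫_ℂ := fun z =>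
    (ContinuousLinearMap.adjoint_inner_right (z.1 : Op H) η _).symm
  have him : ∀ z, (⟪f z, g z⟫_ℂ).im = 0 := fun z => by rw [hfg]; exact (hp _ z.1.2).2
  have hre : ∀ z, 0 ≤ (⟪f z, g z⟫_ℂ).re := fun z => by rw [hfg]; exact (hp _ z.1.2).1
  have hle : ∀ z, (⟪f z, g z⟫_ℂ).re ≤ ‖e z‖ ^ 2 := fun z => by
    have h3 : p (e z) = f z + g z := by
      have h4 : p (p z.2) = p z.2 := congrArg (fun T : Op H => T z.2) hp1.isIdempotentElem.eq
      rw [he, map_add, map_sub, h4, sub_self, add_zero, hp2 ((z.1 : Op H) (ξ + η)) ⟨z.1, rfl⟩,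
        map_add, add_comm]
      rfl
    have h5 : ‖f z + g z‖ ≤ ‖e z‖ := by
      rw [← h3]
      exact (p.le_of_opNorm_le hp1.norm_le _).trans (one_mul _).le
    have h6 := norm_add_sq (𝕜 := ℂ) (f z) (g z)
    have h7 := hre z
    have h8 : ‖f z + g z‖ ^ 2 ≤ ‖e z‖ ^ 2 := pow_le_pow_left₀ (norm_nonneg _) h5 2
    rw [RCLike.re_to_complex] at h6
    nlinarith [sq_nonneg ‖f z‖, sq_nonneg ‖g z‖]
  obtain ⟨T, hT⟩ := ipos_riesz e f g hd (ipos_cs e f g him hre hle)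
  have ext : ∀ S S' : Op H, (∀ x y, ⟪S (e x), e y⟫_ℂ = ⟪S' (e x), e y⟫_ℂ) → S = S' := by
    intro S S' h
    refine ContinuousLinearMap.ext fun u => ext_inner_right ℂ fun v => ?_
    exact hd.induction_on₂ (p := fun u v => ⟪S u, v⟫_ℂ = ⟪S' u, v⟫_ℂ)
      (isClosed_eq (by fun_prop) (by fun_prop)) h u v
  have hs : star T = T := ext _ _ fun x y => by
    rw [hT, ← ipos_herm f g him, ← hT, inner_conj_symm]
    exact ContinuousLinearMap.adjoint_inner_left T _ _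
  have h0 : ∀ u, 0 ≤ (⟪u, T u⟫_ℂ).re := fun u => by
    refine hd.induction_on u (isClosed_le continuous_const (by fun_prop)) fun x => ?_
    rw [← inner_conj_symm, Complex.conj_re, hT]
    exact hre x
  have hact : ∀ c (hcA : c ∈ A) (z : A × H), c (e z) = e (⟨c * z.1, mul_mem hcA z.1.2⟩, c z.2) := by
    intro c hcA z
    have h4 : c (p z.2) = p (c z.2) := congrArg (fun T : Op H => T z.2) (hc c hcA)
    rw [he, he, map_add, map_sub, h4]
    rfl
  have hcT : ∀ c ∈ A, c * T = T * c := fun c hcA => ext _ _ fun x y => by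
    have h3 : ⟪(c * T) (e x), e y⟫_ℂ = ⟪T (e x), star c (e y)⟫_ℂ :=
      (ContinuousLinearMap.adjoint_inner_right c _ _).symm
    rw [h3, hact _ (star_mem hcA), hT, mul_apply_eq_comp, hact _ hcA, hT]
    exact ContinuousLinearMap.adjoint_inner_right c _ _
  obtain ⟨l, hl1, hl2, hl3⟩ := exists_sqrt' T hs h0
  refine ⟨l (ξ + η), fun x hx => ?_⟩
  have h1 : x (l (ξ + η)) = l (x (ξ + η)) :=
    congrArg (fun S : Op H => S (ξ + η)) (hl3 x (hcT x hx))
  have h2 : ⟪l (ξ + η), l (x (ξ + η))⟫_ℂ = ⟪T (ξ + η), x (ξ + η)⟫_ℂ := by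
    rw [← hl2, ← ContinuousLinearMap.adjoint_inner_left l]
    exact congrArg (fun S : Op H => ⟪S (l (ξ + η)), x (ξ + η)⟫_ℂ) hl1
  have h3 := hT (1, 0) (⟨x, hx⟩, 0)
  rw [he, he, map_zero, sub_zero, add_zero, add_zero] at h3
  rw [h1, h2]
  exact h3

end Vale.Agent.P132
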