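import Vale.Agent.P132.IBL
import Vale.Agent.P132.IDiff

/-! The spectrum of a product. -/

set_option linter.unusedSectionVars false

namespace Vale.Agent.P132

open Filter Topology MeasureTheory Vale.Agent.P096 Vale.Agent.P096b
open scoped InnerProductSpace ComplexConjugate

universe u

variable {H : Type u} [NormedAddCommGroup H] [InnerProductSpace ℂ H] [CompleteSpace H]
  {K : Type u} [NormedAddCommGroup K] [InnerProductSpace ℂ K] [CompleteSpace K]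

theorem iprod_ex (τ s κ : ℝ) : ‖ex τ (-s) * ex τ κ - 1‖ ≤ |τ| * |κ - s| := by
  rw [← ex_add', ← abs_mul]
  have : ex τ (-s + κ) = Complex.exp (Complex.I * (τ * (κ - s) : ℝ)) := by
    unfold ex; congr 1; push_cast; ring
  rw [this]
  exact Real.norm_exp_I_mul_ofReal_sub_one_le

theorem iprod_diff {Φ : Calc K} {s δ τ : ℝ} (hδ : 0 ≤ δ) (hτ : 0 ≤ τ) {η : K} (h : BL Φ s δ η) :
    ‖ex τ (-s) • Φ.U τ η - η‖ ≤ τ * δ * ‖η‖ := by
  have hb : BC fun κ => ex τ (-s) * ex τ κ := (bc_ex τ).cmul _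
  have := h.norm_le hδ (hb.sub (BC.const 1)) (C := τ * δ) fun κ hκ =>
    (iprod_ex τ s κ).trans (by rw [abs_of_nonneg hτ]; exact mul_le_mul_of_nonneg_left hκ hτ)
  rwa [Φ.sub hb (BC.const 1), Φ.smul _ (bc_ex τ), Φ.one] at this

theorem iprod_comm (Φ : Calc K) (c : ℂ) (τ t : ℝ) :
    Φ.U t * (c • Φ.U τ) = c • Φ.U τ * Φ.U t := by
  rw [mul_smul_comm, smul_mul_assoc, ← Φ.U_add, ← Φ.U_add, add_comm]

theorem iprod_comm' (Φ : Calc K) (c : ℂ) (τ t : ℝ) :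
    Φ.U t * (c • Φ.U τ - 1) = (c • Φ.U τ - 1) * Φ.U t := by
  rw [mul_sub, sub_mul, iprod_comm, mul_one, one_mul]

theorem iprod_ind {A B : Alg K} {ξ : K} (μ : Mod A B ξ) {a b δ τ : ℝ} (hδ : 0 ≤ δ) (hτ : 0 ≤ τ)
    (n : ℕ) : ∀ z ∈ A, ∀ w ∈ B, BL μ.toCalc a δ (z ξ) → BL μ.toCalc b δ (w ξ) →
      ‖((ex τ (-(a + b)) • μ.U τ - 1) ^ n : Op K) (z (w ξ))‖ ^ 2 ≤
        ‖z‖ * ‖w ξ‖ * (‖w‖ * ‖z ξ‖) * (8 * (τ * δ)) ^ n := by
  induction n with
  | zero =>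
    intro z hz w hw _ _
    have e : z (w ξ) = w (z ξ) := congrArg (fun x : Op K => x ξ) ((μ.cp.left z).1 hz w hw)
    rw [pow_zero, pow_zero, mul_one, ContinuousLinearMap.one_apply, sq]
    refine mul_le_mul (z.le_opNorm _) ?_ (norm_nonneg _) (by positivity)
    rw [e]; exact w.le_opNorm _
  | succ n ih =>
    intro z hz w hw h1 h2
    have sv : ∀ x : Op K, μ.σ τ x ξ = μ.U τ (x ξ) := fun x => μ.σ_vec μ.cp τ x
    set P : Op K := ex τ (-a) • μ.σ τ z - z with hP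
    set S : Op K := ex τ (-b) • μ.σ τ w with hS
    have Pv : P ξ = ex τ (-a) • μ.U τ (z ξ) - z ξ := by simp [hP, sv]
    have Sv : S ξ = ex τ (-b) • μ.U τ (w ξ) := by simp [hS, sv]
    have Qv : (S - w) ξ = ex τ (-b) • μ.U τ (w ξ) - w ξ := by simp [Sv]
    have PA : P ∈ A := sub_mem (A.smul_mem (μ.uA τ z hz) _) hz
    have SB : S ∈ B := B.smul_mem (μ.uB τ hw) _
    have nS : ‖S‖ = ‖w‖ := by rw [hS, norm_smul, norm_ex, one_mul, μ.norm_σ]
    have nP : ‖P‖ ≤ 2 * ‖z‖ := by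
      refine (norm_sub_le _ _).trans ?_
      rw [norm_smul, norm_ex, one_mul, μ.norm_σ]; linarith
    have nQ : ‖S - w‖ ≤ 2 * ‖w‖ := by
      refine (norm_sub_le _ _).trans ?_
      rw [nS]; linarith
    have nSv : ‖S ξ‖ = ‖w ξ‖ := by rw [Sv, norm_smul, norm_ex, one_mul, μ.norm_U]
    have nPv : ‖P ξ‖ ≤ τ * δ * ‖z ξ‖ := by rw [Pv]; exact iprod_diff hδ hτ h1
    have nQv : ‖(S - w) ξ‖ ≤ τ * δ * ‖w ξ‖ := by rw [Qv]; exact iprod_diff hδ hτ h2
    have b1 : BL μ.toCalc a δ (P ξ) := by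
      rw [Pv]; exact h1.map (iprod_comm' μ.toCalc (ex τ (-a)) τ)
    have b2 : BL μ.toCalc b δ (S ξ) := by
      rw [Sv]; exact h2.map (iprod_comm μ.toCalc (ex τ (-b)) τ)
    have b3 : BL μ.toCalc b δ ((S - w) ξ) := by
      rw [Qv]; exact h2.map (iprod_comm' μ.toCalc (ex τ (-b)) τ)
    have key : (ex τ (-(a + b)) • μ.U τ - 1 : Op K) (z (w ξ)) = P (S ξ) + z ((S - w) ξ) := by
      have e : μ.U τ (z (w ξ)) = μ.σ τ z (μ.U τ (w ξ)) := by
        have := sv (z * w)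
        rw [μ.σ_mul, ContinuousLinearMap.mul_apply, sv] at this
        exact this.symm
      rw [Qv, Sv, neg_add, ex_add']
      simp only [hP, ContinuousLinearMap.sub_apply, ContinuousLinearMap.smul_apply,
        ContinuousLinearMap.one_apply, e, map_smul, map_sub, smul_sub, smul_smul]
      rw [mul_comm (ex τ (-b))]
      abel
    rw [pow_succ _ n, ContinuousLinearMap.mul_apply, key, map_add]
    have i1 := ih P PA S SB b1 b2
    have i2 := ih z hz (S - w) (sub_mem SB hw) h1 b3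
    rw [nS, nSv] at i1
    have p0 : 0 ≤ (8 * (τ * δ)) ^ n := by positivity
    have j1 : ‖P‖ * ‖w ξ‖ * (‖w‖ * ‖P ξ‖) ≤ 2 * ‖z‖ * ‖w ξ‖ * (‖w‖ * (τ * δ * ‖z ξ‖)) := by
      gcongr
    have j2 : ‖z‖ * ‖(S - w) ξ‖ * (‖S - w‖ * ‖z ξ‖) ≤
        ‖z‖ * (τ * δ * ‖w ξ‖) * (2 * ‖w‖ * ‖z ξ‖) := by
      gcongr
    refine (erg_sq _ _).trans ?_
    have k1 := i1.trans (mul_le_mul_of_nonneg_right j1 p0)
    have k2 := i2.trans (mul_le_mul_of_nonneg_right j2 p0)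
    rw [pow_succ _ n]
    nlinarith

/-- Products of band limited elements. Let `P x := ex τ (-a) • σ τ x - x`,
`Q x := ex τ (-b) • σ τ x - x`, `S x := ex τ (-b) • σ τ x` on operators. Then
`(ex τ (-(a+b)) U τ - 1) (z w ξ) = (P z) (S w) ξ + z (Q w) ξ`; iterate (binomial formula in the
commuting maps, or induction on a bound for `‖(P^j z) (S^j Q^m w) ξ‖`). Each term is at most
`2^j ‖z‖ (τ δ)^m ‖w ξ‖` and, replacing `w` by its partner `w'` (which commutes with `P^j z`),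
at most `2^m ‖w'‖ (τ δ)^j ‖z ξ‖` (`BL.norm_le`, `σ_vec`, `uB`). Multiply the two bounds:
the square of a term is at most `C (2 τ δ)^(j+m)`. Then use `bl_of_diff`. -/
theorem bl_prod {A B : Alg K} {ξ : K} (μ : Mod A B ξ) {a b δ : ℝ} (hδ : 0 < δ) {z w w' : Op K}
    (hz : z ∈ A) (hw : w ∈ A) (hw' : w' ∈ B) (e : w ξ = w' ξ) (h1 : BL μ.toCalc a δ (z ξ))
    (h2 : BL μ.toCalc b δ (w ξ)) : BL μ.toCalc (a + b) (30 * δ) ((z * w) ξ) := by
  have _ := hw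
  refine bl_of_diff μ.toCalc hδ (C := ‖z‖ * ‖w' ξ‖ * (‖w'‖ * ‖z ξ‖)) fun τ hτ _ n => ?_
  rw [ContinuousLinearMap.mul_apply, e]
  refine (iprod_ind μ hδ.le hτ.le n z hz w' hw' h1 (e ▸ h2)).trans ?_
  have : 0 ≤ τ * δ := by positivity
  gcongr
  norm_num

end Vale.Agent.P132
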